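import Mathlib.Data.ZMod.Basic
import Mathlib.Tactic.Ring
import Vale.Agent.P263.E.Simp

/-!
# P263, block C6 (helper391): change of coefficients for functions on simplicial sets

`chg φ : F R X → F S X`; lifting along `ZMod n → ZMod m`; `F₂`-acyclicity of a pair in degree `m + 1`
implies `ZMod (2^s)`-acyclicity (`acyc_pow`), and the division lemma `red_four`.
-/

namespace Vale.Agent.P263.C

open Vale.Agent.P263.S Vale.Agent.P263.E

section chg

variable {R S : Type} [CommRing R] [CommRing S] {X Y : SS}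

/-- change of coefficients -/
def chg (φ : R →+* S) {p : ℕ} (c : (SS.F R X).obj p) : (SS.F S X).obj p := fun x => φ (c x)

@[simp] theorem chg_apply (φ : R →+* S) {p : ℕ} (c : (SS.F R X).obj p) (x : X.obj p) :
    chg φ c x = φ (c x) := rfl

theorem chg_add (φ : R →+* S) {p : ℕ} (a b : (SS.F R X).obj p) :
    chg φ (a + b) = chg φ a + chg φ b := funext fun x => map_add φ (a x) (b x)

theorem chg_sub (φ : R →+* S) {p : ℕ} (a b : (SS.F R X).obj p) :
    chg φ (a - b) = chg φ a - chg φ b := funext fun x => map_sub φ (a x) (b x)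

theorem chg_zero (φ : R →+* S) {p : ℕ} : chg φ (0 : (SS.F R X).obj p) = 0 :=
  funext fun _ => map_zero φ

theorem chg_smul (φ : R →+* S) {p : ℕ} (r : R) (a : (SS.F R X).obj p) :
    chg φ (r • a) = φ r • chg φ a := funext fun x => map_mul φ r (a x)

theorem chg_map (φ : R →+* S) {p q : ℕ} (f : Op p q) (c : (SS.F R X).obj p) :
    chg φ ((SS.F R X).map f c) = (SS.F S X).map f (chg φ c) := rfl

theorem chg_d (φ : R →+* S) {p : ℕ} (c : (SS.F R X).obj p) :
    (SS.F S X).d p (chg φ c) = chg φ ((SS.F R X).d p c) := by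
  funext x
  rw [chg_apply, SS.F_d, SS.F_d, map_sum]
  refine Finset.sum_congr rfl fun i _ => ?_
  exact (CosMod.sn_map φ.toAddMonoidHom i _).symm

theorem chg_pull (φ : R →+* S) (f : SS.Map X Y) {p : ℕ} (c : (SS.F R Y).obj p) :
    chg φ ((f.pull (R := R)).app p c) = (f.pull (R := S)).app p (chg φ c) := rfl

theorem chg_mem_Z (φ : R →+* S) {p : ℕ} {c : (SS.F R X).obj p} (hc : c ∈ (SS.F R X).Z p) :
    chg φ c ∈ (SS.F S X).Z p := by
  rw [CosMod.mem_Z] at *
  rw [chg_d, hc, chg_zero]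

theorem chg_surj (φ : R →+* S) (hφ : Function.Surjective φ) {p : ℕ} (c : (SS.F S X).obj p) :
    ∃ c' : (SS.F R X).obj p, chg φ c' = c :=
  ⟨fun x => (hφ (c x)).choose, funext fun x => (hφ (c x)).choose_spec⟩

end chg

section zmod

theorem cast_ker {n m : ℕ} [NeZero n] (h : m ∣ n) {x : ZMod n}
    (hx : ZMod.castHom h (ZMod m) x = 0) : ∃ y : ZMod n, x = (m : ZMod n) * y := by
  have e : ((x.val : ℕ) : ZMod m) = 0 := by
    rw [ZMod.castHom_apply, ZMod.cast_eq_val] at hx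
    exact hx
  rw [ZMod.natCast_eq_zero_iff] at e
  obtain ⟨k, hk⟩ := e
  refine ⟨(k : ZMod n), ?_⟩
  rw [← Nat.cast_mul, ← hk, ZMod.natCast_zmod_val]

theorem cast_tors {n m k : ℕ} [NeZero n] (hn : n = k * m) (hk : 0 < k) (h : m ∣ n) {x : ZMod n}
    (hx : (k : ZMod n) * x = 0) : ZMod.castHom h (ZMod m) x = 0 := by
  have e : ((k * x.val : ℕ) : ZMod n) = 0 := by
    rw [Nat.cast_mul, ZMod.natCast_zmod_val, hx]
  rw [ZMod.natCast_eq_zero_iff] at e
  have e2 : m ∣ x.val := Nat.dvd_of_mul_dvd_mul_left hk (hn ▸ e : k * m ∣ k * x.val)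
  rw [ZMod.castHom_apply, ZMod.cast_eq_val]
  exact (ZMod.natCast_eq_zero_iff _ _).2 e2

theorem cast_surj {n m : ℕ} (h : m ∣ n) : Function.Surjective (ZMod.castHom h (ZMod m)) :=
  ZMod.ringHom_surjective _

end zmod

/-- a family of simplices -/
abbrev Fam (X : SS) : Type := ∀ p : ℕ, X.obj p → Prop

/-- the relative cochains: functions which vanish on the family -/
def Van {R : Type} [CommRing R] {X : SS} (P : Fam X) {p : ℕ} (c : (SS.F R X).obj p) : Prop :=
  ∀ x, P p x → c x = 0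

/-- the family is closed under the structure maps -/
def Fam.Closed {X : SS} (P : Fam X) : Prop := ∀ {p q : ℕ} (f : Op p q) (x : X.obj q), P q x → P p (X.map f x)

/-- `H^(m+1)` of the pair `(X, P)` with coefficients `R` vanishes -/
def Acyc (R : Type) [CommRing R] {X : SS} (P : Fam X) (m : ℕ) : Prop :=
  ∀ c : (SS.F R X).obj (m + 1), Van P c → (SS.F R X).d (m + 1) c = 0 →
    ∃ e : (SS.F R X).obj m, Van P e ∧ (SS.F R X).d m e = c

section van

variable {R : Type} [CommRing R] {X : SS} {P : Fam X}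

theorem Van.add {p : ℕ} {a b : (SS.F R X).obj p} (ha : Van P a) (hb : Van P b) :
    Van P (a + b) := fun x hx => by
  show a x + b x = 0
  rw [ha x hx, hb x hx, add_zero]

theorem Van.sub {p : ℕ} {a b : (SS.F R X).obj p} (ha : Van P a) (hb : Van P b) :
    Van P (a - b) := fun x hx => by
  show a x - b x = 0
  rw [ha x hx, hb x hx, sub_zero]

theorem Van.smul {p : ℕ} {a : (SS.F R X).obj p} (r : R) (ha : Van P a) :
    Van P (r • a) := fun x hx => by
  show r * a x = 0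
  rw [ha x hx, mul_zero]

theorem Van.zero {p : ℕ} : Van P (0 : (SS.F R X).obj p) := fun _ _ => rfl

theorem Van.d (hP : P.Closed) {p : ℕ} {a : (SS.F R X).obj p} (ha : Van P a) :
    Van P ((SS.F R X).d p a) := fun x hx => by
  rw [SS.F_d]
  refine Finset.sum_eq_zero fun i _ => ?_
  rw [ha _ (hP _ _ hx)]
  simp [sn]

theorem Van.chg {S : Type} [CommRing S] (φ : R →+* S) {p : ℕ} {a : (SS.F R X).obj p}
    (ha : Van P a) : Van P (chg φ a) := fun x hx => by
  rw [chg_apply, ha x hx, map_zero]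

/-- lifting relative cochains -/
theorem Van.lift {S : Type} [CommRing S] (φ : R →+* S) (hφ : Function.Surjective φ) {p : ℕ}
    {a : (SS.F S X).obj p} (ha : Van P a) :
    ∃ a' : (SS.F R X).obj p, Van P a' ∧ C.chg φ a' = a := by
  classical
  obtain ⟨b, hb⟩ := chg_surj φ hφ a
  refine ⟨fun x => if P p x then 0 else b x, fun x hx => if_pos hx, ?_⟩
  funext x
  show φ (if P p x then 0 else b x) = a x
  by_cases h : P p x
  · rw [if_pos h, map_zero, ha x h]
  · rw [if_neg h]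
    exact congrFun hb x

/-- dividing relative cochains -/
theorem Van.div {n m p : ℕ} [NeZero n] (h : m ∣ n) {a : (SS.F (ZMod n) X).obj p} (ha : Van P a)
    (h0 : C.chg (ZMod.castHom h (ZMod m)) a = 0) :
    ∃ b : (SS.F (ZMod n) X).obj p, Van P b ∧ a = (m : ZMod n) • b := by
  classical
  have key : ∀ x, ∃ y : ZMod n, a x = (m : ZMod n) * y := fun x => cast_ker h (congrFun h0 x)
  choose b hb using key
  refine ⟨fun x => if P p x then 0 else b x, fun x hx => if_pos hx, ?_⟩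
  funext x
  show a x = (m : ZMod n) * (if P p x then 0 else b x)
  by_cases h : P p x
  · rw [if_pos h, mul_zero, ha x h]
  · rw [if_neg h, hb x]

end van

theorem smul_d {R : Type} [CommRing R] {X : SS} {p : ℕ} (r : R) (c : (SS.F R X).obj p) :
    (SS.F R X).d p (r • c) = r • (SS.F R X).d p c := map_smul _ _ _

/-- `(C6a)`, `(C6c)`: acyclicity over `F₂` in degree `m + 1` implies acyclicity over `Z/2^s` -/
theorem acyc_pow {X : SS} {P : Fam X} (hP : P.Closed) {m : ℕ} (h : Acyc (ZMod 2) P m) :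
    ∀ s : ℕ, Acyc (ZMod (2 ^ s)) P m
  | 0 => by
    intro c _ _
    refine ⟨0, Van.zero, ?_⟩
    funext x
    have : Subsingleton (ZMod (2 ^ 0)) := by
      rw [pow_zero]; infer_instance
    exact Subsingleton.elim _ _
  | s + 1 => by
    intro c hc hd
    have : NeZero (2 ^ (s + 1)) := ⟨pow_ne_zero _ two_ne_zero⟩
    have d1 : 2 ^ s ∣ 2 ^ (s + 1) := ⟨2, by ring⟩
    have d2 : 2 ∣ 2 ^ (s + 1) := ⟨2 ^ s, by ring⟩
    obtain ⟨g, hg, hgd⟩ := acyc_pow hP h s (chg (ZMod.castHom d1 (ZMod (2 ^ s))) c) (hc.chg _)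
      (by rw [chg_d, hd, chg_zero])
    obtain ⟨g', hg', hgg⟩ := hg.lift (ZMod.castHom d1 (ZMod (2 ^ s))) (cast_surj d1)
    obtain ⟨k, hk, hck⟩ := (hc.sub (hg'.d hP)).div d1
      (by rw [chg_sub, ← chg_d, hgg, hgd, sub_self])
    have hdk : chg (ZMod.castHom d2 (ZMod 2)) ((SS.F _ X).d (m + 1) k) = 0 := by
      funext x
      refine cast_tors (k := 2 ^ s) (by ring) (pow_pos two_pos _) d2 ?_
      have e := congrArg (fun f => (SS.F (ZMod (2 ^ (s + 1))) X).d (m + 1) f x) hck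
      simp only [map_sub, CosMod.d_d, hd, smul_d, sub_zero] at e
      exact e.symm
    obtain ⟨l, hl, hld⟩ := h (chg (ZMod.castHom d2 (ZMod 2)) k) (hk.chg _) (by rw [chg_d, hdk])
    obtain ⟨l', hl', hll⟩ := hl.lift (ZMod.castHom d2 (ZMod 2)) (cast_surj d2)
    obtain ⟨k', hk', hkk⟩ := (hk.sub (hl'.d hP)).div d2
      (by rw [chg_sub, ← chg_d, hll, hld, sub_self])
    refine ⟨g' + ((2 ^ s : ℕ) : ZMod (2 ^ (s + 1))) • l', hg'.add (hl'.smul _), ?_⟩
    have e0 : (((2 ^ s : ℕ) : ZMod (2 ^ (s + 1))) * ((2 : ℕ) : ZMod (2 ^ (s + 1)))) = 0 := by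
      rw [← Nat.cast_mul, ← pow_succ, ZMod.natCast_self]
    have e1 : ((2 ^ s : ℕ) : ZMod (2 ^ (s + 1))) • k =
        ((2 ^ s : ℕ) : ZMod (2 ^ (s + 1))) • (SS.F _ X).d m l' := by
      rw [← sub_eq_zero, ← smul_sub, hkk, smul_smul, e0, zero_smul]
    rw [map_add, smul_d, ← e1, ← hck]
    abel

/-- `(C6b)`: if `H^(m+1)(X, P; F₂) = 0`, `c` is a relative cocycle of degree `m + 2` over
`Z/2^(s+2)` and `2^s c` is a relative coboundary, then the reduction of `c` mod `4` is a relative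
coboundary. -/
theorem red_four {X : SS} {P : Fam X} (hP : P.Closed) {m : ℕ} (h : Acyc (ZMod 2) P m) (s : ℕ)
    (h4 : 4 ∣ 2 ^ (s + 2)) {c : (SS.F (ZMod (2 ^ (s + 2))) X).obj (m + 2)}
    {e : (SS.F (ZMod (2 ^ (s + 2))) X).obj (m + 1)} (he : Van P e)
    (hce : (SS.F _ X).d (m + 1) e = ((2 ^ s : ℕ) : ZMod (2 ^ (s + 2))) • c) :
    ∃ k : (SS.F (ZMod 4) X).obj (m + 1), Van P k ∧
      (SS.F _ X).d (m + 1) k = chg (ZMod.castHom h4 (ZMod 4)) c := by
  have : NeZero (2 ^ (s + 2)) := ⟨pow_ne_zero _ two_ne_zero⟩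
  have d1 : 2 ^ s ∣ 2 ^ (s + 2) := ⟨4, by ring⟩
  obtain ⟨g, hg, hgd⟩ := acyc_pow hP h s (chg (ZMod.castHom d1 (ZMod (2 ^ s))) e) (he.chg _)
    (by
      rw [chg_d, hce, chg_smul, map_natCast, ZMod.natCast_self, zero_smul])
  obtain ⟨g', hg', hgg⟩ := hg.lift (ZMod.castHom d1 (ZMod (2 ^ s))) (cast_surj d1)
  obtain ⟨k, hk, hck⟩ := (he.sub (hg'.d hP)).div d1
    (by rw [chg_sub, ← chg_d, hgg, hgd, sub_self])
  refine ⟨chg (ZMod.castHom h4 (ZMod 4)) k, hk.chg _, ?_⟩
  rw [chg_d, eq_comm, ← sub_eq_zero, ← chg_sub]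
  funext x
  refine cast_tors (k := 2 ^ s) (by ring) (pow_pos two_pos _) h4 ?_
  have e2 := congrArg (fun f => (SS.F (ZMod (2 ^ (s + 2))) X).d (m + 1) f) hck
  simp only [map_sub, CosMod.d_d, hce, smul_d, sub_zero] at e2
  have e3 : ((2 ^ s : ℕ) : ZMod (2 ^ (s + 2))) • (c - (SS.F _ X).d (m + 1) k) = 0 := by
    rw [smul_sub, e2, sub_self]
  exact congrFun e3 x

end Vale.Agent.P263.C
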