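import Vale.Agent.P263.C.Bock
import Vale.Agent.P263.C.Red
import Vale.Agent.P263.S.Defs

/-!
# P263, block C: reduction modulo 2 of the `ℤ/4`-valued functions on a simplicial set
-/

noncomputable section

namespace Vale.Agent.P263.C

open Vale.Agent.P263.S Vale.Agent.P263.E

/-- the reduction `ℤ/4 → ℤ/2` -/
abbrev r42 : ZMod 4 →+* ZMod 2 := ZMod.castHom (by norm_num : 2 ∣ 4) (ZMod 2)

theorem r42_two {x : ZMod 4} (h : r42 x = 0) : ∃ y, x = y + y := by
  revert x; decide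

theorem r42_ker {x : ZMod 4} (h : x + x = 0) : r42 x = 0 := by
  revert x; decide

/-- the reduction of functions -/
def bkF (X : SS) : Bk (SS.F (ZMod 4) X) (SS.F (ZMod 2) X) where
  red p :=
    { toFun := fun c => chg r42 c
      map_zero' := chg_zero r42
      map_add' := chg_add r42 }
  nat φ a := chg_map r42 φ a
  surj p x := chg_surj r42 (cast_surj _) x
  two p a h := by
    have h1 : ∀ x, ∃ y, a x = y + y := fun x => r42_two (congrFun h x)
    choose b hb using h1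
    exact ⟨b, funext hb⟩
  ker p a h := funext fun x => r42_ker (congrFun h x)

@[simp] theorem bkF_red (X : SS) (p : ℕ) (c : (SS.F (ZMod 4) X).obj p) :
    (bkF X).red p c = chg r42 c := rfl

/-- reductions of sub-objects: enough to know that elements can be lifted and halved inside -/
def Bk.sub {R : Type} [CommRing R] {A : CosMod R} {B : CosMod (ZMod 2)} (β : Bk A B)
    (P : ∀ p, Submodule R (A.obj p)) (hP : ∀ {p q : ℕ} (φ : Op p q) (x : A.obj p), x ∈ P p →
      A.map φ x ∈ P q)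
    (Q : ∀ p, Submodule (ZMod 2) (B.obj p)) (hQ : ∀ {p q : ℕ} (φ : Op p q) (x : B.obj p), x ∈ Q p →
      B.map φ x ∈ Q q)
    (h1 : ∀ p a, a ∈ P p → β.red p a ∈ Q p)
    (h2 : ∀ p x, x ∈ Q p → ∃ a ∈ P p, β.red p a = x)
    (h3 : ∀ p a, a ∈ P p → β.red p a = 0 → ∃ b ∈ P p, a = b + b) :
    Bk (S.sub A P hP) (S.sub B Q hQ) where
  red p :=
    { toFun := fun x => ⟨β.red p x.1, h1 p x.1 x.2⟩
      map_zero' := Subtype.ext (map_zero _)
      map_add' := fun x y => Subtype.ext (map_add _ _ _) }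
  nat φ a := Subtype.ext (β.nat φ a.1)
  surj p x := by
    obtain ⟨a, ha, h⟩ := h2 p x.1 x.2
    exact ⟨⟨a, ha⟩, Subtype.ext h⟩
  two p a h := by
    obtain ⟨b, hb, h⟩ := h3 p a.1 a.2 (congrArg Subtype.val h)
    exact ⟨⟨b, hb⟩, Subtype.ext h⟩
  ker p a h := Subtype.ext (β.ker p a.1 (congrArg Subtype.val h))

@[simp] theorem Bk.sub_red {R : Type} [CommRing R] {A : CosMod R} {B : CosMod (ZMod 2)}
    (β : Bk A B) (P : ∀ p, Submodule R (A.obj p)) (hP : ∀ {p q : ℕ} (φ : Op p q) (x : A.obj p),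
      x ∈ P p → A.map φ x ∈ P q)
    (Q : ∀ p, Submodule (ZMod 2) (B.obj p)) (hQ : ∀ {p q : ℕ} (φ : Op p q) (x : B.obj p), x ∈ Q p →
      B.map φ x ∈ Q q) (h1) (h2) (h3) (p : ℕ) (x : (S.sub A P hP).obj p) :
    ((β.sub P hP Q hQ h1 h2 h3).red p x).1 = β.red p x.1 := rfl

end Vale.Agent.P263.C
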