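import Vale.Agent.P263.C.BkK

/-!
# P263, block C (helper391): reductions of families of functions

`Bk.ofInj`: a reduction for a sub-object (given by an injective map); `Bk.ofEqns`: the functions on
`X` which satisfy equations `f x = f y` (for example: constant on a subset).
-/

noncomputable section

namespace Vale.Agent.P263.C

open Vale.Agent.P263.S Vale.Agent.P263.E SS

/-- the reduction of a sub-object -/
def Bk.ofInj {R : Type} [CommRing R] {A M : CosMod R} {A' M' : CosMod (ZMod 2)} (βM : Bk M M')
    (i : Hom A M) (i' : Hom A' M') (hi : ∀ p, Function.Injective (i.app p))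
    (hi' : ∀ p, Function.Injective (i'.app p)) (redA : ∀ p, A.obj p →+ A'.obj p)
    (comm : ∀ p a, i'.app p (redA p a) = βM.red p (i.app p a))
    (surj : ∀ p (x : A'.obj p), ∃ a, βM.red p (i.app p a) = i'.app p x)
    (two : ∀ p (a : A.obj p), βM.red p (i.app p a) = 0 → ∃ b, i.app p a = i.app p b + i.app p b) :
    Bk A A' where
  red := redA
  nat {p q} φ a := by
    apply hi'
    rw [comm, i.nat, βM.nat, ← comm, i'.nat]
  surj p x := by
    obtain ⟨a, ha⟩ := surj p x
    exact ⟨a, hi' p (by rw [comm, ha])⟩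
  two p a h := by
    obtain ⟨b, hb⟩ := two p a (by rw [← comm, h, map_zero])
    exact ⟨b, hi p (by rw [hb, map_add])⟩
  ker p a h := by
    apply hi'
    rw [comm, map_zero]
    exact βM.ker p _ (by rw [← map_add, h, map_zero])

/-- a section of `Z/4 → Z/2` -/
def sec42 (x : ZMod 2) : ZMod 4 := if x = 0 then 0 else 1

theorem r42_sec42 (x : ZMod 2) : r42 (sec42 x) = x := by
  revert x; decide

/-- halves in `Z/4` -/
def half4 (x : ZMod 4) : ZMod 4 := if x = 0 then 0 else 1

theorem half4_add {x : ZMod 4} (h : r42 x = 0) : x = half4 x + half4 x := by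
  revert x; decide

section eqns

variable (X : SS) (Rel : ∀ p, X.obj p → X.obj p → Prop) {A : CosMod (ZMod 4)}
    {A' : CosMod (ZMod 2)} (i : Hom A (F (ZMod 4) X)) (i' : Hom A' (F (ZMod 2) X))
    (hi : ∀ p, Function.Injective (i.app p)) (hi' : ∀ p, Function.Injective (i'.app p))
    (him : ∀ p (f : (F (ZMod 4) X).obj p), (∃ a, i.app p a = f) ↔ ∀ x y, Rel p x y → f x = f y)
    (him' : ∀ p (f : (F (ZMod 2) X).obj p), (∃ a, i'.app p a = f) ↔ ∀ x y, Rel p x y → f x = f y)

include him him' in
theorem eqns_ex (p : ℕ) (a : A.obj p) : ∃ x, i'.app p x = chg r42 (i.app p a) :=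
  (him' p (chg r42 (i.app p a))).2 (fun x y h => by
    rw [chg_apply, chg_apply, (him p (i.app p a)).1 ⟨a, rfl⟩ x y h])

/-- the reduction on elements, as a function -/
def eqnsFun (p : ℕ) (a : A.obj p) : A'.obj p := (eqns_ex X Rel i i' him him' p a).choose

theorem eqnsFun_spec (p : ℕ) (a : A.obj p) :
    i'.app p (eqnsFun X Rel i i' him him' p a) = chg r42 (i.app p a) :=
  (eqns_ex X Rel i i' him him' p a).choose_spec

/-- the reduction on elements -/
def eqnsRed (p : ℕ) : A.obj p →+ A'.obj p :=
  AddMonoidHom.mk' (eqnsFun X Rel i i' him him' p) (fun a b => hi' p (by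
    rw [map_add, eqnsFun_spec, eqnsFun_spec, eqnsFun_spec, map_add, chg_add]))

theorem eqnsRed_spec (p : ℕ) (a : A.obj p) :
    i'.app p (eqnsRed X Rel i i' hi' him him' p a) = chg r42 (i.app p a) :=
  eqnsFun_spec X Rel i i' him him' p a

/-- the reduction of the functions on `X` which satisfy the equations `f x = f y`, `Rel x y` -/
def Bk.ofEqns : Bk A A' :=
  Bk.ofInj (bkF X) i i' hi hi' (eqnsRed X Rel i i' hi' him him')
    (eqnsRed_spec X Rel i i' hi' him him')
    (fun p x => by
      obtain ⟨a, ha⟩ := (him p (fun y => sec42 (i'.app p x y))).2 (fun y z h => by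
        have h1 : i'.app p x y = i'.app p x z := (him' p (i'.app p x)).1 ⟨x, rfl⟩ y z h
        show sec42 (i'.app p x y) = sec42 (i'.app p x z)
        rw [h1])
      refine ⟨a, ?_⟩
      rw [ha]
      funext y
      exact r42_sec42 _)
    (fun p a h => by
      obtain ⟨b, hb⟩ := (him p (fun y => half4 (i.app p a y))).2 (fun y z h => by
        have h1 : i.app p a y = i.app p a z := (him p (i.app p a)).1 ⟨a, rfl⟩ y z h
        show half4 (i.app p a y) = half4 (i.app p a z)
        rw [h1])
      refine ⟨b, ?_⟩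
      rw [hb]
      funext y
      exact half4_add (congrFun h y))

theorem Bk.ofEqns_red (p : ℕ) (a : A.obj p) :
    i'.app p ((Bk.ofEqns X Rel i i' hi hi' him him').red p a) = chg r42 (i.app p a) :=
  eqnsRed_spec X Rel i i' hi' him him' p a

end eqns

end Vale.Agent.P263.C
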