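import Vale.Agent.P263.C.SqOne
import Vale.Agent.P263.C.BkFun
import Vale.Agent.P263.E.SqInst

/-!
# P263, block C4 (helper391): the instance of `BkPow` for the cofibre of a covering

`DatBk.bkPow` : the reductions `K(Z/4) → K(F_2)`, `KT C2 (Z/4) → KT C2 (F_2)` of `BkK` as input of
`BkPow.sq_one_red`, for 659's `Dat.powIn`.
-/

noncomputable section

namespace Vale.Agent.P263.C

open Vale.Agent.P263.S Vale.Agent.P263.E SS

variable {B : SS} {Y : Cov B}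

/-- every pair is a translate -/
theorem exists_ncAct (g : C2) {p : ℕ} (x : (Y.nc C2).tot.obj p) :
    ∃ y, (Y.ncAct g).app y = x := by
  rcases Vale.Agent.P263.E.C2_cases g with rfl | rfl
  · exact ⟨x, by rw [Y.ncAct_one]⟩
  · exact ⟨Y.swap.app x, by rw [Y.ncAct_tau, Y.swap_swap]⟩

/-- the actions on the functions on the pairs are compatible with a change of coefficients -/
theorem chg_act {R R' : Type} [CommRing R] [CommRing R'] (φ : R →+* R') (D : Dat R Y)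
    (D' : Dat R' Y) (s : D.Swp) (s' : D'.Swp) {p : ℕ} (g : C2)
    (f : (F R (Y.nc C2).tot).obj p) : chg φ (s.a.act p g f) = s'.a.act p g (chg φ f) := by
  funext x
  obtain ⟨y, rfl⟩ := exists_ncAct g x
  have h1 := s.ha p g f y
  have h2 := s'.ha p g (chg φ f) y
  rw [s.hL] at h1
  rw [s'.hL] at h2
  rw [chg_apply, h1, h2]
  rfl

namespace DatBk

variable {D4 : Dat (ZMod 4) Y} {D2 : Dat (ZMod 2) Y} (b : DatBk D4 D2)

theorem bKT_act (s4 : D4.Swp) (s2 : D2.Swp) (p : ℕ) (g : C2) (x : (D4.KT C2).obj p) :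
    (b.bKT C2).red p (s4.aK.act p g x) = s2.aK.act p g ((b.bKT C2).red p x) := by
  refine D2.ext' C2 ?_ ?_ ?_
  · rw [s2.zc_act, b.zc_bKT C2, b.zc_bKT C2, s4.zc_act]
  · rw [s2.wc_act, b.wc_bKT C2, b.wc_bKT C2, s4.wc_act]
  · rw [s2.pT_act, b.pT_bKT C2, b.pT_bKT C2, s4.pT_act]
    exact chg_act r42 D4 D2 s4 s2 g _

theorem bKT_mul (m4 : D4.MulK) (m2 : D2.MulK) (p : ℕ) (x y : D4.K.obj p) :
    (b.bKT C2).red p (m4.mul.app p x y) =
      m2.mul.app p (b.bK.red p x) (b.bK.red p y) := by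
  refine D2.ext' C2 ?_ ?_ ?_
  · rw [m2.zc_mul, b.zc_bKT C2, m4.zc_mul, b.mul_I]
    rfl
  · rw [m2.wc_mul, b.wc_bKT C2, m4.wc_mul, b.mul_Z]
    rfl
  · rw [m2.pT_mul, b.pT_bKT C2, m4.pT_mul, b.kw_bK, b.kw_bK, b.rho_comm, b.rho_comm]
    funext t
    exact map_mul r42 _ _

/-- **The reductions as input of `sq_one_red`.** -/
def bkPow (s4 : D4.Swp) (m4 : D4.MulK) (s2 : D2.Swp) (m2 : D2.MulK) (R : ℕ)
    (nil : ∀ n (x : (guHG idC s2.a).H n), (guHG idC s2.a).upow R n x = 0) :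
    BkPow (Dat.powIn s2 m2 R nil) where
  K4 := D4.K
  KK4 := D4.KT C2
  c4 := s4.aK
  i4 := D4.iT C2
  mul4 := m4.mul
  sym4 := m4.sym s4
  bK := b.bK
  bKK := b.bKT C2
  i4_act := s4.hi
  comm_c := b.bKT_act s4 s2
  comm_i _ x := b.bKT_iT C2 x
  comm_mul := b.bKT_mul m4 m2

/-- **C4 for the cofibre of a covering**: `Sq¹ w = 0` for the reduction `w` of a class of `K(Z/4)` of
even degree with `Sq⁰ w = w`. -/
theorem sq_one_red (s4 : D4.Swp) (m4 : D4.MulK) (s2 : D2.Swp) (m2 : D2.MulK) (R : ℕ)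
    (nil : ∀ n (x : (guHG idC s2.a).H n), (guHG idC s2.a).upow R n x = 0)
    (fr : GU.Free (guHG idC (Act.triv C2 D2.K)) D2.K.H)
    (h1 : ∀ n (e : D2.K.H n), fr.cf n n ((hG.pstar C2 D2.K).mapH n e) = e)
    (h2 : ∀ n j (e : D2.K.H n), j < n → fr.cf n j ((hG.pstar C2 D2.K).mapH n e) = 0)
    {q : ℕ} (hq : Even q) (x : D4.K.Z q)
    (h0 : ((Dat.powIn s2 m2 R nil).setup fr).Sq q q (D2.K.cls q (b.bK.redZ q x)) =
      D2.K.cls q (b.bK.redZ q x)) :
    ((Dat.powIn s2 m2 R nil).setup fr).Sq q (q + 1) (D2.K.cls q (b.bK.redZ q x)) = 0 :=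
  (b.bkPow s4 m4 s2 m2 R nil).sq_one_red fr h1 h2 hq x h0

end DatBk

end Vale.Agent.P263.C
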