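import Vale.Agent.P263.E.Seq
import Vale.Agent.P263.C.BkF

/-!
# P263, block C (helper391): reduction of `K(Z/4)`, `KT T (Z/4)` modulo 2

`Bk.ofSES`: a reduction for the first term of a short exact sequence; `DatBk D4 D2`: reductions of
the algebras `I`, `Z` of two inputs `Dat` over the same covering; `DatBk.bK : Bk D4.K D2.K`,
`DatBk.bKT T : Bk (D4.KT T) (D2.KT T)`, compatible with `kz`, `kw`, `zc`, `wc`, `gc`, `iT`, `pT`.
-/

noncomputable section

namespace Vale.Agent.P263.C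

open Vale.Agent.P263.S Vale.Agent.P263.E SS

/-! ### general lemmas -/

/-- product of reductions -/
def Bk.prod {R : Type} [CommRing R] {A A' : CosMod R} {B B' : CosMod (ZMod 2)} (β : Bk A B)
    (β' : Bk A' B') : Bk (A.prod A') (B.prod B') where
  red p := (β.red p).prodMap (β'.red p)
  nat φ a := Prod.ext (β.nat φ a.1) (β'.nat φ a.2)
  surj p x := by
    obtain ⟨a, ha⟩ := β.surj p x.1
    obtain ⟨b, hb⟩ := β'.surj p x.2
    exact ⟨(a, b), Prod.ext ha hb⟩
  two p a h := by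
    obtain ⟨b, hb⟩ := β.two p a.1 (congrArg Prod.fst h)
    obtain ⟨b', hb'⟩ := β'.two p a.2 (congrArg Prod.snd h)
    exact ⟨(b, b'), Prod.ext hb hb'⟩
  ker p a h := Prod.ext (β.ker p a.1 (congrArg Prod.fst h)) (β'.ker p a.2 (congrArg Prod.snd h))

@[simp] theorem Bk.prod_red {R : Type} [CommRing R] {A A' : CosMod R} {B B' : CosMod (ZMod 2)}
    (β : Bk A B) (β' : Bk A' B') (p : ℕ) (a : (A.prod A').obj p) :
    (β.prod β').red p a = (β.red p a.1, β'.red p a.2) := rfl

/-- the reduction of the first term of a short exact sequence -/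
def Bk.ofSES {R : Type} [CommRing R] (h4 : (4 : R) = 0) {A M N : CosMod R}
    {A' M' N' : CosMod (ZMod 2)} (s : SES A M N) (s' : SES A' M' N') (βM : Bk M M')
    (βN : Bk N N') (comm : ∀ p a, βN.red p (s.p.app p a) = s'.p.app p (βM.red p a))
    (redA : ∀ p, A.obj p →+ A'.obj p)
    (hi : ∀ p a, s'.i.app p (redA p a) = βM.red p (s.i.app p a)) : Bk A A' where
  red := redA
  nat {p q} φ a := by
    apply s'.inj
    rw [hi, s.i.nat, βM.nat, ← hi, s'.i.nat]
  surj p x := by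
    obtain ⟨a, ha, ha'⟩ := Bk.ker_surj (β := βM) (β' := βN) s.p s'.p comm s.surj p (s'.i.app p x)
      (s'.pi p x)
    obtain ⟨y, rfl⟩ := s.ex p a ha
    exact ⟨y, s'.inj p (by rw [hi, ha'])⟩
  two p a h := by
    obtain ⟨b, hb, hb'⟩ := Bk.ker_two (β := βM) (β' := βN) s.p s.surj h4 p (s.i.app p a)
      (by rw [← hi, h, map_zero]) (s.pi p a)
    obtain ⟨y, rfl⟩ := s.ex p b hb
    exact ⟨y, s.inj p (by rw [hb', map_add])⟩
  ker p a h := by
    apply s'.inj
    rw [hi, map_zero]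
    exact βM.ker p _ (by rw [← map_add, h, map_zero])

/-! ### functions on coverings -/

section cov

variable {R R' : Type} [CommRing R] [CommRing R'] (φ : R →+* R') {B : SS} (Y : Cov B)

theorem chg_tr {p : ℕ} (f : (F R Y.tot).obj p) :
    chg φ (Y.tr.app p f) = (Y.tr (R := R')).app p (chg φ f) := by
  funext b
  exact map_sum φ (fun y => (f : Y.tot.obj p → R) y) (Y.fib b)

variable (T : Type) [Fintype T] [DecidableEq T]

theorem chg_ext0 {p : ℕ} (g : (F R (Y.nc T).tot).obj p) :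
    chg φ ((Y.ext0 T).app p g) = (Y.ext0 T).app p (chg φ g) := by
  classical
  funext y
  by_cases h : Y.NC y
  · rw [chg_apply, Y.ext0_apply, Y.ext0_apply, dif_pos h, dif_pos h]
    rfl
  · rw [chg_apply, Y.ext0_apply, Y.ext0_apply, dif_neg h, dif_neg h, map_zero]

theorem chg_dext [Nonempty T] {p : ℕ} (g : (F R Y.tot).obj p) :
    chg φ ((Y.dext T).app p g) = (Y.dext T).app p (chg φ g) := by
  classical
  funext y
  by_cases h : Y.NC y
  · rw [chg_apply, Y.dext_apply, Y.dext_apply, if_pos h, if_pos h, map_zero]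
  · rw [chg_apply, Y.dext_apply, Y.dext_apply, if_neg h, if_neg h]
    rfl

end cov

/-! ### `K` and `KT T` -/

variable {B : SS} {Y : Cov B}

/-- reductions of the inputs `I`, `Z` over the same covering -/
structure DatBk (D4 : Dat (ZMod 4) Y) (D2 : Dat (ZMod 2) Y) where
  /-- the reduction of `I` -/
  bI : Bk D4.I D2.I
  /-- the reduction of `Z` -/
  bZ : Bk D4.Z D2.Z
  r_comm : ∀ p x, D2.r.app p (bI.red p x) = chg r42 (D4.r.app p x)
  rho_comm : ∀ p x, D2.rho.app p (bZ.red p x) = chg r42 (D4.rho.app p x)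
  mul_I : ∀ p x y, bI.red p (D4.aI.mul.app p x y) = D2.aI.mul.app p (bI.red p x) (bI.red p y)
  mul_Z : ∀ p x y, bZ.red p (D4.aZ.mul.app p x y) = D2.aZ.mul.app p (bZ.red p x) (bZ.red p y)

namespace DatBk

variable {D4 : Dat (ZMod 4) Y} {D2 : Dat (ZMod 2) Y} (b : DatBk D4 D2)

theorem kap_comm (p : ℕ) (x : (D4.I.prod D4.Z).obj p) :
    (bkF B).red p (D4.kap.app p x) = D2.kap.app p ((b.bI.prod b.bZ).red p x) := by
  rw [D4.kap_app, D2.kap_app, map_sub, bkF_red, bkF_red, chg_tr, ← b.r_comm, ← b.rho_comm]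
  rfl

/-- the reduction on elements of `K` -/
def redK (p : ℕ) : D4.K.obj p →+ D2.K.obj p where
  toFun x := D2.mkK (b.bI.red p (D4.kz.app p x)) (b.bZ.red p (D4.kw.app p x)) (by
    rw [b.r_comm, b.rho_comm, ← chg_tr, D4.r_kz])
  map_zero' := D2.extK (by rw [Dat.kz_mkK, map_zero, map_zero, map_zero])
    (by rw [Dat.kw_mkK, map_zero, map_zero, map_zero])
  map_add' x y := D2.extK (by rw [Dat.kz_mkK, map_add, map_add, map_add]; rfl)
    (by rw [Dat.kw_mkK, map_add, map_add, map_add]; rfl)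

/-- **the reduction `K(Z/4) → K(Z/2)`** -/
def bK : Bk D4.K D2.K :=
  Bk.ofSES (by decide) D4.s1 D2.s1 (b.bI.prod b.bZ) (bkF B) b.kap_comm b.redK (fun _ _ => rfl)

@[simp] theorem kz_bK {p : ℕ} (x : D4.K.obj p) :
    D2.kz.app p (b.bK.red p x) = b.bI.red p (D4.kz.app p x) := rfl

@[simp] theorem kw_bK {p : ℕ} (x : D4.K.obj p) :
    D2.kw.app p (b.bK.red p x) = b.bZ.red p (D4.kw.app p x) := rfl

variable (T : Type) [Fintype T] [DecidableEq T]

/-- the reduction on elements of `KT T` -/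
def redT (p : ℕ) : (D4.KT T).obj p →+ (D2.KT T).obj p where
  toFun x := D2.mkT (b.bI.red p (D4.zc x)) (b.bZ.red p (D4.wc x)) (chg r42 (D4.gc x)) (by
      rw [← chg_pull, D4.gc_diag, b.rho_comm]) (by
      rw [b.r_comm, D4.tr_gc, chg_tr])
  map_zero' := D2.extT (map_zero _) (map_zero _) (chg_zero _)
  map_add' x y := D2.extT (map_add _ _ _) (map_add _ _ _) (chg_add _ _ _)

theorem kapT_comm (p : ℕ) (x : ((D4.I.prod D4.Z).prod (F (ZMod 4) (Y.nc T).tot)).obj p) :
    (bkF B).red p ((D4.kapT T).app p x) =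
      (D2.kapT T).app p (((b.bI.prod b.bZ).prod (bkF (Y.nc T).tot)).red p x) := by
  rw [D4.kapT_app, D2.kapT_app, map_sub, map_sub, bkF_red, bkF_red, bkF_red, chg_tr, chg_tr,
    ← b.r_comm, ← b.rho_comm]
  rfl

variable [Nonempty T]

/-- **the reduction `KT T (Z/4) → KT T (Z/2)`** -/
def bKT : Bk (D4.KT T) (D2.KT T) :=
  Bk.ofSES (by decide) (D4.s3 T) (D2.s3 T) ((b.bI.prod b.bZ).prod (bkF (Y.nc T).tot)) (bkF B)
    (b.kapT_comm T) (b.redT T) (fun _ _ => rfl)

@[simp] theorem zc_bKT {p : ℕ} (x : (D4.KT T).obj p) :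
    D2.zc ((b.bKT T).red p x) = b.bI.red p (D4.zc x) := rfl

@[simp] theorem wc_bKT {p : ℕ} (x : (D4.KT T).obj p) :
    D2.wc ((b.bKT T).red p x) = b.bZ.red p (D4.wc x) := rfl

@[simp] theorem gc_bKT {p : ℕ} (x : (D4.KT T).obj p) :
    D2.gc ((b.bKT T).red p x) = chg r42 (D4.gc x) := rfl

/-- the reduction is compatible with the restriction to the nonconstant tuples -/
theorem pT_bKT {p : ℕ} (x : (D4.KT T).obj p) :
    (D2.pT T).app p ((b.bKT T).red p x) = chg r42 ((D4.pT T).app p x) := rfl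

/-- the reduction is compatible with `i : K → KT T` -/
theorem bKT_iT {p : ℕ} (x : D4.K.obj p) :
    (b.bKT T).red p ((D4.iT T).app p x) = (D2.iT T).app p (b.bK.red p x) := by
  refine D2.extT rfl rfl ?_
  rw [gc_bKT, D4.gc_iT, chg_dext, D2.gc_iT, kw_bK, b.rho_comm]

end DatBk

end Vale.Agent.P263.C
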