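import Vale.Agent.P263.S.Core
import Mathlib.Algebra.Module.ZMod

/-!
# P263, block C: the Bockstein of a levelwise `ℤ/4`-free cosimplicial module
-/

namespace Vale.Agent.P263.C

open Vale.Agent.P263.S

/-- `B` is the reduction modulo 2 of the levelwise `ℤ/4`-free cosimplicial module `A` -/
structure Bk {R : Type} [CommRing R] (A : CosMod R) (B : CosMod (ZMod 2)) where
  red : ∀ p, A.obj p →+ B.obj p
  nat : ∀ {p q : ℕ} (φ : Op p q) (a : A.obj p), red q (A.map φ a) = B.map φ (red p a)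
  surj : ∀ p (x : B.obj p), ∃ a, red p a = x
  two : ∀ p (a : A.obj p), red p a = 0 → ∃ b, a = b + b
  ker : ∀ p (a : A.obj p), a + a = 0 → red p a = 0

theorem char2 {M : Type*} [AddCommGroup M] [Module (ZMod 2) M] (x : M) : x + x = 0 :=
  ZModModule.add_self x

theorem neg_eq2 {M : Type*} [AddCommGroup M] [Module (ZMod 2) M] (x : M) : -x = x :=
  neg_eq_of_add_eq_zero_left (char2 x)

namespace Bk

variable {R : Type} [CommRing R] {A : CosMod R} {B : CosMod (ZMod 2)} (β : Bk A B)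
include β

theorem red_d (p : ℕ) (a : A.obj p) : β.red (p + 1) (A.d p a) = B.d p (β.red p a) := by
  rw [A.d_apply, B.d_apply, map_sum]
  refine Finset.sum_congr rfl fun i _ => ?_
  rw [sn, map_zsmul, β.nat, sn]

/-- `y` is a Bockstein of `x`, on the level of cochains -/
def IsB (n : ℕ) (x : B.obj n) (y : B.obj (n + 1)) : Prop :=
  ∃ (a : A.obj n) (b : A.obj (n + 1)), β.red n a = x ∧ A.d n a = b + b ∧ β.red (n + 1) b = y

theorem exists_isB {n : ℕ} {x : B.obj n} (hx : B.d n x = 0) : ∃ y, β.IsB n x y := by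
  obtain ⟨a, rfl⟩ := β.surj n x
  obtain ⟨b, hb⟩ := β.two (n + 1) (A.d n a) (by rw [β.red_d, hx])
  exact ⟨β.red _ b, a, b, rfl, hb, rfl⟩

theorem IsB.cocycle {n : ℕ} {x : B.obj n} {y : B.obj (n + 1)} (h : β.IsB n x y) :
    B.d (n + 1) y = 0 := by
  obtain ⟨a, b, rfl, hb, rfl⟩ := h
  rw [← β.red_d]
  apply β.ker
  rw [← map_add, ← hb, A.d_d]

theorem IsB.add {n : ℕ} {x x' : B.obj n} {y y' : B.obj (n + 1)} (h : β.IsB n x y)
    (h' : β.IsB n x' y') : β.IsB n (x + x') (y + y') := by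
  obtain ⟨a, b, rfl, hb, rfl⟩ := h
  obtain ⟨a', b', rfl, hb', rfl⟩ := h'
  refine ⟨a + a', b + b', map_add _ _ _, ?_, map_add _ _ _⟩
  rw [map_add, hb, hb']; abel

theorem IsB.of_bd {n : ℕ} {x : B.obj n} {y : B.obj (n + 1)} (h : β.IsB n x y)
    (hx : x ∈ B.Bd n) : y ∈ B.Bd (n + 1) := by
  obtain ⟨a, b, rfl, hb, rfl⟩ := h
  have key : ∃ (e : A.obj n), β.red n e = β.red n a ∧ A.d n e = 0 := by
    cases n with
    | zero =>
      refine ⟨0, ?_, map_zero _⟩
      rw [show β.red 0 a = 0 from hx, map_zero]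
    | succ n =>
      obtain ⟨t, ht⟩ := hx
      obtain ⟨s, rfl⟩ := β.surj n t
      exact ⟨A.d n s, by rw [β.red_d]; exact ht, A.d_d _ _⟩
  obtain ⟨e, he, hde⟩ := key
  obtain ⟨c, hc⟩ := β.two n (a - e) (by rw [map_sub, he, sub_self])
  refine ⟨β.red n c, ?_⟩
  rw [← β.red_d, eq_comm, ← sub_eq_zero, ← map_sub]
  apply β.ker
  have : A.d n a = A.d n c + A.d n c := by
    rw [← map_add, ← hc, map_sub, hde, sub_zero]
  rw [hb] at this
  have e2 : b - A.d n c + (b - A.d n c) = (b + b) - (A.d n c + A.d n c) := by abel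
  rw [e2, this, sub_self]

/-- Bockstein of a cocycle -/
noncomputable def betaZ (n : ℕ) : B.Z n →ₗ[ZMod 2] B.H (n + 1) :=
  AddMonoidHom.toZModLinearMap 2
  { toFun := fun x => B.cls (n + 1) ⟨(β.exists_isB x.2).choose,
      (β.exists_isB x.2).choose_spec.cocycle⟩
    map_zero' := by
      have h := (β.exists_isB (n := n) (x := 0) (map_zero _)).choose_spec
      have := h.of_bd β (Submodule.zero_mem _)
      exact (Submodule.Quotient.mk_eq_zero _).2 this
    map_add' := by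
      intro x y
      have hx := (β.exists_isB x.2).choose_spec
      have hy := (β.exists_isB y.2).choose_spec
      have hxy := (β.exists_isB (x + y).2).choose_spec
      have h3 : β.IsB n _ _ := IsB.add β hxy (IsB.add β hx hy)
      have h4 := h3.of_bd β (by
        show (x + y : B.obj n) + (x + y : B.obj n) ∈ _
        rw [char2]; exact Submodule.zero_mem _)
      rw [← sub_eq_zero, sub_eq_add_neg, neg_eq2, ← map_add, ← map_add]
      refine (Submodule.Quotient.mk_eq_zero _).2 ?_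
      exact h4 }

theorem betaZ_eq {n : ℕ} {x : B.Z n} {y : B.Z (n + 1)} (h : β.IsB n x y) :
    β.betaZ n x = B.cls (n + 1) y := by
  have hx := (β.exists_isB x.2).choose_spec
  have h4 := (IsB.add β hx h).of_bd β (by rw [char2]; exact Submodule.zero_mem _)
  rw [← sub_eq_zero, sub_eq_add_neg, neg_eq2, show β.betaZ n x = B.cls (n + 1) ⟨_, hx.cocycle⟩
    from rfl, ← map_add]
  exact (Submodule.Quotient.mk_eq_zero _).2 h4

/-- the Bockstein -/
noncomputable def beta (n : ℕ) : B.H n →ₗ[ZMod 2] B.H (n + 1) :=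
  Submodule.liftQ _ (β.betaZ n) (by
    intro x hx
    have h := (β.exists_isB x.2).choose_spec
    have h2 := h.of_bd β hx
    exact (Submodule.Quotient.mk_eq_zero _).2 h2)

theorem beta_cls {n : ℕ} {x : B.Z n} {y : B.Z (n + 1)} (h : β.IsB n x y) :
    β.beta n (B.cls n x) = B.cls (n + 1) y := by
  rw [← β.betaZ_eq h]; rfl

/-- the reduction of a cocycle -/
def redZ (n : ℕ) : A.Z n →+ B.Z n where
  toFun c := ⟨β.red n c, by
    show B.d n _ = 0
    rw [← β.red_d, show A.d n c = 0 from c.2, map_zero]⟩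
  map_zero' := Subtype.ext (map_zero _)
  map_add' x y := Subtype.ext (map_add _ _ _)

theorem beta_red {n : ℕ} (c : A.Z n) : β.beta n (B.cls n (β.redZ n c)) = 0 := by
  have : β.IsB n (β.redZ n c) (0 : B.Z (n + 1)) := by
    refine ⟨c, 0, rfl, ?_, map_zero _⟩
    rw [show A.d n c = 0 from c.2, add_zero]
  rw [β.beta_cls this, map_zero]

theorem isB_d_beta {n : ℕ} {x : B.obj n} {y : B.obj (n + 1)} (h : β.IsB n x y)
    (hx : B.d n x = 0) : β.beta n (B.cls n ⟨x, hx⟩) = B.cls (n + 1) ⟨y, h.cocycle⟩ :=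
  β.beta_cls h

omit β in
/-- a pair of additive operations commuting with `d` and with the reductions commutes with the
Bockstein -/
theorem IsB.map {R' : Type} [CommRing R'] {A' : CosMod R'} {B' : CosMod (ZMod 2)} {β : Bk A B}
    (β' : Bk A' B') {n m : ℕ} {x : B.obj n} {y : B.obj (n + 1)} (h : β.IsB n x y)
    (φ : A.obj n → A'.obj m) (φ' : A.obj (n + 1) →+ A'.obj (m + 1))
    (ψ : B.obj n → B'.obj m) (ψ' : B.obj (n + 1) → B'.obj (m + 1))
    (h1 : ∀ a, β'.red m (φ a) = ψ (β.red n a))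
    (h2 : ∀ a, β'.red (m + 1) (φ' a) = ψ' (β.red (n + 1) a))
    (h3 : ∀ a, A'.d m (φ a) = φ' (A.d n a)) : β'.IsB m (ψ x) (ψ' y) := by
  obtain ⟨a, b, rfl, hb, rfl⟩ := h
  exact ⟨φ a, φ' b, h1 a, by rw [h3, hb, map_add], h2 b⟩

omit β in
/-- naturality of the Bockstein -/
theorem beta_nat {A' : CosMod R} {B' : CosMod (ZMod 2)} {β : Bk A B}
    {β' : Bk A' B'} (f : Hom A A') (g : Hom B B')
    (comm : ∀ p a, β'.red p (f.app p a) = g.app p (β.red p a)) (n : ℕ) (x : B.H n) :
    β'.beta n (g.mapH n x) = g.mapH (n + 1) (β.beta n x) := by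
  obtain ⟨x, rfl⟩ := B.cls_surjective n x
  obtain ⟨y, h⟩ := β.exists_isB x.2
  have h' := h.map β' (f.app n) (f.app (n + 1)).toAddMonoidHom (g.app n) (g.app (n + 1))
    (comm n) (comm (n + 1)) fun a => (f.app_d n a).symm
  rw [Hom.mapH_cls, show β.beta n (B.cls n x) = B.cls (n + 1) ⟨y, h.cocycle⟩ from β.beta_cls h,
    Hom.mapH_cls]
  exact β'.beta_cls h'

omit β in
/-- the kernels of levelwise surjective maps of pairs -/
theorem ker_surj {A' : CosMod R} {B' : CosMod (ZMod 2)} {β : Bk A B}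
    {β' : Bk A' B'} (f : Hom A A') (g : Hom B B')
    (comm : ∀ p a, β'.red p (f.app p a) = g.app p (β.red p a))
    (hf : ∀ p, Function.Surjective (f.app p)) (p : ℕ) (x : B.obj p) (hx : g.app p x = 0) :
    ∃ a, f.app p a = 0 ∧ β.red p a = x := by
  obtain ⟨a, rfl⟩ := β.surj p x
  obtain ⟨b, hb⟩ := β'.two p (f.app p a) (by rw [comm, hx])
  obtain ⟨c, rfl⟩ := hf p b
  refine ⟨a - (c + c), by rw [map_sub, map_add, hb, sub_self], ?_⟩
  rw [map_sub, map_add, char2, sub_zero]

omit β in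
theorem ker_two {A' : CosMod R} {B' : CosMod (ZMod 2)} {β : Bk A B}
    {β' : Bk A' B'} (f : Hom A A') (hf : ∀ p, Function.Surjective (f.app p)) (h4 : (4 : R) = 0)
    (p : ℕ) (a : A.obj p) (ha : β.red p a = 0) (hfa : f.app p a = 0) :
    ∃ b, f.app p b = 0 ∧ a = b + b := by
  obtain ⟨b, rfl⟩ := β.two p a ha
  obtain ⟨c, hc⟩ := β'.two p (f.app p b) (β'.ker p _ (by rw [← map_add, hfa]))
  obtain ⟨e, rfl⟩ := hf p c
  refine ⟨b - (e + e), by rw [map_sub, map_add, hc, sub_self], ?_⟩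
  have : (e + e) + (e + e) = 0 := by
    have : (4 : R) • e = (e + e) + (e + e) := by
      rw [show (4 : R) = 1 + 1 + (1 + 1) by norm_num]; simp only [add_smul, one_smul]
    rw [← this, h4, zero_smul]
  calc b + b = b + b - ((e + e) + (e + e)) := by rw [this, sub_zero]
    _ = _ := by abel

end Bk

end Vale.Agent.P263.C
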