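import Vale.Agent.P263.C.UC
import Vale.Agent.P263.S.HG

/-!
# P263, block C: the Bockstein on `H(hG B)`

`uH`: multiplication by `u` on `H(hG B)` for coefficients `F_2` (`[f] ↦ [uc f]`),
`beta_uH : β (u x) = u² x + u β x`, `beta_pstar : β p^* = p^* β`, and `IsRed x`: `x` is the
reduction of a class with coefficients in `R`; `IsRed x → β x = 0`, `IsRed x → IsRed (u² x)`.
-/

noncomputable section

namespace Vale.Agent.P263.C

open Vale.Agent.P263.S

section uH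

variable {B : CosMod (ZMod 2)} (b : Act C2 B)

theorem d_uc2 (p : ℕ) (f : (hG b).obj p) :
    (hG b).d (p + 1) (uc b p f) = uc b (p + 1) ((hG b).d p f) := by
  have h := d_uc b p f
  rw [char2] at h
  rw [eq_neg_of_add_eq_zero_left h, neg_eq2]

theorem uc_mem_Z {p : ℕ} {f : (hG b).obj p} (hf : f ∈ (hG b).Z p) :
    uc b p f ∈ (hG b).Z (p + 1) := by
  rw [CosMod.mem_Z] at *
  rw [d_uc2, hf, map_zero]

theorem uc_mem_Bd {p : ℕ} {f : (hG b).obj p} (hf : f ∈ (hG b).Bd p) :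
    uc b p f ∈ (hG b).Bd (p + 1) := by
  cases p with
  | zero =>
    rw [CosMod.mem_Bd_zero] at hf
    rw [hf, map_zero]
    exact Submodule.zero_mem _
  | succ p =>
    obtain ⟨y, rfl⟩ := hf
    exact ⟨uc b p y, d_uc2 b p y⟩

/-- multiplication by `u` on cocycles -/
def uZ (p : ℕ) : (hG b).Z p →ₗ[ZMod 2] (hG b).Z (p + 1) :=
  (uc b p).restrict fun _ hx => uc_mem_Z b hx

/-- multiplication by `u` -/
def uH (p : ℕ) : (hG b).H p →ₗ[ZMod 2] (hG b).H (p + 1) :=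
  Submodule.mapQ _ _ (uZ b p) fun _ hx => uc_mem_Bd b hx

theorem uH_cls (p : ℕ) (x : (hG b).Z p) :
    uH b p ((hG b).cls p x) = (hG b).cls (p + 1) (uZ b p x) := rfl

end uH

variable {R : Type} [CommRing R] {A : CosMod R} {B : CosMod (ZMod 2)} (β : Bk A B) (a : Act C2 A)
  (b : Act C2 B) (comm : ∀ p (g : C2) (x : A.obj p), β.red p (a.act p g x) = b.act p g (β.red p x))

/-- `β (u x) = u² x + u β x` -/
theorem beta_uH (n : ℕ) (x : (hG b).H n) :
    (β.hG a b comm).beta (n + 1) (uH b n x) =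
      uH b (n + 1) (uH b n x) + uH b (n + 1) ((β.hG a b comm).beta n x) := by
  obtain ⟨x, rfl⟩ := (hG b).cls_surjective n x
  obtain ⟨y, h⟩ := (β.hG a b comm).exists_isB x.2
  have h1 : (β.hG a b comm).beta n ((hG b).cls n x) = (hG b).cls (n + 1) ⟨y, h.cocycle⟩ :=
    (β.hG a b comm).beta_cls h
  have h2 := isB_uc β a b comm h
  have h3 : (β.hG a b comm).IsB (n + 1) (uZ b n x)
      (uZ b (n + 1) (uZ b n x) + uZ b (n + 1) ⟨y, h.cocycle⟩ : (hG b).Z (n + 1 + 1)) := h2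
  rw [h1, uH_cls, uH_cls, uH_cls, (β.hG a b comm).beta_cls h3, map_add]

/-- the class is the reduction of a class with coefficients in `R` -/
def IsRed {A : CosMod R} {B : CosMod (ZMod 2)} (β : Bk A B) {n : ℕ} (x : B.H n) : Prop :=
  ∃ c : A.Z n, B.cls n (β.redZ n c) = x

theorem IsRed.beta {A : CosMod R} {B : CosMod (ZMod 2)} {β : Bk A B} {n : ℕ} {x : B.H n}
    (h : IsRed β x) : β.beta n x = 0 := by
  obtain ⟨c, rfl⟩ := h
  exact β.beta_red c

theorem IsRed.add {A : CosMod R} {B : CosMod (ZMod 2)} {β : Bk A B} {n : ℕ} {x y : B.H n}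
    (h : IsRed β x) (h' : IsRed β y) : IsRed β (x + y) := by
  obtain ⟨c, rfl⟩ := h
  obtain ⟨c', rfl⟩ := h'
  exact ⟨c + c', by rw [map_add, map_add]⟩

theorem uc_uc_mem_Z {A : CosMod R} (a : Act C2 A) {p : ℕ} {f : (hG a).obj p}
    (hf : f ∈ (hG a).Z p) : uc a (p + 1) (uc a p f) ∈ (hG a).Z (p + 2) := by
  rw [CosMod.mem_Z] at *
  have h1 := d_uc a p f
  rw [hf, map_zero, add_zero] at h1
  have h2 := d_uc a (p + 1) (uc a p f)
  rw [h1, map_add] at h2
  exact add_eq_right.mp h2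

theorem IsRed.uu {n : ℕ} {x : (hG b).H n} (h : IsRed (β.hG a b comm) x) :
    IsRed (β.hG a b comm) (uH b (n + 1) (uH b n x)) := by
  obtain ⟨c, rfl⟩ := h
  refine ⟨⟨uc a (n + 1) (uc a n c), uc_uc_mem_Z a c.2⟩, ?_⟩
  rw [uH_cls, uH_cls]
  congr 1
  apply Subtype.ext
  show (β.hG a b comm).red (n + 2) (uc a (n + 1) (uc a n c)) =
    uc b (n + 1) (uc b n ((β.hG a b comm).red n c))
  rw [red_uc, red_uc]

theorem beta_pstar (n : ℕ) (x : B.H n) :
    (β.hG (Act.triv C2 A) (Act.triv C2 B) (fun _ _ _ => rfl)).beta n ((hG.pstar C2 B).mapH n x) =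
      (hG.pstar C2 B).mapH (n + 1) (β.beta n x) :=
  Bk.beta_nat (hG.pstar C2 A) (hG.pstar C2 B) (fun p a => hG.ext fun s => rfl) n x

end Vale.Agent.P263.C
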