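import Vale.Agent.P263.C.Red

/-!
# P263, block C6 (helper391): a torsion class lifts to the extension over `Z/4`

Triple `(Z, B, A)`: `B → Z ← A` levelwise injective with disjoint images; `T`, `T4` = the maps
`w ↦ tr (w|Y)` from the functions on `Z'` to the functions on `B`, over `Z/2^(s+2)` and `Z/4`.
-/

namespace Vale.Agent.P263.C

open Vale.Agent.P263.S Vale.Agent.P263.E

/-- the simplices in the image of a simplicial map -/
def img {X Y : SS} (f : SS.Map X Y) : Fam Y := fun _ y => ∃ x, f.app x = y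

theorem img_closed {X Y : SS} (f : SS.Map X Y) : (img f).Closed := by
  rintro p q g _ ⟨x, rfl⟩
  exact ⟨X.map g x, f.nat g x⟩

theorem van_img {R : Type} [CommRing R] {X Y : SS} (f : SS.Map X Y) {p : ℕ}
    (c : (SS.F R Y).obj p) : Van (img f) c ↔ (f.pull (R := R)).app p c = 0 := by
  constructor
  · intro h
    funext x
    exact h _ ⟨x, rfl⟩
  · rintro h _ ⟨x, rfl⟩
    exact congrFun h x

/-- the empty family -/
def none (X : SS) : Fam X := fun _ _ => False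

theorem none_closed (X : SS) : (none X).Closed := fun _ _ h => h

theorem van_none {R : Type} [CommRing R] {X : SS} {p : ℕ} (c : (SS.F R X).obj p) :
    Van (none X) c := fun _ h => h.elim

/-- `H^(m+1)(X; R) = 0` in the form used here -/
theorem acyc_none {R : Type} [CommRing R] {X : SS} {m : ℕ}
    (h : (SS.F R X).Z (m + 1) ≤ (SS.F R X).Bd (m + 1)) : Acyc R (none X) m := by
  intro c _ hc
  obtain ⟨e, he⟩ := h (CosMod.mem_Z.2 hc)
  exact ⟨e, van_none _, he⟩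

/-- extension of functions from `A ⊔ B` to `Z` -/
theorem extend_pair {R : Type} [CommRing R] {Z B A : SS} (iB : SS.Map B Z) (iA : SS.Map A Z)
    (hA : iA.Inj) (hdis : ∀ p (b : B.obj p) (a : A.obj p), iB.app b ≠ iA.app a) {p : ℕ}
    (a : (SS.F R A).obj p) : ∃ z : (SS.F R Z).obj p, (iA.pull (R := R)).app p z = a ∧
      (iB.pull (R := R)).app p z = 0 := by
  classical
  obtain ⟨z, hz⟩ := hA.pull_surjective (R := R) p a
  refine ⟨fun x => if img iB p x then 0 else z x, ?_, ?_⟩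
  · funext x
    show (if img iB p (iA.app x) then 0 else z (iA.app x)) = a x
    rw [if_neg]
    · exact congrFun hz x
    · rintro ⟨b, hb⟩
      exact hdis p b x hb
  · funext x
    exact if_pos ⟨x, rfl⟩

/-- **C6.** Torsion classes of `Z'` lift to the extension with coefficients `Z/4`. -/
theorem lift_four {Z B A Z' : SS} (iB : SS.Map B Z) (iA : SS.Map A Z) (hB : iB.Inj)
    (hA : iA.Inj) (hdis : ∀ p (b : B.obj p) (a : A.obj p), iB.app b ≠ iA.app a)
    (s m : ℕ) (h4 : 4 ∣ 2 ^ (s + 2))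
    (T : Hom (SS.F (ZMod (2 ^ (s + 2))) Z') (SS.F (ZMod (2 ^ (s + 2))) B))
    (T4 : Hom (SS.F (ZMod 4) Z') (SS.F (ZMod 4) B))
    (hT : ∀ p (c : (SS.F (ZMod (2 ^ (s + 2))) Z').obj p),
      T4.app p (chg (ZMod.castHom h4 (ZMod 4)) c) = chg (ZMod.castHom h4 (ZMod 4)) (T.app p c))
    (hA1 : (SS.F (ZMod 2) A).Z (m + 1) ≤ (SS.F (ZMod 2) A).Bd (m + 1))
    (hZB : Acyc (ZMod 2) (img iB) (m + 1)) (hZB' : Acyc (ZMod 2) (img iB) (m + 2))
    (C : (SS.F (ZMod (2 ^ (s + 2))) Z').obj (m + 2)) (hC : (SS.F _ Z').d (m + 2) C = 0)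
    (w : (SS.F (ZMod (2 ^ (s + 2))) Z').obj (m + 1))
    (hw : (SS.F _ Z').d (m + 1) w = ((2 ^ s : ℕ) : ZMod (2 ^ (s + 2))) • C) :
    ∃ z : (SS.F (ZMod 4) Z).obj (m + 2), (SS.F _ Z).d (m + 2) z = 0 ∧
      (iA.pull (R := ZMod 4)).app (m + 2) z = 0 ∧
      (iB.pull (R := ZMod 4)).app (m + 2) z =
        T4.app (m + 2) (chg (ZMod.castHom h4 (ZMod 4)) C) := by
  obtain ⟨z0, hz0⟩ := hB.pull_surjective (R := ZMod (2 ^ (s + 2))) (m + 2) (T.app _ C)
  obtain ⟨e, he, hed⟩ := acyc_pow (img_closed iB) hZB' (s + 2) ((SS.F _ Z).d (m + 2) z0)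
    ((van_img iB _).2 (by rw [Hom.app_d, hz0, ← Hom.app_d, hC, map_zero])) (CosMod.d_d _ _ _)
  have he' := (van_img iB _).1 he
  -- the cocycle `z1` on `Z`
  obtain ⟨z1, hz1⟩ : ∃ z1, z1 = z0 - e := ⟨_, rfl⟩
  have hz1d : (SS.F _ Z).d (m + 2) z1 = 0 := by rw [hz1, map_sub, hed, sub_self]
  have hz1B : (iB.pull (R := ZMod (2 ^ (s + 2)))).app (m + 2) z1 = T.app _ C := by
    rw [hz1, map_sub, hz0, he', sub_zero]
  obtain ⟨z', hz'⟩ := hB.pull_surjective (R := ZMod (2 ^ (s + 2))) (m + 1) (T.app _ w)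
  obtain ⟨e', hee', hed'⟩ := acyc_pow (img_closed iB) hZB (s + 2)
    (((2 ^ s : ℕ) : ZMod (2 ^ (s + 2))) • z1 - (SS.F _ Z).d (m + 1) z')
    ((van_img iB _).2 (by
      rw [map_sub, map_smul, hz1B, Hom.app_d, hz', ← Hom.app_d, hw, map_smul, sub_self]))
    (by rw [map_sub, smul_d, hz1d, smul_zero, CosMod.d_d, sub_zero])
  -- the restriction to `A`
  have hA2 : (SS.F _ A).d (m + 1) ((iA.pull (R := ZMod (2 ^ (s + 2)))).app (m + 1) (z' + e')) =
      ((2 ^ s : ℕ) : ZMod (2 ^ (s + 2))) • (iA.pull (R := ZMod (2 ^ (s + 2)))).app (m + 2) z1 := by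
    rw [← Hom.app_d, map_add, hed', add_sub_cancel, map_smul]
  obtain ⟨k, _, hk⟩ := red_four (none_closed A) (acyc_none hA1) s h4 (van_none _) hA2
  obtain ⟨x, hxA, hxB⟩ := extend_pair iB iA hA hdis k
  refine ⟨chg (ZMod.castHom h4 (ZMod 4)) z1 - (SS.F _ Z).d (m + 1) x, ?_, ?_, ?_⟩
  · rw [map_sub, chg_d, hz1d, chg_zero, CosMod.d_d, sub_zero]
  · rw [map_sub, Hom.app_d, hxA, hk, ← chg_pull, sub_self]
  · rw [map_sub, Hom.app_d, hxB, map_zero, sub_zero, ← chg_pull, hz1B, hT]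

end Vale.Agent.P263.C
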