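import Vale.Agent.P263.S.LCP
import Vale.Agent.P263.E.Cofree
import Vale.Agent.P263.E.D2

/-!
# P263, block C8 (helper391): transfer and torsion

(a) for a finite group `G`: a class of `hG a` whose restriction to `B` vanishes is killed by `|G|`;
(b) `2^(2^n - 1) • H^(m+1)(BW pt n; R) = 0` for every `n`, `R`, `m` (`BW pt n = D2^n pt`).
-/

noncomputable section

namespace Vale.Agent.P263.C

open Vale.Agent.P263.S Vale.Agent.P263.E

variable {R : Type} [CommRing R]

/-! ### (a) transfer for homotopy fixed points -/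

section HG

variable {G : Type} [Group G] [Fintype G] {B : CosMod R}

/-- The transfer `fnE G B → hG a`. -/
def trE (a : Act G B) : Hom (fnE G B) (hG a) where
  app p :=
    { toFun := fun F => hG.mk a
        (fun s => ∑ g : G, a.act p g ((F : (Fin (p + 1) → G) → B.obj p) (fun i => g⁻¹ * s i))) (by
          intro h s
          rw [map_sum]
          refine Fintype.sum_equiv (Equiv.mulLeft h⁻¹) _ _ fun g => ?_
          show a.act p g _ = a.act p h (a.act p (h⁻¹ * g) _)
          rw [← Module.End.mul_apply, ← map_mul, mul_inv_cancel_left]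
          refine congrArg (fun z => a.act p g ((F : (Fin (p + 1) → G) → B.obj p) z)) ?_
          funext i
          show g⁻¹ * (h * s i) = (h⁻¹ * g)⁻¹ * s i
          rw [mul_inv_rev, inv_inv, mul_assoc])
      map_add' := fun F F' => hG.ext fun s => by
        show ∑ g : G, a.act p g (_ + _) = ∑ g : G, _ + ∑ g : G, _
        rw [← Finset.sum_add_distrib]
        exact Finset.sum_congr rfl fun g _ => map_add _ _ _
      map_smul' := fun r F => hG.ext fun s => by
        show ∑ g : G, a.act p g (r • _) = r • ∑ g : G, _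
        rw [Finset.smul_sum]
        exact Finset.sum_congr rfl fun g _ => map_smul _ _ _ }
  nat {p q} φ F := hG.ext fun s => by
    show ∑ g : G, a.act q g (B.map φ _) = B.map φ (∑ g : G, a.act p g _)
    rw [map_sum]
    exact Finset.sum_congr rfl fun g _ => a.nat _ _ _

theorem trE_fn (a : Act G B) {p : ℕ} (F : (fnE G B).obj p) (s : Fin (p + 1) → G) :
    hG.fn ((trE a).app p F) s =
      ∑ g : G, a.act p g ((F : (Fin (p + 1) → G) → B.obj p) (fun i => g⁻¹ * s i)) := rfl

/-- `tr ∘ incl = |G|` -/
theorem trE_incl (a : Act G B) {p : ℕ} (f : (hG a).obj p) :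
    (trE a).app p ((hG.incl a).app p f) = ((Fintype.card G : ℕ) : R) • f := by
  refine hG.ext fun s => ?_
  have h : ∀ g : G, a.act p g (hG.fn f (fun i => g⁻¹ * s i)) = hG.fn f s := by
    intro g
    rw [← hG.fn_mul]
    simp only [mul_inv_cancel_left]
  rw [trE_fn, hG.fn_smul]
  refine (Finset.sum_congr rfl fun g _ => h g).trans ?_
  rw [Finset.sum_const, Finset.card_univ, Nat.cast_smul_eq_nsmul]

/-- **C8 (a).** If the restriction of `f` to `B` is a coboundary, then `|G| • f` is one. -/
theorem card_smul_mem_Bd (a : Act G B) {p : ℕ} {f : (hG a).obj p} (hf : f ∈ (hG a).Z p)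
    (h : (hG.res a).app p f ∈ B.Bd p) : ((Fintype.card G : ℕ) : R) • f ∈ (hG a).Bd p := by
  rw [← trE_incl]
  exact Hom.app_mem_Bd _ (fnE_mem_Bd B (Hom.app_mem_Z _ hf) h)

/-- **C8 (a)** in cohomology. -/
theorem card_smul_eq_zero (a : Act G B) {p : ℕ} (x : (hG a).H p)
    (h : (hG.res a).mapH p x = 0) : ((Fintype.card G : ℕ) : R) • x = 0 := by
  induction x using CosMod.H_ind with
  | h z =>
    rw [Hom.mapH_cls, CosMod.cls_eq_zero_iff] at h
    rw [← map_smul, CosMod.cls_eq_zero_iff]
    exact card_smul_mem_Bd a z.2 h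

/-- For `G = C2`. -/
theorem two_smul_mem_Bd (a : Act C2 B) {p : ℕ} {f : (hG a).obj p} (hf : f ∈ (hG a).Z p)
    (h : (hG.res a).app p f ∈ B.Bd p) : (2 : R) • f ∈ (hG a).Bd p := by
  have e := card_smul_mem_Bd a hf h
  have h2 : Fintype.card C2 = 2 := rfl
  rwa [h2, Nat.cast_ofNat] at e

end HG

/-! ### (b) transfers for simplicial sets -/

/-- A map `q : E → X` with a transfer, `tr ∘ q^* = N`. -/
structure Trn (R : Type) [CommRing R] (E X : SS) where
  /-- the map -/
  q : SS.Map E X
  /-- the degree -/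
  N : ℕ
  /-- the transfer -/
  tr : Hom (SS.F R E) (SS.F R X)
  tr_pull : ∀ p (c : (SS.F R X).obj p), tr.app p ((q.pull).app p c) = (N : R) • c

/-- The identity. -/
def Trn.refl (R : Type) [CommRing R] (X : SS) : Trn R X X where
  q := SS.Map.id X
  N := 1
  tr := Hom.id _
  tr_pull p c := by
    rw [Nat.cast_one, one_smul]
    rfl

/-- A contraction of a simplicial set to a point. -/
structure Ctr (E : SS) where
  /-- the homotopy -/
  K : SS.Htp E E
  /-- the point -/
  b : SS.Map SS.pt E
  e1 : K.e1 = SS.Map.id E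
  e0 : K.e0 = b.comp (SS.toPt E)

/-- The cohomology of a point. -/
theorem pt_Z_le_Bd (m : ℕ) : (SS.F R SS.pt).Z (m + 1) ≤ (SS.F R SS.pt).Bd (m + 1) := by
  intro c hc
  have key : ∀ (p : ℕ) (c : (SS.F R SS.pt).obj p), (SS.F R SS.pt).d p c =
      fun _ => (∑ i ∈ Finset.range (p + 2), sn i (c ())) := by
    intro p c
    funext x
    rw [SS.F_d]
    rfl
  have alt : ∀ (n : ℕ) (a : R), (∑ i ∈ Finset.range n, sn i a) = if Even n then 0 else a := by
    intro n a
    induction n with
    | zero => simp
    | succ n ih =>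
      rw [Finset.sum_range_succ, ih]
      by_cases h : Even n
      · rw [if_pos h, if_neg (by simpa [Nat.even_add_one] using h), zero_add]
        simp [sn, h.neg_one_pow]
      · rw [if_neg h, if_pos (by simpa [Nat.even_add_one] using h)]
        simp [sn, (Nat.not_even_iff_odd.1 h).neg_one_pow]
  rw [CosMod.mem_Z] at hc
  by_cases hm : Even m
  · -- `d` on degree `m + 1` is the identity (`m + 3` is odd)
    have h0 := congrFun ((key (m + 1) c).symm.trans hc) ()
    rw [alt, if_neg (by
      have h3 : ¬ Even (m + 1 + 2) := by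
        rw [Nat.even_add_one, Nat.even_add_one, Nat.even_add_one]
        simpa using hm
      exact h3)] at h0
    have : c = 0 := by
      funext x
      exact h0
    rw [this]
    exact zero_mem _
  · -- `d` on degree `m` is the identity (`m + 2` is odd)
    refine ⟨fun _ => c (), ?_⟩
    refine (key m _).trans ?_
    funext x
    rw [alt, if_neg (by
      have h3 : ¬ Even (m + 2) := by
        rw [Nat.even_add_one, Nat.even_add_one]
        simpa using hm
      exact h3)]
    rfl

/-- A contractible simplicial set has no cohomology in positive degrees. -/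
theorem Ctr.Z_le_Bd {E : SS} (h : Ctr E) (m : ℕ) :
    (SS.F R E).Z (m + 1) ≤ (SS.F R E).Bd (m + 1) := by
  intro c hc
  have h1 := h.K.pull_sub_mem hc
  rw [h.e1, h.e0, SS.Map.pull_comp, SS.Map.pull_id] at h1
  have h2 : ((SS.toPt E).pull (R := R)).app (m + 1) ((h.b.pull (R := R)).app (m + 1) c) ∈
      (SS.F R E).Bd (m + 1) :=
    Hom.app_mem_Bd _ (pt_Z_le_Bd m (Hom.app_mem_Z _ hc))
  have h3 := Submodule.add_mem _ h1 h2
  exact (by simpa using h3 : c ∈ (SS.F R E).Bd (m + 1))

/-- **The kill theorem.** -/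
theorem Trn.kill {E X : SS} (t : Trn R E X) (h : Ctr E) {m : ℕ} {c : (SS.F R X).obj (m + 1)}
    (hc : c ∈ (SS.F R X).Z (m + 1)) : (t.N : R) • c ∈ (SS.F R X).Bd (m + 1) := by
  rw [← t.tr_pull]
  exact Hom.app_mem_Bd _ (h.Z_le_Bd m (Hom.app_mem_Z _ hc))

/-! ### contractions of products and of `EC2` -/

/-- The point. -/
def Ctr.pt : Ctr SS.pt where
  K := ⟨fun _ _ x => x, fun _ _ _ => rfl⟩
  b := SS.Map.id _
  e1 := rfl
  e0 := rfl

/-- Products of contractions. -/
def Ctr.prod {E E' : SS} (h : Ctr E) (h' : Ctr E') : Ctr (E.prod E') where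
  K := ⟨fun p χ x => (h.K.h p χ x.1, h'.K.h p χ x.2), fun f χ x =>
    Prod.ext (h.K.nat f χ x.1) (h'.K.nat f χ x.2)⟩
  b := SS.pair h.b h'.b
  e1 := SS.Map.ext fun _ x => Prod.ext
    (congrArg (fun f : SS.Map E E => f.app x.1) h.e1)
    (congrArg (fun f : SS.Map E' E' => f.app x.2) h'.e1)
  e0 := SS.Map.ext fun _ x => Prod.ext
    (congrArg (fun f : SS.Map E E => f.app x.1) h.e0)
    (congrArg (fun f : SS.Map E' E' => f.app x.2) h'.e0)

/-- The total space `EC2`. -/
def EC2 : SS where
  obj p := Fin (p + 1) → C2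
  map f s := fun i => s (f i)
  map_id _ := rfl
  map_comp _ _ _ := rfl

open Classical in
/-- The contraction of `EC2`. -/
def Ctr.EC2 : Ctr EC2 where
  K := ⟨fun p χ s => fun i => if χ i = 1 then s i else 1, fun f χ s => rfl⟩
  b := ⟨fun _ => fun _ => 1, fun _ _ => rfl⟩
  e1 := SS.Map.ext fun p s => by
    funext i
    show (if c1 p i = 1 then s i else 1) = s i
    exact if_pos (c1_val p i)
  e0 := SS.Map.ext fun p s => by
    funext i
    show (if c0 p i = 1 then s i else 1) = 1
    refine if_neg ?_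
    rw [c0_val]
    decide

/-! ### the transfer for `D2` -/

namespace Trn

variable {E X : SS} (t : Trn R E X)

/-- the transfer as a map of functions -/
def T (p : ℕ) : (E.obj p → R) →ₗ[R] (X.obj p → R) := t.tr.app p

theorem T_nat {p q : ℕ} (f : Op p q) (c : E.obj p → R) (x : X.obj q) :
    t.T q (fun a => c (E.map f a)) x = t.T p c (X.map f x) :=
  congrFun (t.tr.nat f c) x

theorem T_pull (p : ℕ) (c : X.obj p → R) (x : X.obj p) :
    t.T p (fun a => c (t.q.app a)) x = (t.N : R) * c x :=
  congrFun (t.tr_pull p c) x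

/-- the transfer in both variables -/
def tr2 (p : ℕ) (F : E.obj p → E.obj p → R) (x y : X.obj p) : R :=
  t.T p (fun a => t.T p (F a) y) x

theorem tr2_add (p : ℕ) (F F' : E.obj p → E.obj p → R) (x y : X.obj p) :
    t.tr2 p (F + F') x y = t.tr2 p F x y + t.tr2 p F' x y := by
  have h1 : (fun a => t.T p ((F + F') a) y) =
      (fun a => t.T p (F a) y) + (fun a => t.T p (F' a) y) := by
    funext a
    rw [Pi.add_apply, map_add]
    rfl
  unfold tr2
  rw [h1, map_add]
  rfl

theorem tr2_smul (p : ℕ) (r : R) (F : E.obj p → E.obj p → R) (x y : X.obj p) :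
    t.tr2 p (r • F) x y = r * t.tr2 p F x y := by
  have h1 : (fun a => t.T p ((r • F) a) y) = r • (fun a => t.T p (F a) y) := by
    funext a
    rw [Pi.smul_apply, map_smul]
    rfl
  unfold tr2
  rw [h1, map_smul]
  rfl

theorem tr2_nat {p q : ℕ} (f : Op p q) (F : E.obj p → E.obj p → R) (x y : X.obj q) :
    t.tr2 q (fun a b => F (E.map f a) (E.map f b)) x y = t.tr2 p F (X.map f x) (X.map f y) := by
  have h1 : ∀ a', t.T q (fun b => F a' (E.map f b)) y = t.T p (F a') (X.map f y) :=
    fun a' => t.T_nat f (F a') y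
  unfold tr2
  simp only [h1]
  exact t.T_nat f (fun a => t.T p (F a) (X.map f y)) x

theorem tr2_pull (p : ℕ) (c : X.obj p → X.obj p → R) (x y : X.obj p) :
    t.tr2 p (fun a b => c (t.q.app a) (t.q.app b)) x y = (t.N : R) * ((t.N : R) * c x y) := by
  have h1 : ∀ x', t.T p (fun b => c x' (t.q.app b)) y = (t.N : R) * c x' y :=
    fun x' => t.T_pull p (fun y => c x' y) y
  unfold tr2
  simp only [h1]
  exact t.T_pull p (fun x => (t.N : R) * c x y) x

/-- The covering `EC2 × (E × E) → D2 X`. -/
def qD2 {E X : SS} (q : SS.Map E X) : SS.Map (EC2.prod (E.prod E)) (SS.D2 X) where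
  app {p} x := SS.D2.mk (p := p) x.1 (q.app x.2.1) (q.app x.2.2)
  nat f x := by
    refine Eq.trans ?_ (SS.D2.map_mk f _ _ _).symm
    exact congrArg₂ (SS.D2.mk _) (q.nat f _) (q.nat f _)

/-- one half of the transfer -/
def half (p : ℕ) (c : (SS.F R (EC2.prod (E.prod E))).obj p) (s : Fin (p + 1) → C2)
    (x y : X.obj p) : R := t.tr2 p (fun a b => c (s, (a, b))) x y

/-- **The transfer for `D2`.** -/
def D2 : Trn R (EC2.prod (E.prod E)) (SS.D2 X) where
  q := qD2 t.q
  N := 2 * t.N ^ 2
  tr :=
    { app := fun p =>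
        { toFun := fun c => SS.D2.lift
            (fun s x y => t.half p c s x y + t.half p c (fun i => tau * s i) y x) (by
              intro s x y
              simp only [tau_mul_self_mul]
              exact add_comm _ _)
          map_add' := fun c c' => by
            funext z
            obtain ⟨s, x, y, rfl⟩ := SS.D2.rep z
            show t.half p (c + c') s x y + t.half p (c + c') (fun i => tau * s i) y x =
              (t.half p c s x y + t.half p c (fun i => tau * s i) y x) +
              (t.half p c' s x y + t.half p c' (fun i => tau * s i) y x)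
            have h : ∀ s x y, t.half p (c + c') s x y = t.half p c s x y + t.half p c' s x y :=
              fun s x y => t.tr2_add p _ _ x y
            rw [h, h]
            ring
          map_smul' := fun r c => by
            funext z
            obtain ⟨s, x, y, rfl⟩ := SS.D2.rep z
            show t.half p (r • c) s x y + t.half p (r • c) (fun i => tau * s i) y x =
              r * (t.half p c s x y + t.half p c (fun i => tau * s i) y x)
            have h : ∀ s x y, t.half p (r • c) s x y = r * t.half p c s x y :=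
              fun s x y => t.tr2_smul p r _ x y
            rw [h, h]
            ring }
      nat := fun {p q} f c => by
        funext z
        obtain ⟨s, x, y, rfl⟩ := SS.D2.rep z
        have h : ∀ s x y, t.half q ((SS.F R (EC2.prod (E.prod E))).map f c) s x y =
            t.half p c (fun i => s (f i)) (X.map f x) (X.map f y) :=
          fun s x y => t.tr2_nat f (fun a b => c (fun i => s (f i), (a, b))) x y
        show t.half q _ s x y + t.half q _ (fun i => tau * s i) y x =
          t.half p c (fun i => s (f i)) (X.map f x) (X.map f y) +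
            t.half p c (fun i => tau * s (f i)) (X.map f y) (X.map f x)
        rw [h, h] }
  tr_pull p c := by
    funext z
    obtain ⟨s, x, y, rfl⟩ := SS.D2.rep z
    have h : ∀ (s : Fin (p + 1) → C2) x y,
        t.half p (((qD2 t.q).pull (R := R)).app p c) s x y =
        (t.N : R) * ((t.N : R) * c (SS.D2.mk s x y)) :=
      fun s x y => t.tr2_pull p (fun x y => c (SS.D2.mk s x y)) x y
    show t.half p _ s x y + t.half p _ (fun i => tau * s i) y x =
      ((2 * t.N ^ 2 : ℕ) : R) * c (SS.D2.mk s x y)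
    rw [h, h, SS.D2.mk_swap]
    push_cast
    ring

end Trn

/-- The total spaces `EW n → BW n`. -/
def EW : ℕ → SS
  | 0 => SS.pt
  | n + 1 => EC2.prod ((EW n).prod (EW n))

/-- `EW n` is contractible. -/
def EW.ctr : (n : ℕ) → Ctr (EW n)
  | 0 => Ctr.pt
  | n + 1 => Ctr.EC2.prod ((EW.ctr n).prod (EW.ctr n))

/-- `EW n → BW n` has a transfer. -/
def EW.trn (R : Type) [CommRing R] : (n : ℕ) → Trn R (EW n) (SS.BW SS.pt n)
  | 0 => Trn.refl R SS.pt
  | n + 1 => (EW.trn R n).D2

theorem EW.trn_N (n : ℕ) : (EW.trn R n).N = 2 ^ (2 ^ n - 1) := by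
  induction n with
  | zero => rfl
  | succ n ih =>
    show 2 * (EW.trn R n).N ^ 2 = _
    rw [ih, ← pow_mul, ← pow_succ']
    congr 1
    have h := Nat.one_le_two_pow (n := n)
    rw [pow_succ]
    omega

/-- **C8 (b).** `2^(2^n - 1)` kills `H^(m+1)(BW n; R)`. -/
theorem BW_kill (n m : ℕ) {c : (SS.F R (SS.BW SS.pt n)).obj (m + 1)}
    (hc : c ∈ (SS.F R (SS.BW SS.pt n)).Z (m + 1)) :
    ((2 ^ (2 ^ n - 1) : ℕ) : R) • c ∈ (SS.F R (SS.BW SS.pt n)).Bd (m + 1) := by
  have h := (EW.trn R n).kill (EW.ctr n) hc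
  rwa [EW.trn_N] at h

/-- **C8 (b)** with the primitive. -/
theorem BW_kill' (n m : ℕ) {c : (SS.F R (SS.BW SS.pt n)).obj (m + 1)}
    (hc : c ∈ (SS.F R (SS.BW SS.pt n)).Z (m + 1)) :
    ∃ w, (SS.F R (SS.BW SS.pt n)).d m w = ((2 ^ (2 ^ n - 1) : ℕ) : R) • c :=
  BW_kill n m hc

/-- **C8 (b)** pulled back along any map: a class pulled back from `BW n` is killed by
`2^(2^n - 1)`, over every coefficient ring. -/
theorem pull_BW_kill {n : ℕ} {W : SS} (f : SS.Map W (SS.BW SS.pt n)) (m : ℕ)
    {c : (SS.F R (SS.BW SS.pt n)).obj (m + 1)} (hc : c ∈ (SS.F R (SS.BW SS.pt n)).Z (m + 1)) :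
    ∃ w, (SS.F R W).d m w = ((2 ^ (2 ^ n - 1) : ℕ) : R) • (f.pull (R := R)).app (m + 1) c := by
  obtain ⟨w, hw⟩ := BW_kill' n m hc
  exact ⟨(f.pull (R := R)).app m w, by rw [← Hom.app_d, hw, map_smul]⟩

end Vale.Agent.P263.C
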