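import Vale.Agent.P263.TI.PsiOf
import Vale.Agent.P263.TI.OfE

/-!
# P263, block C (C9): Case 1, abstract assembly

`d = 2 c`, `c` even.  The Adem relation `Sq^(c+1) = Sq^1 Sq^c` (from the Bullett-Macdonald
relations with values in `E^(d+1)`) turns the relation of Lannes-Zarati into
`phi (up 0 y) = λ (Sq^1 (Sq^c ŷ))`; if `Sq^c ŷ` is the reduction of a class with coefficients `ℤ/4`
this vanishes.
-/

namespace Vale.Agent.P263.C

open Polynomial Finset Vale.Agent.P263.EX Vale.Agent.P263.TI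

universe v

/-- the coefficient of `X` of the weight `wt a b`, for `a + b ≥ 2` -/
theorem coeff_wt_one {a b : ℕ} (h : 2 ≤ a + b) : (BM.wt (ZMod 2) a b).coeff 1 =
    (if b = 0 then (a : ZMod 2) else 0) + (if a = 1 then 1 else 0) := by
  have h1 := BM.coeff_wt (R := ZMod 2) a b 1 1
  rw [C_1, one_mul, one_mul, one_mul] at h1
  rw [h1]
  congr 1
  · rcases Nat.eq_zero_or_pos b with hb | hb
    · subst hb; simp
    · rw [if_neg (by omega), if_neg (by omega), Nat.cast_zero]
  · unfold BM.cc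
    rcases Nat.lt_or_ge 1 a with ha | ha
    · rw [if_neg (by omega), if_neg (by omega), Nat.cast_zero]
    · rcases Nat.lt_or_ge 0 a with ha' | ha'
      · obtain rfl : a = 1 := by omega
        simp
      · obtain rfl : a = 0 := by omega
        simp

/-- the Adem relation `Sq^1 Sq^c = (c+1) Sq^(c+1) Sq^0`, for a family of terms -/
theorem adem_one {V : Type*} [AddCommGroup V] [Module (ZMod 2) V] (c : ℕ) (hc : 1 ≤ c) (f : ℕ → V)
    (h : ∑ a ∈ range (c + 1 + 1), (BM.wt (ZMod 2) a (c + 1 - a)).coeff 1 • f a = 0) :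
    f 1 = ((c + 1 : ℕ) : ZMod 2) • f (c + 1) := by
  have e : ∀ a ∈ range (c + 1 + 1), (BM.wt (ZMod 2) a (c + 1 - a)).coeff 1 • f a =
      (if a = c + 1 then ((c + 1 : ℕ) : ZMod 2) • f (c + 1) else 0) +
        (if a = 1 then f 1 else 0) := by
    intro a ha
    rw [mem_range] at ha
    rw [coeff_wt_one (by omega), add_smul]
    congr 1
    · by_cases h1 : a = c + 1
      · subst h1; simp
      · rw [if_neg (by omega), if_neg h1, zero_smul]
    · by_cases h1 : a = 1
      · subst h1; simp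
      · rw [if_neg h1, if_neg h1, zero_smul]
  rw [sum_congr rfl e, sum_add_distrib, sum_ite_eq' (range (c + 1 + 1)) (c + 1) (fun _ => _),
    if_pos (mem_range.2 (by omega)), sum_ite_eq' (range (c + 1 + 1)) 1 (fun _ => f 1),
    if_pos (mem_range.2 (by omega))] at h
  have h2 := eq_neg_of_add_eq_zero_right h
  rw [h2, ZModModule.neg_eq_self]

/-- **Case 1**, with the output of section [E] in the form of `EOut`. -/
theorem case1_EOut {T : Tower} {n d : ℕ} {phi : T.H (n + 1) d →ₗ[ZMod 2] ZMod 2}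
    (e : EOut.{v} T n d phi) (c : ℕ) (hc : Even c) (hc0 : 0 < c) (h : 0 + 2 * c = d) (x : e.E c)
    (hB : e.lam (e.Sq d (d + 1) (e.Sq c d x)) = 0) :
    phi (T.up n 0 c d h (e.rho c x)) = 0 := by
  obtain rfl : d = 2 * c := by omega
  have hM := e.bm (c + 1) c (by omega) (by omega) x
  have h1 := congrArg (fun p => Polynomial.coeff p 1) hM
  simp only [Polynomial.finsetSum_coeff, Polynomial.coeff_C_mul, Polynomial.coeff_zero] at h1
  have h2 := adem_one (V := ZMod 2) c hc0 (fun a =>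
    e.lam (e.Sq (c + (c + 1 - a)) (2 * c + 1) (e.Sq c (c + (c + 1 - a)) x))) (by
      rw [← h1]
      exact sum_congr rfl fun a _ => by rw [smul_eq_mul, mul_comm])
  have h3 : ((c + 1 : ℕ) : ZMod 2) = 1 := by
    obtain ⟨b, rfl⟩ := hc
    rw [show b + b + 1 = 2 * b + 1 by ring, Nat.cast_succ, Nat.cast_mul,
      show ((2 : ℕ) : ZMod 2) = 0 from rfl, zero_mul, zero_add]
  rw [h3, one_smul] at h2
  have h4 : ∀ k, k = 2 * c → e.lam (e.Sq k (2 * c + 1) (e.Sq c k x)) = 0 := by
    rintro k rfl; exact hB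
  have h5 : ∀ k, k = c → e.lam (e.Sq k (2 * c + 1) (e.Sq c k x)) =
      e.lam (e.Sq c (2 * c + 1) x) := by
    rintro k rfl
    have := e.ker k (by omega) (e.Sq k k x - x) (by rw [map_sub, e.rho_Sq0 k (by omega), sub_self])
    rw [map_sub, sub_eq_zero] at this
    rw [this]
  rw [h4 _ (by omega), h5 _ (by omega)] at h2
  rw [← e.lz 0 c h x, ← h2]

/-- **Case 1**, with the output of section [E] in the form of `EData`. -/
theorem case1_EData {T : Tower} {n d : ℕ} {phi : T.H (n + 1) d →ₗ[ZMod 2] ZMod 2}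
    (D : EData T n d) (c : ℕ) (hc : Even c) (hc0 : 0 < c) (h : 0 + 2 * c = d)
    (iota : D.E (d + 1)) (hi : iota ≠ 0) (x : D.E c)
    (lz : D.Sq c (d + 1) x = phi (T.up n 0 c d h (D.p c x)) • iota)
    (hB : D.Sq d (d + 1) (D.Sq c d x) = 0) :
    phi (T.up n 0 c d h (D.p c x)) = 0 := by
  obtain rfl : d = 2 * c := by omega
  have h2 := adem_one (V := D.E (2 * c + 1)) c hc0 (fun a =>
    D.Sq (c + (c + 1 - a)) (2 * c + 1) (D.Sq c (c + (c + 1 - a)) x))
    (D.bm c (c + 1) (by omega) x 1 (by omega))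
  have h3 : ((c + 1 : ℕ) : ZMod 2) = 1 := by
    obtain ⟨b, rfl⟩ := hc
    rw [show b + b + 1 = 2 * b + 1 by ring, Nat.cast_succ, Nat.cast_mul,
      show ((2 : ℕ) : ZMod 2) = 0 from rfl, zero_mul, zero_add]
  rw [h3, one_smul] at h2
  have h4 : ∀ k, k = 2 * c → D.Sq k (2 * c + 1) (D.Sq c k x) = 0 := by
    rintro k rfl; exact hB
  have h5 : ∀ k, k = c → D.Sq k (2 * c + 1) (D.Sq c k x) = D.Sq c (2 * c + 1) x := by
    rintro k rfl
    exact D.sq_congr (by omega) (D.sq_self k x (by omega))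
  rw [h4 _ (by omega), h5 _ (by omega), lz] at h2
  rcases (show ∀ z : ZMod 2, z = 0 ∨ z = 1 by decide) (phi (T.up n 0 c (2 * c) h (D.p c x)))
    with h0 | h1
  · exact h0
  · rw [h1, one_smul] at h2
    exact absurd h2.symm hi

end Vale.Agent.P263.C
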