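import Vale.Agent.P263.C.RedU
import Vale.Agent.P263.S.Pow

/-!
# P263, block C1: the external square over a general ring in even degrees, and its reduction
(helper854)

* `inv_even` : `Inv R n` for every commutative ring `R` and every even `n`;
* `red_Pz`, `red_P` : the external square commutes with every change of coefficients.
-/

noncomputable section

namespace Vale.Agent.P263.C

open Vale.Agent.P263.S TensorProduct

variable {R : Type} [CommRing R] {R' : Type} [CommRing R'] {φ : R →+* R'}

/-- **`P` is defined over every commutative ring in even degrees.** -/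
theorem inv_even (R : Type) [CommRing R] {n : ℕ} (hn : Even n) : Inv R n := ⟨comm_iota R hn⟩

instance inv_double (R : Type) [CommRing R] (n : ℕ) : Inv R (n + n) := inv_even R ⟨n, rfl⟩

instance inv_two_mul (R : Type) [CommRing R] (n : ℕ) : Inv R (2 * n) :=
  inv_even R ⟨n, two_mul n⟩

section

variable {A C : CosMod R} {A' C' : CosMod R'} {n : ℕ}

/-- change of coefficients in the universal example -/
abbrev redMM (φ : R →+* R') (n : ℕ) :
    RMap φ (tensor (M R n) (M R n)) (tensor (M R' n) (M R' n)) :=
  (RMap.mapM φ n).tens (RMap.mapM φ n)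

theorem redMM_equiv (φ : R →+* R') (n : ℕ) (p : ℕ) (g : C2)
    (x : (tensor (M R n) (M R n)).obj p) : (redMM φ n).app p ((swapAct (M R n)).act p g x) =
      (swapAct (M R' n)).act p g ((redMM φ n).app p x) := by
  rcases C2.cases g with rfl | rfl
  · rw [act_one, act_one]
  · rw [swapAct_t, swapAct_t]
    exact RMap.tens_comm _ _ p x

/-- the classifying maps of the squares are compatible with a change of coefficients -/
theorem red_sqHom (μ : Bil A A C) (μ' : Bil A' A' C') (f : RMap φ A A') (g : RMap φ C C')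
    (hg : ∀ p a b, g.app p (μ.app p a b) = μ'.app p (f.app p a) (f.app p b)) (x : A.obj n)
    (hx : x ∈ A.Z n) (p : ℕ) (t : (tensor (M R n) (M R n)).obj p) :
    g.app p ((sqHom μ x hx).app p t) =
      (sqHom μ' (f.app n x) (f.app_mem_Z hx)).app p ((redMM φ n).app p t) := by
  have : g.compHom (sqHom μ x hx) =
      RMap.homComp (sqHom μ' (f.app n x) (f.app_mem_Z hx)) (redMM φ n) := by
    apply RMap.ext_tens
    intro p a b
    show g.app p (μ.lift.app p (((ofM x hx).tens (ofM x hx)).app p
        (a ⊗ₜ[R] b : (M R n).obj p ⊗[R] (M R n).obj p))) =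
      μ'.lift.app p (((ofM (f.app n x) (f.app_mem_Z hx)).tens
        (ofM (f.app n x) (f.app_mem_Z hx))).app p ((redMM φ n).app p
        (a ⊗ₜ[R] b : (M R n).obj p ⊗[R] (M R n).obj p)))
    rw [Hom.tens_app_tmul, Bil.lift_tmul, RMap.tens_tmul, Hom.tens_app_tmul, Bil.lift_tmul, hg,
      f.app_ofM, f.app_ofM]
  exact congrArg (fun k : RMap φ (tensor (M R n) (M R n)) C' => k.app p t) this

/-- **The external square commutes with changes of coefficients** (cochain level). -/
theorem red_Pz (μ : Bil A A C) (c : Act C2 C) (h : Sym μ c) (μ' : Bil A' A' C') (c' : Act C2 C')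
    (h' : Sym μ' c') [Inv R n] [Inv R' n] (f : RMap φ A A') (g : RMap φ C C')
    (hgc : ∀ p (s : C2) (x : C.obj p), g.app p (c.act p s x) = c'.act p s (g.app p x))
    (hg : ∀ p a b, g.app p (μ.app p a b) = μ'.app p (f.app p a) (f.app p b))
    (x : A.obj n) (hx : x ∈ A.Z n) :
    (g.hGmap c c' hgc).app (n + n) (Pz μ c h x hx) -
      Pz μ' c' h' (f.app n x) (f.app_mem_Z hx) ∈ (hG c').Bd (n + n) := by
  have h1 := red_univ φ rfl (swapAct (M R n)) (swapAct (M R' n)) (redMM_equiv φ n)
    (univP_mem_Z R n) (univP_res R n) (univP_mem_Z R' n) (univP_res R' n)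
  have h2 := (hG.mapHom (swapAct (M R' n)) c' (sqHom μ' (f.app n x) (f.app_mem_Z hx))
    (sqHom_equiv h' (f.app n x) (f.app_mem_Z hx))).app_mem_Bd h1
  rw [map_sub] at h2
  have h3 : (g.hGmap c c' hgc).app (n + n) (Pz μ c h x hx) =
      (hG.mapHom (swapAct (M R' n)) c' (sqHom μ' (f.app n x) (f.app_mem_Z hx))
        (sqHom_equiv h' (f.app n x) (f.app_mem_Z hx))).app (n + n)
        (((redMM φ n).hGmap (swapAct (M R n)) (swapAct (M R' n)) (redMM_equiv φ n)).app (n + n)
          (univP R n)) := by
    apply hG.ext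
    intro s
    exact red_sqHom μ μ' f g hg x hx (n + n) (hG.fn (univP R n) s)
  rw [h3]
  exact h2

/-- **The external square commutes with changes of coefficients.** -/
theorem red_P (μ : Bil A A C) (c : Act C2 C) (h : Sym μ c) (μ' : Bil A' A' C') (c' : Act C2 C')
    (h' : Sym μ' c') [Inv R n] [Inv R' n] (f : RMap φ A A') (g : RMap φ C C')
    (hgc : ∀ p (s : C2) (x : C.obj p), g.app p (c.act p s x) = c'.act p s (g.app p x))
    (hg : ∀ p a b, g.app p (μ.app p a b) = μ'.app p (f.app p a) (f.app p b))
    (x : A.H n) :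
    (g.hGmap c c' hgc).mapH (n + n) (P μ c h x) = P μ' c' h' (f.mapH n x) := by
  induction x using CosMod.H_ind with
  | h z =>
    rw [P_cls, RMap.mapH_cls, RMap.mapH_cls, P_cls, CosMod.cls_eq_iff]
    exact red_Pz μ c h μ' c' h' f g hgc hg z.1 z.2

end

/-! ### additive reductions of `ZMod m`-modules -/

/-- natural additive maps between cosimplicial modules over `ZMod m` and `ZMod k`, `k ∣ m`, are
semilinear -/
def RMap.ofAdd {m k : ℕ} (h : k ∣ m) {A : CosMod (ZMod m)} {B : CosMod (ZMod k)}
    (f : ∀ p, A.obj p →+ B.obj p)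
    (nat : ∀ {p q : ℕ} (u : Op p q) (a : A.obj p), f q (A.map u a) = B.map u (f p a)) :
    RMap (ZMod.castHom h (ZMod k)) A B where
  app := f
  smul p r a := by
    obtain ⟨z, rfl⟩ := ZMod.intCast_surjective r
    rw [map_intCast, Int.cast_smul_eq_zsmul, Int.cast_smul_eq_zsmul, map_zsmul]
  nat := nat

end Vale.Agent.P263.C
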