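import Vale.Agent.P263.E.SqAlg

/-!
# P263, block C (C4, C5), pure algebra: `Sq¹ w = β w` for classes whose total power has an integral lift

`S : Setup dbl` is the input of block E4 (`SqAlg`).  A Bockstein on the free `F_2[u]`-module
`K = E[u]` satisfies `β (u x) = u² x + u β x` and `β (π e) = π (β e)`; this determines it
(`cf_beta`).  If `β (u^T Pt w) = 0` for an even `T`, then `Sq^(q+1-q) w = β (Sq^0 w)` for `q` even
(`sq_bock`).
-/

namespace Vale.Agent.P263.C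

open Vale.Agent.P263.E

universe v

theorem zadd {M : Type*} [AddCommGroup M] [Module (ZMod 2) M] (x : M) : x + x = 0 :=
  ZModModule.add_self x

/-- A Bockstein on `K = E[u]`. -/
structure FreeBock (K : GU.{v}) (E : ℕ → Type v) [∀ j, AddCommGroup (E j)]
    [∀ j, Module (ZMod 2) (E j)] (fr : GU.Free K E) where
  /-- the constants -/
  pi : ∀ n, E n →ₗ[ZMod 2] K.H n
  cf_pi : ∀ n e, fr.cf n n (pi n e) = e
  cf_pi_ne : ∀ n j e, j < n → fr.cf n j (pi n e) = 0
  bE : ∀ n, E n →ₗ[ZMod 2] E (n + 1)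
  bK : ∀ n, K.H n →ₗ[ZMod 2] K.H (n + 1)
  bK_pi : ∀ n e, bK n (pi n e) = pi (n + 1) (bE n e)
  bK_u : ∀ n x, bK (n + 1) (K.u n x) = K.u (n + 1) (K.u n x) + K.u (n + 1) (bK n x)

namespace FreeBock

variable {K : GU.{v}} {E : ℕ → Type v} [∀ j, AddCommGroup (E j)]
    [∀ j, Module (ZMod 2) (E j)] {fr : GU.Free K E} (β : FreeBock K E fr)
include β

theorem decomp (n : ℕ) (y : K.H (n + 1)) :
    ∃ y', y = β.pi (n + 1) (fr.cf (n + 1) (n + 1) y) + K.u n y' ∧
      ∀ j, j ≤ n → fr.cf n j y' = fr.cf (n + 1) j y := by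
  obtain ⟨y', hy'⟩ := fr.surj n (fun j => fr.cf (n + 1) j y)
  refine ⟨y', ?_, hy'⟩
  rw [← sub_eq_zero]
  apply fr.ext
  intro j hj
  rw [map_sub, map_add, fr.cf_u]
  rcases Nat.lt_or_ge n j with h | h
  · obtain rfl : j = n + 1 := by omega
    rw [β.cf_pi, fr.cf_gt n _ _ h, add_zero, sub_self]
  · rw [β.cf_pi_ne _ _ _ (by omega), hy' j h, zero_add, sub_self]

theorem cf_beta (n j : ℕ) (hj : j ≤ n) (y : K.H n) :
    fr.cf (n + 1) (j + 1) (β.bK n y) =
      β.bE j (fr.cf n j y) + ((n + j + 1 : ℕ) : ZMod 2) • fr.cf n (j + 1) y := by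
  induction n generalizing j with
  | zero =>
    obtain rfl : j = 0 := by omega
    have hy : y = β.pi 0 (fr.cf 0 0 y) := by
      rw [← sub_eq_zero]
      apply fr.ext
      intro j hj
      obtain rfl : j = 0 := by omega
      rw [map_sub, β.cf_pi, sub_self]
    rw [fr.cf_gt 0 (0 + 1) y (by omega), smul_zero, add_zero]
    conv_lhs => rw [hy]
    rw [β.bK_pi, β.cf_pi]
  | succ n ih =>
    obtain ⟨y', hy, hc⟩ := β.decomp n y
    conv_lhs => rw [hy]
    rw [map_add, map_add, β.bK_pi, β.bK_u, map_add, fr.cf_u, fr.cf_u, fr.cf_u]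
    rcases Nat.lt_or_ge n j with h | h
    · obtain rfl : j = n + 1 := by omega
      rw [β.cf_pi, fr.cf_gt (n + 1) (n + 1 + 1) _ (by omega), fr.cf_gt n _ _ (by omega),
        fr.cf_gt (n + 1) (n + 1 + 1) y (by omega)]
      simp
    · rw [β.cf_pi_ne _ _ _ (by omega), ih j h, hc j h, zero_add]
      rcases Nat.lt_or_ge n (j + 1) with h' | h'
      · obtain rfl : j = n := by omega
        rw [fr.cf_gt j (j + 1) _ (by omega), smul_zero, add_zero, zero_add,
          show j + 1 + j + 1 = 2 * (j + 1) by ring, Nat.cast_mul,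
          show ((2 : ℕ) : ZMod 2) = 0 from rfl, zero_mul, zero_smul, add_zero]
      · have e : ((n + 1 + j + 1 : ℕ) : ZMod 2) = ((n + j + 1 : ℕ) : ZMod 2) + 1 := by
          push_cast; ring
        rw [hc (j + 1) h', e, add_smul, one_smul]
        generalize ((n + j + 1 : ℕ) : ZMod 2) = c
        abel

end FreeBock

/-- `Sq¹ w = β (Sq⁰ w)` if `β` vanishes on `u^T Pt w`, `T` even, `|w|` even. -/
theorem sq_bock {dbl : ℕ → ℕ} (S : Setup.{v} dbl) (β : FreeBock S.K S.E S.fr)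
    (bKK : ∀ n, S.KK.H n →ₗ[ZMod 2] S.KK.H (n + 1))
    (bi : ∀ n x, S.i.f (n + 1) (β.bK n x) = bKK n (S.i.f n x))
    (q : ℕ) (hq : Even q) (hd : Even (dbl q)) (w : S.E q) (T : ℕ) (hT : Even T) (hRT : S.R ≤ T)
    (hw : bKK _ (S.KK.upow T (dbl q) (S.Pt q w)) = 0) (hle : q ≤ dbl q + T) :
    S.Sq q (q + 1) w = β.bE q (S.Sq q q w) := by
  obtain ⟨y, hy⟩ := S.exists_good' q w hRT
  have h1 : β.bK _ y = 0 := by
    apply S.i_zero
    rw [bi, show S.i.f (dbl q + T) y = _ from hy, hw]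
  have h2 := β.cf_beta (dbl q + T) q hle y
  rw [h1, map_zero, ← S.Sq_spec hy, ← S.Sq_spec hy] at h2
  have h3 : ((dbl q + T + q + 1 : ℕ) : ZMod 2) = 1 := by
    obtain ⟨a, ha⟩ := hq; obtain ⟨b, hb⟩ := hd; obtain ⟨c, hc⟩ := hT
    have : dbl q + T + q + 1 = 2 * (a + b + c) + 1 := by omega
    rw [this, Nat.cast_succ, Nat.cast_mul, show ((2 : ℕ) : ZMod 2) = 0 from rfl, zero_mul,
      zero_add]
  rw [h3, one_smul] at h2
  have h4 := (eq_neg_of_add_eq_zero_right h2.symm)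
  rw [h4, ZModModule.neg_eq_self]

end Vale.Agent.P263.C
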