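import Vale.Agent.P263.C.BockH
import Vale.Agent.P263.S.Gys

/-!
# P263, block C: the two descriptions of the multiplication by `u` agree
-/

namespace Vale.Agent.P263.C

open Vale.Agent.P263.S

variable {B : CosMod (ZMod 2)} (b : Act C2 B)

theorem uc_eq (p : ℕ) (f : (hG b).obj p) : S.uc idC b p f = C.uc b p f := rfl

theorem uH_eq (p : ℕ) (x : (hG b).H p) : S.uH idC b p x = C.uH b p x := by
  obtain ⟨x, rfl⟩ := (hG b).cls_surjective p x
  rfl

end Vale.Agent.P263.C
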