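import Vale.Agent.P263.E.SqE
import Vale.Agent.P263.C.SqBock
import Vale.Agent.P263.C.UEq
import Vale.Agent.P263.C.PowR

/-!
# P263, block C4 (helper391): `Sq¹ w = 0` for the reduction `w` of a class with coefficients `Z/4`

The instance of `SqBock` for 659's `PowIn.setup`.  `BkPow X`: reductions `K4 → K`, `KK4 → KK` from
coefficients `Z/4`, compatible with the inclusion, the swap and the product.
-/

noncomputable section

namespace Vale.Agent.P263.C

open Vale.Agent.P263.S Vale.Agent.P263.E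

/-- The `Z/4`-form of the input of the squares. -/
structure BkPow (X : PowIn) where
  /-- the cofibre -/
  K4 : CosMod (ZMod 4)
  /-- the target of the products -/
  KK4 : CosMod (ZMod 4)
  /-- the swap -/
  c4 : Act C2 KK4
  /-- the inclusion -/
  i4 : Hom K4 KK4
  /-- the product -/
  mul4 : Bil K4 K4 KK4
  sym4 : Sym mul4 c4
  /-- the reduction of `K` -/
  bK : Bk K4 X.K
  /-- the reduction of `KK` -/
  bKK : Bk KK4 X.KK
  i4_act : ∀ p (g : C2) (x : K4.obj p), i4.app p ((Act.triv C2 K4).act p g x) =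
    c4.act p g (i4.app p x)
  comm_c : ∀ p (g : C2) (x : KK4.obj p), bKK.red p (c4.act p g x) = X.c.act p g (bKK.red p x)
  comm_i : ∀ p (x : K4.obj p), bKK.red p (i4.app p x) = X.S.i.app p (bK.red p x)
  comm_mul : ∀ p (a b : K4.obj p), bKK.red p (mul4.app p a b) =
    X.mul.app p (bK.red p a) (bK.red p b)

/-- iterated multiplication with `u²` preserves reductions -/
theorem IsRed.upow {R : Type} [CommRing R] {A : CosMod R} {B : CosMod (ZMod 2)} (β : Bk A B)
    (a : Act C2 A) (b : Act C2 B)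
    (comm : ∀ p (g : C2) (x : A.obj p), β.red p (a.act p g x) = b.act p g (β.red p x)) {n : ℕ}
    {x : (hG b).H n} (h : IsRed (β.hG a b comm) x) (t : ℕ) :
    IsRed (β.hG a b comm) ((guHG idC b).upow (t + t) n x) := by
  induction t with
  | zero => exact h
  | succ t ih =>
    have h1 := ih.uu β a b comm
    have e : ∀ T, T = t + t + 1 + 1 → IsRed (β.hG a b comm) ((guHG idC b).upow T n x) := by
      rintro T rfl
      exact h1
    exact e _ (by omega)

namespace BkPow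

variable {X : PowIn} (b : BkPow X) (fr : GU.Free (guHG idC (Act.triv C2 X.K)) X.K.H)

/-- the Bockstein on `H(hG K)` -/
def bet (n : ℕ) : (hG (Act.triv C2 X.K)).H n →ₗ[ZMod 2] (hG (Act.triv C2 X.K)).H (n + 1) :=
  (b.bK.hG (Act.triv C2 b.K4) (Act.triv C2 X.K) (fun _ _ _ => rfl)).beta n

/-- the Bockstein on `H(hG KK)` -/
def betKK (n : ℕ) : (hG X.c).H n →ₗ[ZMod 2] (hG X.c).H (n + 1) :=
  (b.bKK.hG b.c4 X.c b.comm_c).beta n

/-- the Bockstein of `E[u]` -/
def freeBock (h1 : ∀ n (e : X.K.H n), fr.cf n n ((hG.pstar C2 X.K).mapH n e) = e)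
    (h2 : ∀ n j (e : X.K.H n), j < n → fr.cf n j ((hG.pstar C2 X.K).mapH n e) = 0) :
    FreeBock (X.setup fr).K X.K.H fr where
  pi n := (hG.pstar C2 X.K).mapH n
  cf_pi := h1
  cf_pi_ne := h2
  bE n := b.bK.beta n
  bK := b.bet
  bK_pi n e := beta_pstar b.bK n e
  bK_u n x := beta_uH b.bK (Act.triv C2 b.K4) (Act.triv C2 X.K) (fun _ _ _ => rfl) n x

/-- the inclusion commutes with the Bocksteins -/
theorem bi (n : ℕ) (x : (hG (Act.triv C2 X.K)).H n) :
    (X.setup fr).i.f (n + 1) (b.bet n x) = b.betKK n ((X.setup fr).i.f n x) :=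
  (Bk.beta_nat (β := b.bK.hG (Act.triv C2 b.K4) (Act.triv C2 X.K) (fun _ _ _ => rfl))
    (β' := b.bKK.hG b.c4 X.c b.comm_c) (hG.mapHom (Act.triv C2 b.K4) b.c4 b.i4 b.i4_act)
    (hG.mapHom (Act.triv C2 X.K) X.c X.S.i X.hi)
    (fun p f => hG.ext fun s => b.comm_i p (hG.fn f s)) n x).symm

/-- `K4 → K` as a semilinear map -/
def fK : RMap (ZMod.castHom (by norm_num : 2 ∣ 4) (ZMod 2)) b.K4 X.K :=
  RMap.ofAdd (by norm_num) b.bK.red b.bK.nat

/-- `KK4 → KK` as a semilinear map -/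
def fKK : RMap (ZMod.castHom (by norm_num : 2 ∣ 4) (ZMod 2)) b.KK4 X.KK :=
  RMap.ofAdd (by norm_num) b.bKK.red b.bKK.nat

/-- the power of the reduction of a class of even degree is a reduction -/
theorem isRed_P {q : ℕ} (hq : Even q) (x : b.K4.Z q) :
    IsRed (b.bKK.hG b.c4 X.c b.comm_c) (P X.mul X.c X.sym (X.K.cls q (b.bK.redZ q x))) := by
  have : Inv (ZMod 4) q := inv_even (ZMod 4) hq
  have h := red_P b.mul4 b.c4 b.sym4 X.mul X.c X.sym b.fK b.fKK b.comm_c b.comm_mul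
    (b.K4.cls q x)
  have e : b.fK.mapH q (b.K4.cls q x) = X.K.cls q (b.bK.redZ q x) := rfl
  rw [e] at h
  obtain ⟨y, hy⟩ := (hG b.c4).cls_surjective (q + q) (P b.mul4 b.c4 b.sym4 (b.K4.cls q x))
  rw [← hy] at h
  exact ⟨y, h⟩

/-- **C4.** `Sq¹ w = 0` if `w` is the reduction of a cocycle with coefficients `Z/4` of even degree
and `Sq⁰ w = w`. -/
theorem sq_one_red (h1 : ∀ n (e : X.K.H n), fr.cf n n ((hG.pstar C2 X.K).mapH n e) = e)
    (h2 : ∀ n j (e : X.K.H n), j < n → fr.cf n j ((hG.pstar C2 X.K).mapH n e) = 0)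
    {q : ℕ} (hq : Even q) (x : b.K4.Z q)
    (h0 : (X.setup fr).Sq q q (X.K.cls q (b.bK.redZ q x)) = X.K.cls q (b.bK.redZ q x)) :
    (X.setup fr).Sq q (q + 1) (X.K.cls q (b.bK.redZ q x)) = 0 := by
  have h := sq_bock (X.setup fr) (b.freeBock fr h1 h2) b.betKK (b.bi fr) q hq ⟨q, rfl⟩
    (X.K.cls q (b.bK.redZ q x)) (X.R + X.R) ⟨X.R, rfl⟩ (Nat.le_add_left _ _)
    (IsRed.beta ((b.isRed_P hq x).upow b.bKK b.c4 X.c b.comm_c X.R)) (by omega)
  rw [h, h0]
  exact b.bK.beta_red x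

end BkPow

end Vale.Agent.P263.C
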