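import Vale.Agent.P263.E.DatF
import Vale.Agent.P263.E.SqInst
import Vale.Agent.P263.C.BkK
import Vale.Agent.P263.C.SqOne

/-!
# P263, block C (helper27): reduction of the concrete input `datF` from `Z/4` to `Z/2`

`datFBk : DatBk (datF (ZMod 4) ..) (datF (ZMod 2) ..)`; for every `b : DatBk D4 D2`,
`b.pow R nil : BkPow (D2.pw R nil)` is the input of `Sq¹ w = 0` (`C/SqOne.lean`).
-/

noncomputable section

namespace Vale.Agent.P263.C

open Vale.Agent.P263.S Vale.Agent.P263.E SS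

theorem r42_surj (z : ZMod 2) : ∃ w : ZMod 4, r42 w = z := cast_surj (by norm_num : 2 ∣ 4) z

/-- the reduction of functions constant on `A` -/
def bkCst {A Z : SS} (a : Map A Z) : Bk (cstOn (ZMod 4) a) (cstOn (ZMod 2) a) where
  red p :=
    { toFun := fun f => cstOnMk (chg r42 f.1) (fun x y => congrArg r42 (f.2 x y))
      map_zero' := Subtype.ext (chg_zero r42)
      map_add' := fun f g => Subtype.ext (chg_add r42 f.1 g.1) }
  nat φ f := Subtype.ext (chg_map r42 φ f.1)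
  surj p x := by
    choose σ hσ using r42_surj
    exact ⟨cstOnMk (fun z => σ (x.1 z)) (fun y y' => congrArg σ (x.2 y y')),
      Subtype.ext (funext fun z => hσ _)⟩
  two p f h := by
    have h1 : ∀ z : ZMod 4, ∃ y, r42 z = 0 → z = y + y := fun z => by
      by_cases hz : r42 z = 0
      · obtain ⟨y, hy⟩ := r42_two hz
        exact ⟨y, fun _ => hy⟩
      · exact ⟨0, fun h => absurd h hz⟩
    choose δ hδ using h1
    refine ⟨cstOnMk (fun z => δ (f.1 z)) (fun y y' => congrArg δ (f.2 y y')), ?_⟩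
    refine Subtype.ext (funext fun z => hδ _ ?_)
    exact congrFun (congrArg Subtype.val h) z
  ker p f h := Subtype.ext (funext fun z => r42_ker (congrFun (congrArg Subtype.val h) z))

@[simp] theorem bkCst_incl {A Z : SS} (a : Map A Z) {p : ℕ} (f : (cstOn (ZMod 4) a).obj p) :
    (cstOnIncl (ZMod 2) a).app p ((bkCst a).red p f) =
      chg r42 ((cstOnIncl (ZMod 4) a).app p f) := rfl

variable {B : SS} (Y : Cov B) {Q A Z' : SS} (β : Map B Q) (α : Map A Q) (cl : Map Y.tot Z')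

/-- **the reduction of the concrete input** -/
def datFBk : DatBk (datF (ZMod 4) Y β α cl) (datF (ZMod 2) Y β α cl) where
  bI := bkCst (thA β α)
  bZ := bkF Z'
  r_comm _ _ := rfl
  rho_comm _ _ := rfl
  mul_I _ x y := Subtype.ext (funext fun z => map_mul r42 (x.1 z) (y.1 z))
  mul_Z _ x y := funext fun z => map_mul r42 (x z) (y z)

variable {Y}

/-- the input of `C/SqOne.lean` for the cofibre of a covering -/
def DatBk.pow {D4 : Dat (ZMod 4) Y} {D2 : Dat (ZMod 2) Y} (b : DatBk D4 D2) (R : ℕ)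
    (nil : ∀ n (x : (guHG idC (Y.actNC (ZMod 2) C2 C2)).H n),
      (guHG idC (Y.actNC (ZMod 2) C2 C2)).upow R n x = 0) : BkPow (D2.pw R nil) where
  K4 := D4.K
  KK4 := D4.KT C2
  c4 := D4.actT C2 C2
  i4 := D4.iT C2
  mul4 := D4.mul0
  sym4 := D4.sym_mul0
  bK := b.bK
  bKK := b.bKT C2
  i4_act := D4.iT_equiv C2 C2
  comm_c _ _ _ := D2.extT rfl rfl rfl
  comm_i _ x := b.bKT_iT C2 x
  comm_mul p x y := by
    refine D2.extT (b.mul_I p _ _) (b.mul_Z p _ _) ?_
    show chg r42 (D4.gc (D4.mul0.app p x y)) = D2.gc (D2.mul0.app p (b.bK.red p x) (b.bK.red p y))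
    rw [D4.gc_mul0, D2.gc_mul0, b.kw_bK, b.kw_bK, b.rho_comm, b.rho_comm]
    funext t
    exact map_mul r42 _ _

/-- **`Sq¹ w = 0`** for the reduction `w` of a class of `K(Z/4)` of even degree with `Sq⁰ w = w`,
for the standard squares of the cofibre. -/
theorem DatBk.st_sq_one {D4 : Dat (ZMod 4) Y} {D2 : Dat (ZMod 2) Y} (b : DatBk D4 D2) (R : ℕ)
    (nil : ∀ n (x : (guHG idC (Y.actNC (ZMod 2) C2 C2)).H n),
      (guHG idC (Y.actNC (ZMod 2) C2 C2)).upow R n x = 0) {q : ℕ} (hq : Even q) (x : D4.K.Z q)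
    (h0 : (D2.pw R nil).st.Sq q q (D2.K.cls q (b.bK.redZ q x)) = D2.K.cls q (b.bK.redZ q x)) :
    (D2.pw R nil).st.Sq q (q + 1) (D2.K.cls q (b.bK.redZ q x)) = 0 :=
  (b.pow R nil).sq_one_red (freeTriv D2.K) (fun j e => cf_pstar_self D2.K j e)
    (fun j i e h => cf_pstar_ne D2.K (Nat.ne_of_gt h) e) hq x h0

end Vale.Agent.P263.C
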