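import Vale.Agent.P263.E.Triple
import Vale.Agent.P263.C.C6
import Vale.Agent.P263.C.C8

/-!
# P263, block C (helper391): a class of `BW n` with an integral lift lifts to `K(Z/4)`

`E/Triple.lean` + C6 + C8: for the triple `(Z, B, A)` over `Z/4` and a map `f : Z' → BW n`, the
reduction modulo `4` of `f^* C0`, `C0` a cocycle of `BW n` with coefficients `Z/2^(s+2)`,
`s = 2^n - 1`, lifts to a cocycle of `K(Z/4)`.
-/

namespace Vale.Agent.P263.C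

open Vale.Agent.P263.S Vale.Agent.P263.E

/-- `H^j(Z) → H^j(B)` bijective for `j ≤ D` implies `H^(m+1)(Z, B) = 0`, `m + 1 ≤ D`. -/
theorem acyc_of_bij {R : Type} [CommRing R] {Z B : SS} {b : SS.Map B Z} (hb : b.Inj) {D : ℕ}
    (h : ∀ j, j ≤ D → Function.Bijective ((b.pull (R := R)).mapH j)) {m : ℕ} (hm : m + 1 ≤ D) :
    Acyc R (img b) m := by
  intro c hc hdc
  have h1 := CosMod.H_eq_zero_iff.1 (rel_zero (R := R) hb h (m + 1) hm)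
  obtain ⟨x, hx⟩ : ∃ x, (relSES R b hb).i.app (m + 1) x = c :=
    (relSES R b hb).ex (m + 1) c ((van_img b c).1 hc)
  obtain ⟨e, he⟩ := h1 (x := x) (CosMod.mem_Z.2 ((relSES R b hb).inj _ (by
    rw [Hom.app_d, map_zero, hx]
    exact hdc)))
  refine ⟨(relSES R b hb).i.app m e, (van_img b _).2 ((relSES R b hb).pi m e), ?_⟩
  rw [← Hom.app_d, he, hx]

/-- **C6 for the triple**: the lift to `K(Z/4)`. -/
theorem lift_K4 {K I : CosMod (ZMod 4)} {Z B A Z' : SS}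
    (T4 : Trip (ZMod 4) K I (SS.F (ZMod 4) Z') Z B A) (s m : ℕ) (h4 : 4 ∣ 2 ^ (s + 2))
    (t : Hom (SS.F (ZMod (2 ^ (s + 2))) Z') (SS.F (ZMod (2 ^ (s + 2))) B))
    (ht : ∀ p (c : (SS.F (ZMod (2 ^ (s + 2))) Z').obj p),
      T4.t.app p (chg (ZMod.castHom h4 (ZMod 4)) c) = chg (ZMod.castHom h4 (ZMod 4)) (t.app p c))
    (hA1 : (SS.F (ZMod 2) A).Z (m + 1) ≤ (SS.F (ZMod 2) A).Bd (m + 1)) {D : ℕ} (hD : m + 3 ≤ D)
    (hB : ∀ j, j ≤ D → Function.Bijective ((T4.b.pull (R := ZMod 2)).mapH j))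
    (C : (SS.F (ZMod (2 ^ (s + 2))) Z').obj (m + 2)) (hC : (SS.F _ Z').d (m + 2) C = 0)
    (w : (SS.F (ZMod (2 ^ (s + 2))) Z').obj (m + 1))
    (hw : (SS.F _ Z').d (m + 1) w = ((2 ^ s : ℕ) : ZMod (2 ^ (s + 2))) • C) :
    ∃ k : K.obj (m + 2), k ∈ K.Z (m + 2) ∧
      T4.snd.app (m + 2) k = chg (ZMod.castHom h4 (ZMod 4)) C := by
  obtain ⟨z, hz, hzA, hzB⟩ := lift_four T4.b T4.a T4.b_inj T4.a_inj
    (fun p b a h => by
      have := T4.inj p (a₁ := Sum.inl b) (a₂ := Sum.inr a) h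
      exact absurd this (by simp))
    s m h4 t T4.t ht hA1 (acyc_of_bij T4.b_inj hB (by omega)) (acyc_of_bij T4.b_inj hB (by omega))
    C hC w hw
  obtain ⟨z', hz'⟩ := T4.io_ex (m + 2) z (fun x y => by
    have h1 : z (T4.a.app x) = 0 := congrFun hzA x
    have h2 : z (T4.a.app y) = 0 := congrFun hzA y
    rw [h1, h2])
  obtain ⟨k, hk1, hk2⟩ := T4.pb.ex (m + 2) z' (chg (ZMod.castHom h4 (ZMod 4)) C) (by
    show T4.b.pull.app _ (T4.io.app _ z') = _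
    rw [hz', hzB])
  refine ⟨k, ?_, hk2⟩
  rw [CosMod.mem_Z]
  apply T4.pb.inj
  · apply T4.io_inj
    rw [Hom.app_d, hk1, Hom.app_d, hz', hz, map_zero]
  · rw [Hom.app_d, hk2, chg_d, hC, chg_zero]

/-- **C6 + C8 for the triple**: classes pulled back from `BW n` which lift to `Z/2^(2^n + 1)` lift to
`K(Z/4)`. -/
theorem lift_K4_BW {K I : CosMod (ZMod 4)} {Z B A Z' : SS}
    (T4 : Trip (ZMod 4) K I (SS.F (ZMod 4) Z') Z B A) (n m : ℕ) (h4 : 4 ∣ 2 ^ (2 ^ n - 1 + 2))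
    (t : Hom (SS.F (ZMod (2 ^ (2 ^ n - 1 + 2))) Z') (SS.F (ZMod (2 ^ (2 ^ n - 1 + 2))) B))
    (ht : ∀ p (c : (SS.F (ZMod (2 ^ (2 ^ n - 1 + 2))) Z').obj p),
      T4.t.app p (chg (ZMod.castHom h4 (ZMod 4)) c) = chg (ZMod.castHom h4 (ZMod 4)) (t.app p c))
    (hA1 : (SS.F (ZMod 2) A).Z (m + 1) ≤ (SS.F (ZMod 2) A).Bd (m + 1)) {D : ℕ} (hD : m + 3 ≤ D)
    (hB : ∀ j, j ≤ D → Function.Bijective ((T4.b.pull (R := ZMod 2)).mapH j))
    (f : SS.Map Z' (SS.BW SS.pt n))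
    {C : (SS.F (ZMod (2 ^ (2 ^ n - 1 + 2))) (SS.BW SS.pt n)).obj (m + 2)}
    (hC : C ∈ (SS.F _ (SS.BW SS.pt n)).Z (m + 2)) :
    ∃ k : K.obj (m + 2), k ∈ K.Z (m + 2) ∧
      T4.snd.app (m + 2) k = (f.pull (R := ZMod 4)).app (m + 2)
        (chg (ZMod.castHom h4 (ZMod 4)) C) := by
  obtain ⟨w, hw⟩ := pull_BW_kill f (m + 1) hC
  obtain ⟨k, hk, hk'⟩ := lift_K4 T4 (2 ^ n - 1) m h4 t ht hA1 hD hB
    ((f.pull).app (m + 2) C) (by rw [← Hom.app_d, CosMod.mem_Z.1 hC, map_zero]) w hw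
  exact ⟨k, hk, by rw [hk', chg_pull]⟩

end Vale.Agent.P263.C
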