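import Vale.Agent.P263.C.RMap
import Vale.Agent.P263.C.Red
import Vale.Agent.P263.S.Cup
import Vale.Agent.P263.E.D2

/-!
# P263, block C1: change of coefficients for functions on simplicial sets as an `RMap` (helper854)
-/

noncomputable section

namespace Vale.Agent.P263.C

open Vale.Agent.P263.S Vale.Agent.P263.E Vale.Agent.P263.E.SS

variable {R : Type} [CommRing R] {R' : Type} [CommRing R']

/-- change of coefficients for functions -/
def chgF (φ : R →+* R') (X : SS) : RMap φ (SS.F R X) (SS.F R' X) where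
  app p :=
    { toFun := fun c => chg φ c
      map_zero' := chg_zero φ
      map_add' := chg_add φ }
  smul p r a := chg_smul φ r a
  nat f a := chg_map φ f a

@[simp] theorem chgF_app (φ : R →+* R') (X : SS) (p : ℕ) (c : (SS.F R X).obj p) :
    (chgF φ X).app p c = chg φ c := rfl

theorem chgF_swap (φ : R →+* R') (Z : SS) (p : ℕ) (g : C2) (x : (SS.F R (Z.prod Z)).obj p) :
    (chgF φ (Z.prod Z)).app p ((swapF R Z).act p g x) =
      (swapF R' Z).act p g ((chgF φ (Z.prod Z)).app p x) := by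
  rcases C2_cases g with rfl | rfl
  · rw [swapF_one, swapF_one]
  · funext z
    rw [chgF_app, chg_apply, swapF_tau, swapF_tau]
    rfl

/-- change of coefficients on the homotopy fixed points -/
abbrev chgHG (φ : R →+* R') (Z : SS) : RMap φ (hG (swapF R Z)) (hG (swapF R' Z)) :=
  (chgF φ (Z.prod Z)).hGmap (swapF R Z) (swapF R' Z) (chgF_swap φ Z)

theorem chgF_ofHG (φ : R →+* R') (Z : SS) (p : ℕ) (f : (hG (swapF R Z)).obj p) :
    (chgF φ (D2 Z)).app p ((ofHG Z).app p f) = (ofHG Z).app p ((chgHG φ Z).app p f) := by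
  funext x
  obtain ⟨s, z, z', rfl⟩ := D2.rep x
  rfl

theorem chgF_toHG (φ : R →+* R') (Z : SS) (p : ℕ) (f : (SS.F R (D2 Z)).obj p) :
    (chgHG φ Z).app p ((toHG Z).app p f) = (toHG Z).app p ((chgF φ (D2 Z)).app p f) := rfl

theorem chgF_muF (φ : R →+* R') (Z Z' : SS) (p : ℕ) (a : (SS.F R Z).obj p)
    (b : (SS.F R Z').obj p) : (chgF φ (Z.prod Z')).app p ((muF R Z Z').app p a b) =
      (muF R' Z Z').app p ((chgF φ Z).app p a) ((chgF φ Z').app p b) := by
  funext x
  exact map_mul φ _ _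

theorem chgF_pull (φ : R →+* R') {X Y : SS} (f : SS.Map X Y) (p : ℕ) (c : (SS.F R Y).obj p) :
    (chgF φ X).app p ((f.pull (R := R)).app p c) =
      (f.pull (R := R')).app p ((chgF φ Y).app p c) := rfl

theorem chgF_mul (φ : R →+* R') {X : SS} (p : ℕ) (a b : (SS.F R X).obj p) :
    (chgF φ X).app p (SS.mul a b) = SS.mul ((chgF φ X).app p a) ((chgF φ X).app p b) := by
  funext x
  exact map_mul φ _ _

namespace RMap

variable {φ : R →+* R'}

/-- cup products and change of coefficients -/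
theorem cup {A B C : CosMod R} {A' B' C' : CosMod R'} (μ : Bil A B C) (μ' : Bil A' B' C')
    (f : RMap φ A A') (g : RMap φ B B') (h : RMap φ C C')
    (e : ∀ p (a : A.obj p) (b : B.obj p), h.app p (μ.app p a b) = μ'.app p (f.app p a) (g.app p b))
    {m p : ℕ} (n : ℕ) (a : A.obj m) (b : B.obj p) :
    h.app n (μ.cup n a b) = μ'.cup n (f.app m a) (g.app p b) := by
  rw [Bil.cup, Bil.cup, e, f.nat, g.nat]

/-- cup products in cohomology and change of coefficients -/
theorem cupH {A B C : CosMod R} {A' B' C' : CosMod R'} (μ : Bil A B C) (μ' : Bil A' B' C')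
    (f : RMap φ A A') (g : RMap φ B B') (h : RMap φ C C')
    (e : ∀ p (a : A.obj p) (b : B.obj p), h.app p (μ.app p a b) = μ'.app p (f.app p a) (g.app p b))
    {m p n : ℕ} (hn : n = m + p) (a : A.H m) (b : B.H p) :
    h.mapH n (μ.cupH hn a b) = μ'.cupH hn (f.mapH m a) (g.mapH p b) := by
  obtain ⟨a, rfl⟩ := A.cls_surjective m a
  obtain ⟨b, rfl⟩ := B.cls_surjective p b
  rw [Bil.cupH_cls, mapH_cls, mapH_cls, mapH_cls, Bil.cupH_cls]
  exact congrArg _ (Subtype.ext (RMap.cup μ μ' f g h e n a.1 b.1))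

end RMap

end Vale.Agent.P263.C
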