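import Vale.Agent.P263.C.PowR
import Vale.Agent.P263.C.RMapF

/-!
# P263, block C1: the external square of a class of a simplicial set, with values in the
cohomology of `D2 Z`, over any ring (even degrees) or over `ZMod 2`; change of coefficients
(helper854)
-/

noncomputable section

namespace Vale.Agent.P263.C

open Vale.Agent.P263.S Vale.Agent.P263.E Vale.Agent.P263.E.SS

variable {R : Type} [CommRing R] {R' : Type} [CommRing R']

theorem sym_muF (R : Type) [CommRing R] (Z : SS) : Sym (muF R Z Z) (swapF R Z) := by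
  intro p x y
  funext z
  exact (swapF_tau _ _).trans (muF_swap x y z)

/-- the external square `H^n(Z; R) → H^(2n)(D_2 Z; R)` -/
def PF (R : Type) [CommRing R] (Z : SS) {n : ℕ} [Inv R n] (x : (SS.F R Z).H n) :
    (SS.F R (D2 Z)).H (n + n) :=
  (ofHG Z).mapH (n + n) (P (muF R Z Z) (swapF R Z) (sym_muF R Z) x)

/-- **Reduction of the external square.** -/
theorem red_PF (φ : R →+* R') (Z : SS) {n : ℕ} [Inv R n] [Inv R' n] (x : (SS.F R Z).H n) :
    (chgF φ (D2 Z)).mapH (n + n) (PF R Z x) = PF R' Z ((chgF φ Z).mapH n x) := by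
  have h1 := red_P (muF R Z Z) (swapF R Z) (sym_muF R Z) (muF R' Z Z) (swapF R' Z)
    (sym_muF R' Z) (chgF φ Z) (chgF φ (Z.prod Z)) (chgF_swap φ Z) (chgF_muF φ Z Z) x
  rw [PF, PF, ← h1, ← RMap.mapH_compHom, ← RMap.mapH_homComp]
  congr 1
  congr 1
  exact RMap.ext fun p f => chgF_ofHG φ Z p f

/-- naturality of the external square in the simplicial set -/
theorem PF_nat {X Y : SS} (f : SS.Map X Y) {n : ℕ} [Inv R n] (y : (SS.F R Y).H n) :
    (f.D2.pull (R := R)).mapH (n + n) (PF R Y y) = PF R X ((f.pull (R := R)).mapH n y) := by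
  have hg : ∀ p (s : C2) (x : (SS.F R (Y.prod Y)).obj p),
      ((SS.pair (f.comp (SS.fst X X)) (f.comp (SS.snd X X))).pull (R := R)).app p
        ((swapF R Y).act p s x) = (swapF R X).act p s
          (((SS.pair (f.comp (SS.fst X X)) (f.comp (SS.snd X X))).pull (R := R)).app p x) := by
    intro p s x
    rcases C2_cases s with rfl | rfl
    · rw [swapF_one, swapF_one]
    · funext z
      rw [swapF_tau]
      exact swapF_tau _ _
  have h1 := P_nat (muF R Y Y) (swapF R Y) (sym_muF R Y) (muF R X X) (swapF R X) (sym_muF R X)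
    (f.pull (R := R)) ((SS.pair (f.comp (SS.fst X X)) (f.comp (SS.snd X X))).pull (R := R)) hg
    (fun _ _ _ => rfl) y
  rw [PF, PF, h1, ← Hom.mapH_comp, ← Hom.mapH_comp]
  congr 1
  congr 1
  apply Hom.ext
  intro p c
  funext x
  obtain ⟨s, z, z', rfl⟩ := D2.rep x
  rfl

end Vale.Agent.P263.C
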