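import Vale.Agent.P263.C.Square
import Vale.Agent.P263.C.PowF
import Vale.Agent.P263.S.PowMul

/-!
# P263, block C7 (helper197): classes of a simplicial set whose square is a reduction

`SqG φ X n` : the group of the classes `x ∈ H^n(X; F₂)` such that `x ∪ x` is the reduction (along
`φ : R → F₂`) of a class with coefficients in `R`.  Closed under pull-back, contains the unit, and
for `D2 Z` closed under multiplication by `u` and contains `P(x)` for `x ∈ SqG φ Z n`.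
-/

noncomputable section

namespace Vale.Agent.P263.C

open Vale.Agent.P263.S Vale.Agent.P263.E Vale.Agent.P263.E.SS

/-- pointwise multiplication of functions -/
def mulF (R : Type) [CommRing R] (X : SS) : Bil (SS.F R X) (SS.F R X) (SS.F R X) where
  app p := LinearMap.mk₂ R (fun f g x => f x * g x)
    (fun f f' g => by funext x; exact add_mul _ _ _)
    (fun c f g => by funext x; exact mul_assoc _ _ _)
    (fun f g g' => by funext x; exact mul_add _ _ _)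
    (fun c f g => by funext x; exact mul_left_comm _ _ _)
  nat _ _ _ := rfl

@[simp] theorem mulF_app (R : Type) [CommRing R] (X : SS) {p : ℕ} (f g : (SS.F R X).obj p)
    (x : X.obj p) : (mulF R X).app p f g x = f x * g x := rfl

theorem mulF_comm (R : Type) [CommRing R] (X : SS) (p : ℕ) (f g : (SS.F R X).obj p) :
    (mulF R X).app p g f = (mulF R X).app p f g := by
  funext x
  exact mul_comm _ _

theorem mulF_pull {R : Type} [CommRing R] {X Y : SS} (f : SS.Map X Y) (p : ℕ)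
    (a b : (SS.F R Y).obj p) : (f.pull (R := R)).app p ((mulF R Y).app p a b) =
      (mulF R X).app p ((f.pull (R := R)).app p a) ((f.pull (R := R)).app p b) := rfl

variable {R : Type} [CommRing R] (φ : R →+* ZMod 2)

/-- The group of the classes whose square is the reduction of a class with coefficients in `R`. -/
def SqG (X : SS) (n : ℕ) : AddSubgroup ((SS.F (ZMod 2) X).H n) :=
  (chgF φ X).sqGroup (mulF (ZMod 2) X) (fun p a b => mulF_comm (ZMod 2) X p a b) n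

variable {φ}

theorem mem_SqG {X : SS} {n : ℕ} {x : (SS.F (ZMod 2) X).H n} :
    x ∈ SqG φ X n ↔ (chgF φ X).LiftSq (mulF (ZMod 2) X) x := Iff.rfl

theorem SqG.pull {X Y : SS} (f : SS.Map X Y) {n : ℕ} {y : (SS.F (ZMod 2) Y).H n}
    (hy : y ∈ SqG φ Y n) : (f.pull (R := ZMod 2)).mapH n y ∈ SqG φ X n :=
  RMap.LiftSq.map (μ := mulF (ZMod 2) Y) hy (f.pull (R := R)) (f.pull (R := ZMod 2))
    (fun p a => chgF_pull φ f p a) (fun p a b => mulF_pull f p a b)

/-- the constant function `1` -/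
def oneF (R : Type) [CommRing R] (X : SS) : (SS.F R X).Z 0 :=
  ⟨fun _ => 1, by
    show (SS.F R X).d 0 (fun _ => 1 : X.obj 0 → R) = 0
    funext x
    refine (SS.F_d (X := X) (R := R) (p := 0) (fun _ => 1 : X.obj 0 → R) x).trans ?_
    simp [Finset.sum_range_succ, sn]
    rfl⟩

theorem SqG.one (X : SS) : (SS.F (ZMod 2) X).cls 0 (oneF (ZMod 2) X) ∈ SqG φ X 0 := by
  refine RMap.liftSq_of (N := 0) rfl ?_
  rw [Bil.cupH_cls]
  refine RMap.Lift.of_cocycle (c := (oneF R X : (SS.F R X).obj 0)) (oneF R X).2 ?_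
  have e : (chgF φ X).app 0 (oneF R X : (SS.F R X).obj 0) =
      (mulF (ZMod 2) X).cup 0 (oneF (ZMod 2) X : (SS.F (ZMod 2) X).obj 0)
        (oneF (ZMod 2) X : (SS.F (ZMod 2) X).obj 0) := by
    funext x
    show φ 1 = (1 : ZMod 2) * 1
    rw [map_one, mul_one]
  rw [e, sub_self]
  exact zero_mem _

/-- the form with cocycles -/
theorem SqG.exists_cocycle {X : SS} {n N : ℕ} (hN : N = n + n) {y : (SS.F (ZMod 2) X).Z n}
    (hy : (SS.F (ZMod 2) X).cls n y ∈ SqG φ X n) : ∃ c ∈ (SS.F R X).Z N,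
      chg φ c - (mulF (ZMod 2) X).cup N y.1 y.1 ∈ (SS.F (ZMod 2) X).Bd N := by
  have h := mem_SqG.1 hy N hN
  rw [Bil.cupH_cls] at h
  exact h.exists_cocycle

/-! ### the pairing on the homotopy fixed points -/

theorem mulF_equiv (R : Type) [CommRing R] (Z : SS) (p : ℕ) (g : C2)
    (x y : (SS.F R (Z.prod Z)).obj p) :
    (mulF R (Z.prod Z)).app p ((swapF R Z).act p g x) ((swapF R Z).act p g y) =
      (swapF R Z).act p g ((mulF R (Z.prod Z)).app p x y) := by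
  rcases C2_cases g with rfl | rfl
  · rw [swapF_one, swapF_one, swapF_one]
  · funext z
    rw [mulF_app, swapF_tau, swapF_tau, swapF_tau]
    rfl

/-- the product of the homotopy fixed points -/
abbrev nuF (R : Type) [CommRing R] (Z : SS) :
    Bil (hG (swapF R Z)) (hG (swapF R Z)) (hG (swapF R Z)) :=
  hG.bil (swapF R Z) (swapF R Z) (swapF R Z) (mulF R (Z.prod Z)) (mulF_equiv R Z)

theorem ofHG_mul (R : Type) [CommRing R] (Z : SS) (p : ℕ) (a b : (hG (swapF R Z)).obj p) :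
    (ofHG Z).app p ((nuF R Z).app p a b) =
      (mulF R (D2 Z)).app p ((ofHG Z).app p a) ((ofHG Z).app p b) := by
  funext x
  obtain ⟨s, z, z', rfl⟩ := D2.rep x
  rfl

theorem toHG_mul (R : Type) [CommRing R] (Z : SS) (p : ℕ) (a b : (SS.F R (D2 Z)).obj p) :
    (toHG Z).app p ((mulF R (D2 Z)).app p a b) =
      (nuF R Z).app p ((toHG Z).app p a) ((toHG Z).app p b) := rfl

/-- multiplication by `u` on the cohomology of `D2 Z` -/
def uD2 (Z : SS) (n : ℕ) :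
    (SS.F (ZMod 2) (D2 Z)).H n →ₗ[ZMod 2] (SS.F (ZMod 2) (D2 Z)).H (n + 1) :=
  ((ofHG Z).mapH (n + 1)).comp ((uH (swapF (ZMod 2) Z) n).comp ((toHG Z).mapH n))

theorem uD2_apply (Z : SS) (n : ℕ) (x : (SS.F (ZMod 2) (D2 Z)).H n) :
    uD2 Z n x = (ofHG Z).mapH (n + 1) (uH (swapF (ZMod 2) Z) n ((toHG Z).mapH n x)) := rfl

theorem mapH_ofHG_toHG {R : Type} [CommRing R] (Z : SS) (n : ℕ) (x : (SS.F R (D2 Z)).H n) :
    (ofHG Z).mapH n ((toHG Z).mapH n x) = x := by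
  obtain ⟨x, rfl⟩ := CosMod.cls_surjective _ n x
  rw [Hom.mapH_cls, Hom.mapH_cls]
  exact congrArg _ (Subtype.ext (ofHG_toHG x.1))

theorem mapH_toHG_ofHG {R : Type} [CommRing R] (Z : SS) (n : ℕ) (x : (hG (swapF R Z)).H n) :
    (toHG Z).mapH n ((ofHG Z).mapH n x) = x := by
  obtain ⟨x, rfl⟩ := CosMod.cls_surjective _ n x
  rw [Hom.mapH_cls, Hom.mapH_cls]
  exact congrArg _ (Subtype.ext (toHG_ofHG x.1))

/-- **closure under `u`** -/
theorem SqG.u {Z : SS} {n : ℕ} {x : (SS.F (ZMod 2) (D2 Z)).H n} (hx : x ∈ SqG φ (D2 Z) n) :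
    uD2 Z n x ∈ SqG φ (D2 Z) (n + 1) := by
  have h1 : (chgHG φ Z).LiftSq (nuF (ZMod 2) Z) ((toHG Z).mapH n x) :=
    RMap.LiftSq.map (ρ := chgF φ (D2 Z)) (ρ' := chgHG φ Z) (μ := mulF (ZMod 2) (D2 Z)) hx
      (toHG Z) (toHG Z) (fun p a => chgF_toHG φ Z p a) (fun p a b => toHG_mul (ZMod 2) Z p a b)
  have h2 : (chgHG φ Z).LiftSq (nuF (ZMod 2) Z)
      (uH (swapF (ZMod 2) Z) n ((toHG Z).mapH n x)) :=
    RMap.LiftSq.uH (fun p f => RMap.hGmap_uc (chgF φ (Z.prod Z)) (chgF_swap φ Z) p f)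
      (fun _ _ _ _ => rfl) h1
  exact RMap.LiftSq.map (ρ := chgHG φ Z) (ρ' := chgF φ (D2 Z)) h2 (ofHG Z) (ofHG Z)
    (fun p a => chgF_ofHG φ Z p a) (fun p a b => ofHG_mul (ZMod 2) Z p a b)

/-- `P(x)² = P(x²)` on `D2 Z` -/
def PMul (Z : SS) : Prop := ∀ (n : ℕ) (x : (SS.F (ZMod 2) Z).H n),
  (nuF (ZMod 2) Z).cupH rfl (P (muF (ZMod 2) Z Z) (swapF (ZMod 2) Z) (sym_muF (ZMod 2) Z) x)
      (P (muF (ZMod 2) Z Z) (swapF (ZMod 2) Z) (sym_muF (ZMod 2) Z) x) =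
    P (muF (ZMod 2) Z Z) (swapF (ZMod 2) Z) (sym_muF (ZMod 2) Z)
      ((mulF (ZMod 2) Z).cupH rfl x x)

theorem pMul (Z : SS) : PMul Z := fun n x =>
  (P_mul (muF (ZMod 2) Z Z) (swapF (ZMod 2) Z) (sym_muF (ZMod 2) Z)
    (muF (ZMod 2) Z Z) (swapF (ZMod 2) Z) (sym_muF (ZMod 2) Z)
    (muF (ZMod 2) Z Z) (swapF (ZMod 2) Z) (sym_muF (ZMod 2) Z)
    (mulF (ZMod 2) Z) (mulF (ZMod 2) (Z.prod Z)) (mulF_equiv (ZMod 2) Z)
    (fun p a b a' b' => by
      funext z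
      exact mul_mul_mul_comm _ _ _ _) rfl rfl x x).symm

/-- **closure under `P`** -/
theorem SqG.P {Z : SS} {n : ℕ} {x : (SS.F (ZMod 2) Z).H n}
    (hx : x ∈ SqG φ Z n) : PF (ZMod 2) Z x ∈ SqG φ (D2 Z) (n + n) := by
  have h1 : (chgHG φ Z).LiftSq (nuF (ZMod 2) Z)
      (S.P (muF (ZMod 2) Z Z) (swapF (ZMod 2) Z) (sym_muF (ZMod 2) Z) x) := by
    refine RMap.LiftSq.P (ρ₀ := chgF φ Z) (μ₀ := mulF (ZMod 2) Z) (sym_muF (ZMod 2) Z)
      (pMul Z n x) ?_ hx
    rintro y ⟨c, rfl⟩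
    exact ⟨S.P (muF R Z Z) (swapF R Z) (sym_muF R Z) c,
      red_P (muF R Z Z) (swapF R Z) (sym_muF R Z) (muF (ZMod 2) Z Z) (swapF (ZMod 2) Z)
        (sym_muF (ZMod 2) Z) (chgF φ Z) (chgF φ (Z.prod Z)) (chgF_swap φ Z) (chgF_muF φ Z Z) c⟩
  exact RMap.LiftSq.map (ρ := chgHG φ Z) (ρ' := chgF φ (D2 Z)) h1 (ofHG Z) (ofHG Z)
    (fun p a => chgF_ofHG φ Z p a) (fun p a b => ofHG_mul (ZMod 2) Z p a b)

end Vale.Agent.P263.C
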