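import Vale.Agent.P263.TOP.LevelT
import Vale.Agent.P263.C.DatFBk
import Vale.Agent.P263.C.LiftK
import Vale.Agent.P263.C.SqBW
import Vale.Agent.P263.S.SqCf

/-!
# P263, block C (helper27): `Sq¹ Sq^c x = 0` in the cofibre of a minimal class

`G : Geo d N` with `hfun G.phi n = 0`, `c` even, `c + c = d`, `x ∈ H^c(K)` whose component in
`H^c(BW_n)` has a square which is the reduction of a class with coefficients `Z/2^(2^n+1)`.
-/

noncomputable section

namespace Vale.Agent.P263.C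

open Vale.Agent.P263.S Vale.Agent.P263.E Vale.Agent.P263.TOP

/-! ### the squares of an algebra of functions -/

/-- the coefficient of `u^0` in `P(x)` is the cup square -/
theorem cf_P_top {A B : CosMod (ZMod 2)} {n : ℕ} (μ : Bil A A B) (h : Sym μ (Act.triv C2 B))
    (x : A.H n) : cf B (n + n) (n + n) (P μ (Act.triv C2 B) h x) = μ.cupH rfl x x := by
  induction x using CosMod.H_ind with
  | h z =>
    rw [cf_P μ h z (n + n) le_rfl, Bil.cupH_cls]
    refine congrArg _ (Subtype.ext ?_)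
    show sqf μ z.1 (n + n) = μ.cup (n + n) z.1 z.1
    rw [sqf, show n + n + 1 - (n + n) = 1 by omega]
    exact cupi_one μ rfl z.1 z.1

theorem cf_P_top' {A B : CosMod (ZMod 2)} {n N : ℕ} (hN : N = n + n) (μ : Bil A A B)
    (h : Sym μ (Act.triv C2 B)) (x : A.H n) :
    cf B (n + n) N (P μ (Act.triv C2 B) h x) = μ.cupH hN x x := by
  subst hN
  exact cf_P_top μ h x

/-! ### the reduction of the input -/

variable {d N : ℕ} (G : Geo d N) (n : ℕ)

/-- the reduction of the input of block [E] from `Z/4` to `Z/2` -/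
def geoBk : DatBk (G.dat (ZMod 4) n) (G.dat (ZMod 2) n) where
  bI := bkCst G.a'
  bZ := bkF (SS.BW SS.pt n)
  r_comm _ _ := rfl
  rho_comm _ _ := rfl
  mul_I _ x y := Subtype.ext (funext fun z => map_mul r42 (x.1 z) (y.1 z))
  mul_Z _ x y := funext fun z => map_mul r42 (x z) (y z)

/-- the coefficients `Z/2^(2^n+1)` -/
abbrev Rn (n : ℕ) : Type := ZMod (2 ^ (2 ^ n - 1 + 2))

theorem four_dvd (n : ℕ) : 4 ∣ 2 ^ (2 ^ n - 1 + 2) :=
  ⟨2 ^ (2 ^ n - 1), by rw [pow_add, mul_comm]; norm_num⟩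

theorem two_dvd (n : ℕ) : 2 ∣ 2 ^ (2 ^ n - 1 + 2) := Dvd.dvd.trans (by norm_num) (four_dvd n)

/-- the reduction to `Z/2` -/
abbrev phin (n : ℕ) : Rn n →+* ZMod 2 := ZMod.castHom (two_dvd n) (ZMod 2)

/-- the reduction to `Z/4` -/
abbrev phin4 (n : ℕ) : Rn n →+* ZMod 4 := ZMod.castHom (four_dvd n) (ZMod 4)

theorem r42_phin4 (x : Rn n) : r42 (phin4 n x) = phin n x :=
  RingHom.congr_fun (Subsingleton.elim (r42.comp (phin4 n)) (phin n)) x

/-- **a class of `H^d(K)` whose component in `H^d(BW_n)` is the reduction of a class with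
coefficients `Z/2^(2^n+1)` is the reduction of a class with coefficients `Z/4`** -/
theorem exists_lift4 (hmin : hfun G.phi n = 0) (hd : 2 ≤ d) (w : (G.dat (ZMod 2) n).K.H d)
    (C : (SS.F (Rn n) (SS.BW SS.pt n)).Z d)
    (hw : (G.dat (ZMod 2) n).kw.mapH d w =
      (chgF (phin n) (SS.BW SS.pt n)).mapH d ((SS.F (Rn n) (SS.BW SS.pt n)).cls d C)) :
    ∃ k : (G.dat (ZMod 4) n).K.Z d,
      (G.dat (ZMod 2) n).K.cls d ((geoBk G n).bK.redZ d k) = w := by
  obtain ⟨m, rfl⟩ : ∃ m, d = m + 2 := ⟨d - 2, by omega⟩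
  have hA1 : (SS.F (ZMod 2) G.A).Z (m + 1) ≤ (SS.F (ZMod 2) G.A).Bd (m + 1) :=
    CosMod.H_eq_zero_iff.1 (G.hA.low (m + 1) (by omega) (by omega))
  obtain ⟨k, hk, hk'⟩ := lift_K4_BW (Z' := SS.BW SS.pt n) (G.trip (ZMod 4) n) n m (four_dvd n)
    (((G.Y n).tr (R := Rn n)).comp (G.clY n).pull) (fun p c => by
      show (G.Y n).tr.app p ((G.clY n).pull.app p (chg (phin4 n) c)) =
        chg (phin4 n) ((G.Y n).tr.app p ((G.clY n).pull.app p c))
      rw [chg_tr, chg_pull]) hA1 (D := G.D) (by have := G.hD; omega)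
    (fun j hj => G.b_bijective hj (G.hc j hj)) (SS.Map.id _) C.2
  refine ⟨⟨k, hk⟩, ?_⟩
  refine ((G.base n).snd_bij ((G.hmin_iff n).2 hmin) le_rfl).1 (Eq.trans ?_ hw.symm)
  show (G.dat (ZMod 2) n).kw.mapH (m + 2) _ = _
  rw [Hom.mapH_cls, RMap.mapH_cls]
  refine congrArg _ (Subtype.ext ?_)
  show chg r42 ((G.dat (ZMod 4) n).kw.app (m + 2) k) = chg (phin n) C.1
  have h1 : (G.dat (ZMod 4) n).kw.app (m + 2) k = chg (phin4 n) C.1 := hk'
  rw [h1]
  funext x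
  exact r42_phin4 n (C.1 x)

section st

variable (R : ℕ) (nil : ∀ j (x : (guHG idC ((G.Y n).actNC (ZMod 2) C2 C2)).H j),
  (guHG idC ((G.Y n).actNC (ZMod 2) C2 C2)).upow R j x = 0)

/-- `Sq^0` of the component in `H(BW_n)` -/
theorem kw_Sq_self (q : ℕ) (x : (G.dat (ZMod 2) n).K.H q) :
    (G.dat (ZMod 2) n).kw.mapH q (((G.dat (ZMod 2) n).pw R nil).st.Sq q q x) =
      (G.dat (ZMod 2) n).kw.mapH q x := by
  rw [Dat.kw_Sq, cf_P_bool _ _ (Hom.id _) (fun p y => ?_), Hom.mapH_id]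
  funext s
  show y s * y s = y s
  exact (show ∀ z : ZMod 2, z * z = z by decide) (y s)

/-- `Sq^0 = 1` in degrees `≤ d` -/
theorem Sq_self (hmin : hfun G.phi n = 0) {q : ℕ} (hq : q ≤ d) (x : (G.dat (ZMod 2) n).K.H q) :
    ((G.dat (ZMod 2) n).pw R nil).st.Sq q q x = x :=
  ((G.base n).snd_bij ((G.hmin_iff n).2 hmin) hq).1 (kw_Sq_self G n R nil q x)

/-- `Sq^q` on `H^q` is the cup square, on the components in `H(BW_n)` -/
theorem kw_Sq_top {q j : ℕ} (hj : j = q + q) (x : (G.dat (ZMod 2) n).K.H q) :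
    (G.dat (ZMod 2) n).kw.mapH j (((G.dat (ZMod 2) n).pw R nil).st.Sq q j x) =
      (mulF (ZMod 2) (SS.BW SS.pt n)).cupH hj ((G.dat (ZMod 2) n).kw.mapH q x)
        ((G.dat (ZMod 2) n).kw.mapH q x) := by
  rw [Dat.kw_Sq]
  exact cf_P_top' hj _ _ _

/-- **`Sq¹ w = 0` for a class `w` of even degree `d` whose component in `H^d(BW_n)` is the reduction
of a class with coefficients `Z/2^(2^n+1)`** -/
theorem Sq_one_eq_zero (hmin : hfun G.phi n = 0) (hd : Even d) (w : (G.dat (ZMod 2) n).K.H d)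
    (hw : (chgF (phin n) (SS.BW SS.pt n)).Lift ((G.dat (ZMod 2) n).kw.mapH d w)) :
    ((G.dat (ZMod 2) n).pw R nil).st.Sq d (d + 1) w = 0 := by
  have hd2 : 2 ≤ d := by
    have := G.dpos
    obtain ⟨e, he⟩ := hd
    omega
  obtain ⟨C, hC⟩ := hw
  obtain ⟨C, rfl⟩ := (SS.F (Rn n) (SS.BW SS.pt n)).cls_surjective d C
  obtain ⟨k, rfl⟩ := exists_lift4 G n hmin hd2 w C hC.symm
  exact (geoBk G n).st_sq_one R nil hd k (Sq_self G n R nil hmin le_rfl _)

/-- **`Sq¹ Sq^c x = 0`** if the square of the component of `x` in `H^c(BW_n)` is the reduction of a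
class with coefficients `Z/2^(2^n+1)`. -/
theorem Sq_one_Sq_eq_zero (hmin : hfun G.phi n = 0) {c : ℕ} (hc : d = c + c)
    (x : (G.dat (ZMod 2) n).K.H c) (y : (SS.F (ZMod 2) (SS.BW SS.pt n)).H c)
    (hxy : (G.dat (ZMod 2) n).kw.mapH c x = y) (hy : y ∈ SqG (phin n) (SS.BW SS.pt n) c) :
    ((G.dat (ZMod 2) n).pw R nil).st.Sq d (d + 1)
      (((G.dat (ZMod 2) n).pw R nil).st.Sq c d x) = 0 := by
  refine Sq_one_eq_zero G n R nil hmin ⟨c, hc⟩ _ ?_
  rw [kw_Sq_top G n R nil hc x, hxy]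
  exact mem_SqG.1 hy d hc

end st

end Vale.Agent.P263.C
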