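import Vale.Agent.P263.E.Main
import Vale.Agent.P263.C.Case1
import Vale.Agent.P263.C.Main

/-!
# P263, block C (helper27): Case 1 for the output `MIn` of block [E]

`d = 2 c`, `c` even: the Adem relation `Sq^(c+1) = Sq^1 Sq^c` and LZ_1.
-/

noncomputable section

namespace Vale.Agent.P263.E.MIn

open Finset Vale.Agent.P263.S Vale.Agent.P263.E Vale.Agent.P263.E.SS Vale.Agent.P263.EX

variable {B : SS} {Y : Cov B} {Z' : SS} {d n : ℕ} (M : MIn Y Z' d)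

/-- `Sq^0 = 1` in degrees `≤ d` -/
theorem Sq_self {q : ℕ} (hq : q ≤ d) (x : M.D.K.H q) : M.Sq q q x = x :=
  (M.proj_bij hq).1 (M.proj_Sq_self q x)

/-- `Sq^1 Sq^c x = Sq^(c+1) x` in `H^(2c+1)(K)`, for `x ∈ H^c(K)`, `c` even -/
theorem Sq_one_Sq {c : ℕ} (hc : Even c) (hc0 : 0 < c) (h : 0 + 2 * c = d) (x : M.D.K.H c) :
    M.Sq d (d + 1) (M.Sq c d x) = M.Sq c (d + 1) x := by
  obtain rfl : d = 2 * c := by omega
  have h2 := C.adem_one (V := M.D.K.H (2 * c + 1)) c hc0 (fun a =>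
    M.Sq (c + (c + 1 - a)) (2 * c + 1) (M.Sq c (c + (c + 1 - a)) x))
    (M.bm c (c + 1) (2 * c + 1) 1 (by omega) (by omega) x)
  have h3 : ((c + 1 : ℕ) : ZMod 2) = 1 := by
    obtain ⟨b, rfl⟩ := hc
    rw [show b + b + 1 = 2 * b + 1 by ring, Nat.cast_succ, Nat.cast_mul,
      show ((2 : ℕ) : ZMod 2) = 0 from rfl, zero_mul, zero_add]
  rw [h3, one_smul] at h2
  have h4 : ∀ k, k = 2 * c → M.Sq k (2 * c + 1) (M.Sq c k x) =
      M.Sq (2 * c) (2 * c + 1) (M.Sq c (2 * c) x) := by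
    rintro k rfl; rfl
  have h5 : ∀ k, k = c → M.Sq k (2 * c + 1) (M.Sq c k x) = M.Sq c (2 * c + 1) x := by
    rintro k rfl
    rw [M.Sq_self (by omega)]
  rwa [h5 (c + (c + 1 - (c + 1))) (by omega), h4 (c + (c + 1 - 1)) (by omega)] at h2

/-- **Case 1** -/
theorem case1 {c : ℕ} (hc : Even c) (hc0 : 0 < c) (h : 0 + 2 * c = d) (x : M.D.K.H c)
    (hB : M.Sq d (d + 1) (M.Sq c d x) = 0) :
    M.phi ((Y.ksub 2).tr.mapH d
      (((Y.cl2 M.PL M.cl).pull).mapH d (upZ Z' 0 c d h (M.proj c x)))) = 0 := by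
  have h1 := M.lz h x
  rw [← M.Sq_one_Sq hc hc0 h x, hB] at h1
  rcases (show ∀ z : ZMod 2, z = 0 ∨ z = 1 by decide) (M.phi ((Y.ksub 2).tr.mapH d
      (((Y.cl2 M.PL M.cl).pull).mapH d (upZ Z' 0 c d h (M.proj c x))))) with h0 | h0
  · exact h0
  · rw [h0, one_smul] at h1
    exact absurd h1.symm M.iota_ne

/-- `Sq^1 w = 0` for a class of even degree `d` which is the reduction of a class of `K(Z/4)` -/
theorem sq_one_red {D4 : Dat (ZMod 4) Y} (b : C.DatBk D4 M.D) (hd : Even d) (w : M.D.K.H d)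
    (hw : ∃ k : D4.K.Z d, M.D.K.cls d (b.bK.redZ d k) = w) : M.Sq d (d + 1) w = 0 := by
  obtain ⟨k, rfl⟩ := hw
  exact b.st_sq_one M.R M.nil hd k (M.Sq_self le_rfl _)

/-- `Sq^c` on `H^c` is the cup square, on the components in `H(Z')` -/
theorem proj_Sq_top {c : ℕ} (hc : d = c + c) (x : M.D.K.H c) :
    M.proj d (M.Sq c d x) =
      (C.mulF (ZMod 2) Z').cupH hc (M.proj c x) (M.proj c x) := by
  rw [M.proj_Sq]
  exact C.cf_P_top' hc _ _ _

/-- **Case 1**, from the lifting property of the reduction `K(Z/4) → K`. -/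
theorem case1_of_lift {D4 : Dat (ZMod 4) Y} (b : C.DatBk D4 M.D)
    (hl : ∀ w : M.D.K.H d, (C.chgF (C.phin n) Z').Lift (M.proj d w) →
      ∃ k : D4.K.Z d, M.D.K.cls d (b.bK.redZ d k) = w)
    {c : ℕ} (hc : Even c) (hc0 : 0 < c) (h : 0 + 2 * c = d) (x : M.D.K.H c)
    (hx : M.proj c x ∈ C.SqG (C.phin n) Z' c) :
    M.phi ((Y.ksub 2).tr.mapH d
      (((Y.cl2 M.PL M.cl).pull).mapH d (upZ Z' 0 c d h (M.proj c x)))) = 0 := by
  have hc2 : d = c + c := by omega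
  refine M.case1 hc hc0 h x (M.sq_one_red b ⟨c, hc2⟩ _ (hl _ ?_))
  rw [M.proj_Sq_top hc2 x]
  exact C.mem_SqG.1 hx d hc2

end Vale.Agent.P263.E.MIn
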