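import Vale.Agent.P263.S.Defs

/-!
# P263, block C1: change of the coefficient ring

`RMap φ A B` : natural additive maps from a cosimplicial `R`-module to a cosimplicial `R'`-module
which are semilinear over `φ : R →+* R'`; induced maps on cohomology, on homotopy fixed points, on
the universal objects `L n`, `M n` and on levelwise tensor products.
-/

noncomputable section

namespace Vale.Agent.P263.C

open Vale.Agent.P263.S TensorProduct

variable {R : Type} [CommRing R] {R' : Type} [CommRing R']

/-- A semilinear map of cosimplicial modules. -/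
structure RMap (φ : R →+* R') (A : CosMod R) (B : CosMod R') where
  app : ∀ p, A.obj p →+ B.obj p
  smul : ∀ p (r : R) (a : A.obj p), app p (r • a) = φ r • app p a
  nat : ∀ {p q : ℕ} (f : Op p q) (a : A.obj p), app q (A.map f a) = B.map f (app p a)

namespace RMap

variable {φ : R →+* R'} {A A₁ A₂ : CosMod R} {B B₁ B₂ : CosMod R'}

theorem ext {f g : RMap φ A B} (h : ∀ p x, f.app p x = g.app p x) : f = g := by
  cases f; cases g
  congr
  funext p
  exact AddMonoidHom.ext (h p)

theorem app_d (f : RMap φ A B) (p : ℕ) (x : A.obj p) :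
    f.app (p + 1) (A.d p x) = B.d p (f.app p x) := by
  rw [CosMod.d_apply, CosMod.d_apply, map_sum]
  refine Finset.sum_congr rfl fun i _ => ?_
  rw [sn, map_zsmul, f.nat, sn]

theorem app_mem_Z (f : RMap φ A B) {p : ℕ} {x : A.obj p} (hx : x ∈ A.Z p) :
    f.app p x ∈ B.Z p := by
  rw [CosMod.mem_Z] at *
  rw [← f.app_d, hx, map_zero]

theorem app_mem_Bd (f : RMap φ A B) {p : ℕ} {x : A.obj p} (hx : x ∈ A.Bd p) :
    f.app p x ∈ B.Bd p := by
  cases p with
  | zero =>
    rw [CosMod.mem_Bd_zero] at *
    rw [hx, map_zero]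
  | succ p =>
    obtain ⟨y, rfl⟩ := hx
    exact ⟨f.app p y, (f.app_d p y).symm⟩

/-- the map on cocycles -/
def mapZ (f : RMap φ A B) (p : ℕ) : A.Z p →+ B.Z p where
  toFun x := ⟨f.app p x, f.app_mem_Z x.2⟩
  map_zero' := Subtype.ext (map_zero _)
  map_add' _ _ := Subtype.ext (map_add _ _ _)

@[simp] theorem coe_mapZ (f : RMap φ A B) (p : ℕ) (x : A.Z p) :
    (f.mapZ p x : B.obj p) = f.app p x := rfl

/-- the map on cohomology -/
def mapH (f : RMap φ A B) (p : ℕ) : A.H p →+ B.H p :=
  QuotientAddGroup.map _ _ (f.mapZ p) (by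
    intro x hx
    exact f.app_mem_Bd hx)

@[simp] theorem mapH_cls (f : RMap φ A B) (p : ℕ) (x : A.Z p) :
    f.mapH p (A.cls p x) = B.cls p (f.mapZ p x) := rfl

/-- composition with a linear map on the right (source) -/
def compHom (f : RMap φ A B) (g : Hom A₁ A) : RMap φ A₁ B where
  app p := (f.app p).comp (g.app p).toAddMonoidHom
  smul p r a := by simp [f.smul]
  nat u a := by
    show f.app _ (g.app _ (A₁.map u a)) = B.map u (f.app _ (g.app _ a))
    rw [g.nat, f.nat]

@[simp] theorem compHom_app (f : RMap φ A B) (g : Hom A₁ A) (p : ℕ) (x : A₁.obj p) :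
    (f.compHom g).app p x = f.app p (g.app p x) := rfl

/-- composition with a linear map on the left (target) -/
def homComp (g : Hom B B₁) (f : RMap φ A B) : RMap φ A B₁ where
  app p := (g.app p).toAddMonoidHom.comp (f.app p)
  smul p r a := by simp [f.smul]
  nat u a := by
    show g.app _ (f.app _ (A.map u a)) = B₁.map u (g.app _ (f.app _ a))
    rw [f.nat, g.nat]

@[simp] theorem homComp_app (g : Hom B B₁) (f : RMap φ A B) (p : ℕ) (x : A.obj p) :
    (homComp g f).app p x = g.app p (f.app p x) := rfl

theorem mapH_compHom (f : RMap φ A B) (g : Hom A₁ A) (p : ℕ) (x : A₁.H p) :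
    (f.compHom g).mapH p x = f.mapH p (g.mapH p x) := by
  obtain ⟨x, rfl⟩ := A₁.cls_surjective p x
  rfl

theorem mapH_homComp (g : Hom B B₁) (f : RMap φ A B) (p : ℕ) (x : A.H p) :
    (homComp g f).mapH p x = g.mapH p (f.mapH p x) := by
  obtain ⟨x, rfl⟩ := A.cls_surjective p x
  rfl

/-- a linear map is semilinear over the identity -/
def ofHom (f : Hom A A₁) : RMap (RingHom.id R) A A₁ where
  app p := (f.app p).toAddMonoidHom
  smul p r a := by simp
  nat u a := f.nat u a

/-! ### homotopy fixed points -/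

variable {G : Type} [Group G]

/-- an equivariant semilinear map induces a map of homotopy fixed points -/
def hGmap (f : RMap φ A B) (a : Act G A) (b : Act G B)
    (hf : ∀ p (g : G) (x : A.obj p), f.app p (a.act p g x) = b.act p g (f.app p x)) :
    RMap φ (hG a) (hG b) where
  app p :=
    { toFun := fun x => hG.mk b (fun s => f.app p (hG.fn x s)) (fun g s => by
        rw [hG.fn_mul, hf])
      map_zero' := hG.ext fun s => by
        show f.app p 0 = 0
        exact map_zero _
      map_add' := fun x y => hG.ext fun s => by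
        show f.app p (_ + _) = f.app p _ + f.app p _
        exact map_add _ _ _ }
  smul p r x := hG.ext fun s => f.smul p r _
  nat u x := hG.ext fun s => f.nat u _

@[simp] theorem hGmap_fn (f : RMap φ A B) (a : Act G A) (b : Act G B)
    (hf : ∀ p (g : G) (x : A.obj p), f.app p (a.act p g x) = b.act p g (f.app p x))
    {p : ℕ} (x : (hG a).obj p) (s : Fin (p + 1) → G) :
    hG.fn ((f.hGmap a b hf).app p x) s = f.app p (hG.fn x s) := rfl

theorem res_hGmap (f : RMap φ A B) (a : Act G A) (b : Act G B)
    (hf : ∀ p (g : G) (x : A.obj p), f.app p (a.act p g x) = b.act p g (f.app p x)) (p : ℕ)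
    (x : (hG a).H p) :
    (hG.res b).mapH p ((f.hGmap a b hf).mapH p x) = f.mapH p ((hG.res a).mapH p x) := by
  obtain ⟨x, rfl⟩ := (hG a).cls_surjective p x
  rfl

/-! ### tensor products -/

/-- levelwise tensor product of semilinear maps, on one level -/
def tensLvl (φ : R →+* R') {X Y : Type} {X' Y' : Type} [AddCommGroup X] [AddCommGroup Y]
    [Module R X] [Module R Y] [AddCommGroup X'] [AddCommGroup Y'] [Module R' X'] [Module R' Y']
    (f : X →+ X') (g : Y →+ Y') (hf : ∀ (r : R) x, f (r • x) = φ r • f x)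
    (hg : ∀ (r : R) y, g (r • y) = φ r • g y) : X ⊗[R] Y →+ X' ⊗[R'] Y' :=
  TensorProduct.liftAddHom
    { toFun := fun x =>
        { toFun := fun y => f x ⊗ₜ[R'] g y
          map_zero' := by rw [map_zero, tmul_zero]
          map_add' := fun y y' => by rw [map_add, tmul_add] }
      map_zero' := by
        ext y
        simp
      map_add' := fun x x' => by
        ext y
        simp [add_tmul] }
    (by
      intro r x y
      show f (r • x) ⊗ₜ[R'] g y = f x ⊗ₜ[R'] g (r • y)
      rw [hf, hg, smul_tmul])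

@[simp] theorem tensLvl_tmul (φ : R →+* R') {X Y : Type} {X' Y' : Type} [AddCommGroup X]
    [AddCommGroup Y] [Module R X] [Module R Y] [AddCommGroup X'] [AddCommGroup Y']
    [Module R' X'] [Module R' Y']
    (f : X →+ X') (g : Y →+ Y') (hf : ∀ (r : R) x, f (r • x) = φ r • f x)
    (hg : ∀ (r : R) y, g (r • y) = φ r • g y) (x : X) (y : Y) :
    tensLvl φ f g hf hg (x ⊗ₜ[R] y) = f x ⊗ₜ[R'] g y := rfl

/-- two additive maps out of a tensor product agree if they agree on pure tensors -/
theorem tens_addHom_ext {X Y : Type} {Z : Type} [AddCommGroup X] [AddCommGroup Y]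
    [Module R X] [Module R Y] [AddCommGroup Z] {f g : X ⊗[R] Y →+ Z}
    (h : ∀ x y, f (x ⊗ₜ[R] y) = g (x ⊗ₜ[R] y)) (t : X ⊗[R] Y) : f t = g t := by
  induction t using TensorProduct.induction_on with
  | zero => rw [map_zero, map_zero]
  | tmul x y => exact h x y
  | add a b ha hb => rw [map_add, map_add, ha, hb]

/-- the tensor product of semilinear maps -/
def tens (f : RMap φ A B) (g : RMap φ A₁ B₁) : RMap φ (tensor A A₁) (tensor B B₁) where
  app p := tensLvl φ (f.app p) (g.app p) (f.smul p) (g.smul p)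
  smul p r t := by
    have h : ((tensLvl φ (f.app p) (g.app p) (f.smul p) (g.smul p)).comp
        (DistribSMul.toAddMonoidHom (A.obj p ⊗[R] A₁.obj p) r)) =
        (DistribSMul.toAddMonoidHom (B.obj p ⊗[R'] B₁.obj p) (φ r)).comp
          (tensLvl φ (f.app p) (g.app p) (f.smul p) (g.smul p)) := by
      ext t
      refine tens_addHom_ext (f := (tensLvl φ (f.app p) (g.app p) (f.smul p) (g.smul p)).comp
        (DistribSMul.toAddMonoidHom (A.obj p ⊗[R] A₁.obj p) r))
        (g := (DistribSMul.toAddMonoidHom (B.obj p ⊗[R'] B₁.obj p) (φ r)).comp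
          (tensLvl φ (f.app p) (g.app p) (f.smul p) (g.smul p))) ?_ t
      intro x y
      show tensLvl φ (f.app p) (g.app p) (f.smul p) (g.smul p) (r • (x ⊗ₜ[R] y)) =
        φ r • tensLvl φ (f.app p) (g.app p) (f.smul p) (g.smul p) (x ⊗ₜ[R] y)
      rw [smul_tmul', tensLvl_tmul, tensLvl_tmul, f.smul, smul_tmul']
    exact DFunLike.congr_fun h t
  nat {p q} u t := by
    refine tens_addHom_ext (f := (tensLvl φ (f.app q) (g.app q) (f.smul q) (g.smul q)).comp
        ((tensor A A₁).map u).toAddMonoidHom)
        (g := ((tensor B B₁).map u).toAddMonoidHom.comp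
          (tensLvl φ (f.app p) (g.app p) (f.smul p) (g.smul p))) ?_ t
    intro x y
    show tensLvl φ (f.app q) (g.app q) (f.smul q) (g.smul q) (A.map u x ⊗ₜ[R] A₁.map u y) =
      (tensor B B₁).map u (f.app p x ⊗ₜ[R'] g.app p y)
    rw [tensLvl_tmul, f.nat, g.nat]
    rfl

@[simp] theorem tens_tmul (f : RMap φ A B) (g : RMap φ A₁ B₁) (p : ℕ) (x : A.obj p)
    (y : A₁.obj p) : (f.tens g).app p (x ⊗ₜ[R] y : A.obj p ⊗[R] A₁.obj p) =
      f.app p x ⊗ₜ[R'] g.app p y := rfl

/-! ### the universal objects -/

/-- ring change of `L n` -/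
def mapL (φ : R →+* R') (n : ℕ) : RMap φ (L R n) (L R' n) where
  app p := Finsupp.mapRange.addMonoidHom φ.toAddMonoidHom
  smul p r a := by
    let a' : Op n p →₀ R := a
    have h : Finsupp.mapRange φ (map_zero φ) (r • a') =
        φ r • Finsupp.mapRange φ (map_zero φ) a' :=
      Finsupp.ext fun t => map_mul φ r (a' t)
    exact h
  nat {p q} u a := by
    have h : (Finsupp.mapRange.addMonoidHom φ.toAddMonoidHom).comp
        (Finsupp.lmapDomain R R (fun τ : Op n p => u.comp τ)).toAddMonoidHom =
        (Finsupp.lmapDomain R' R' (fun τ : Op n p => u.comp τ)).toAddMonoidHom.comp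
        (Finsupp.mapRange.addMonoidHom φ.toAddMonoidHom) := by
      apply Finsupp.addHom_ext
      intro τ r
      simp
    exact DFunLike.congr_fun h a

@[simp] theorem mapL_single (φ : R →+* R') (n p : ℕ) (τ : Op n p) (r : R) :
    (mapL φ n).app p (Finsupp.single τ r : Op n p →₀ R) =
      (Finsupp.single τ (φ r) : Op n p →₀ R') :=
  Finsupp.mapRange_single (hf := map_zero φ)

theorem mapL_iota (φ : R →+* R') (n : ℕ) : (mapL φ n).app n (iotaL R n) = iotaL R' n := by
  rw [iotaL, mapL_single, map_one, iotaL]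

/-- additive maps out of `L n` -/
theorem L_ext {Z : Type} [AddCommGroup Z] {n p : ℕ} {f g : (L R n).obj p →+ Z}
    (h : ∀ (τ : Op n p) (r : R), f (r • (L R n).map τ (iotaL R n)) =
      g (r • (L R n).map τ (iotaL R n))) (x : (L R n).obj p) : f x = g x := by
  have key : f = g := by
    apply Finsupp.addHom_ext
    intro τ r
    have e : (Finsupp.single τ r : Op n p →₀ R) = r • (L R n).map τ (iotaL R n) := by
      rw [iotaL, L_map_single]
      change _ = r • (Finsupp.single (τ.comp OrderHom.id) 1 : Op n p →₀ R)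
      rw [Finsupp.smul_single, smul_eq_mul, mul_one]
      rfl
    have := h τ r
    rw [← e] at this
    exact this
  rw [key]

/-- two semilinear maps out of `L n` agree if they agree on the generator -/
theorem rmap_L_ext {n : ℕ} {f g : RMap φ (L R n) B}
    (h : f.app n (iotaL R n) = g.app n (iotaL R n)) : f = g := by
  apply ext
  intro p x
  refine L_ext (fun τ r => ?_) x
  rw [f.smul, g.smul, f.nat, g.nat, h]

theorem mapL_bdL (φ : R →+* R') (n : ℕ) (p : ℕ) (x : (L R (n + 1)).obj p) :
    (mapL φ n).app p ((bdL R n).app p x) = (bdL R' n).app p ((mapL φ (n + 1)).app p x) := by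
  have : (mapL φ n).compHom (bdL R n) = homComp (bdL R' n) (mapL φ (n + 1)) := by
    apply rmap_L_ext
    rw [compHom_app, homComp_app, bdL, ofL_iota, mapL_iota, bdL, ofL_iota, (mapL φ n).app_d,
      mapL_iota]
  exact congrArg (fun k : RMap φ (L R (n + 1)) (L R' n) => k.app p x) this

/-- ring change of `M n` -/
def mapM (φ : R →+* R') (n : ℕ) : RMap φ (M R n) (M R' n) where
  app p := QuotientAddGroup.map (LinearMap.range ((bdL R n).app p)).toAddSubgroup
    (LinearMap.range ((bdL R' n).app p)).toAddSubgroup ((mapL φ n).app p) (by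
      rintro _ ⟨y, rfl⟩
      exact ⟨(mapL φ (n + 1)).app p y, (mapL_bdL φ n p y).symm⟩)
  smul p r a := by
    obtain ⟨a, rfl⟩ := prM_surjective (R := R) n p a
    show (prM R' n).app p ((mapL φ n).app p (r • a)) = φ r • (prM R' n).app p ((mapL φ n).app p a)
    rw [(mapL φ n).smul, map_smul]
  nat {p q} u a := by
    obtain ⟨a, rfl⟩ := prM_surjective (R := R) n p a
    show (prM R' n).app q ((mapL φ n).app q ((L R n).map u a)) =
      (M R' n).map u ((prM R' n).app p ((mapL φ n).app p a))
    rw [(mapL φ n).nat, (prM R' n).nat]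

theorem mapM_prM (φ : R →+* R') (n p : ℕ) (x : (L R n).obj p) :
    (mapM φ n).app p ((prM R n).app p x) = (prM R' n).app p ((mapL φ n).app p x) := rfl

theorem mapM_iota (φ : R →+* R') (n : ℕ) : (mapM φ n).app n (iotaM R n) = iotaM R' n := by
  rw [iotaM, mapM_prM, mapL_iota, iotaM]

/-- two semilinear maps out of `M n` agree if they agree on the generator -/
theorem rmap_M_ext {n : ℕ} {f g : RMap φ (M R n) B}
    (h : f.app n (iotaM R n) = g.app n (iotaM R n)) : f = g := by
  have key : f.compHom (prM R n) = g.compHom (prM R n) := rmap_L_ext h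
  apply ext
  intro p x
  obtain ⟨x, rfl⟩ := prM_surjective (R := R) n p x
  exact congrArg (fun k : RMap φ (L R n) B => k.app p x) key

/-- the classifying maps of a cocycle and of its image -/
theorem comp_ofM (f : RMap φ A B) {n : ℕ} (x : A.obj n) (hx : x ∈ A.Z n) :
    f.compHom (ofM x hx) = (homComp (ofM (f.app n x) (f.app_mem_Z hx)) (mapM φ n)) := by
  apply rmap_M_ext
  rw [compHom_app, homComp_app, mapM_iota, ofM_iota, ofM_iota]

theorem app_ofM (f : RMap φ A B) {n : ℕ} (x : A.obj n) (hx : x ∈ A.Z n) (p : ℕ)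
    (m : (M R n).obj p) : f.app p ((ofM x hx).app p m) =
      (ofM (f.app n x) (f.app_mem_Z hx)).app p ((mapM φ n).app p m) :=
  congrArg (fun k : RMap φ (M R n) B => k.app p m) (f.comp_ofM x hx)

end RMap

end Vale.Agent.P263.C
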