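import Vale.Agent.P263.S.Good
import Vale.Agent.P263.S.GoodM

/-!
# P263, block C1: the sign of the interchange of factors (helper854)

`SR n m ε` : interchanging the factors of the cross product of an `n`-cocycle and an `m`-cocycle
gives `ε` times the cross product in the other order, modulo coboundaries.  Result: `SR n n 1` for
every even `n`, over every commutative ring.
-/

noncomputable section

namespace Vale.Agent.P263.C

open Vale.Agent.P263.S TensorProduct

variable {R : Type} [CommRing R] {A B A' B' D : CosMod R}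

theorem commH_nat (f : Hom A A') (g : Hom B B') (p : ℕ) (x : (tensor A B).obj p) :
    (commH A' B').app p ((f.tens g).app p x) = (g.tens f).app p ((commH A B).app p x) := by
  have h : ((TensorProduct.comm R (A'.obj p) (B'.obj p)).toLinearMap).comp
      (TensorProduct.map (f.app p) (g.app p)) =
      (TensorProduct.map (g.app p) (f.app p)).comp
        (TensorProduct.comm R (A.obj p) (B.obj p)).toLinearMap := by
    apply TensorProduct.ext'
    intro a b
    rfl
  exact LinearMap.congr_fun h x

/-- the hexagon: the interchange of a product with a factor -/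
theorem hexagon (p : ℕ) (w : (tensor (tensor A B) D).obj p) :
    (commH (tensor A B) D).app p w =
      (assocH D A B).app p (((commH A D).tens (Hom.id B)).app p ((assocInv A D B).app p
        (((Hom.id A).tens (commH B D)).app p ((assocH A B D).app p w)))) := by
  have h : (commH (tensor A B) D).app p =
      ((assocH D A B).app p).comp ((((commH A D).tens (Hom.id B)).app p).comp
        (((assocInv A D B).app p).comp
          ((((Hom.id A).tens (commH B D)).app p).comp ((assocH A B D).app p)))) := by
    apply TensorProduct.ext_threefold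
    intro a b c
    rfl
  exact LinearMap.congr_fun h w

theorem assocH_cr {N p q r : ℕ} (h : N = p + q + r) {s t : ℕ} (hs : s = p + q) (ht : t = q + r)
    (x : A.obj p) (y : B.obj q) (z : D.obj r) :
    (assocH A B D).app N (cr N (cr s x y) z) = cr N x (cr t y z) := by
  subst hs ht
  exact cr_assoc h x y z

theorem assocInv_cr {N p q r : ℕ} (h : N = p + q + r) {s t : ℕ} (hs : s = p + q) (ht : t = q + r)
    (x : A.obj p) (y : B.obj q) (z : D.obj r) :
    (assocInv A B D).app N (cr N x (cr t y z)) = cr N (cr s x y) z := by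
  rw [← assocH_cr h hs ht, assocInv_assocH]

/-- the interchange of a cross product of an `n`-cocycle and an `m`-cocycle is `ε` times the cross
product in the other order -/
def SR (n m : ℕ) (ε : R) : Prop :=
  ∀ (A B : CosMod R) (x : A.obj n) (y : B.obj m), x ∈ A.Z n → y ∈ B.Z m → ∀ N, N = n + m →
    (commH A B).app N (cr N x y) - ε • cr N y x ∈ (tensor B A).Bd N

/-- the cocycles `iotaM` are good -/
abbrev GoodM (R : Type) [CommRing R] : Prop := ∀ n, Good (M R n) n (iotaM R n)

theorem goodM (R : Type) [CommRing R] : GoodM R := good_M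

/-- it is enough to look at the universal cocycles -/
theorem SR.of_univ {n m : ℕ} {ε : R}
    (h : (commH (M R n) (M R m)).app (n + m) (cr (n + m) (iotaM R n) (iotaM R m)) -
      ε • cr (n + m) (iotaM R m) (iotaM R n) ∈ (tensor (M R m) (M R n)).Bd (n + m)) :
    SR n m ε := by
  intro A B x y hx hy N hN
  subst hN
  have := ((ofM y hy).tens (ofM x hx)).app_mem_Bd h
  rw [map_sub, map_smul, cr_nat, ← commH_nat, cr_nat, ofM_iota, ofM_iota] at this
  exact this

theorem GoodM.inj2 (U : GoodM R) (n m N : ℕ) (h : N = n + m) (r : R)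
    (hr : r • cr N (iotaM R n) (iotaM R m) ∈ (tensor (M R n) (M R m)).Bd N) : r = 0 := by
  subst h
  exact ((U n).tens (U m)).H_inj hr

theorem GoodM.inj3 (U : GoodM R) (n m k s N : ℕ) (hs : s = m + k) (hN : N = n + s) (r : R)
    (hr : r • cr N (iotaM R n) (cr s (iotaM R m) (iotaM R k)) ∈
      (tensor (M R n) (tensor (M R m) (M R k))).Bd N) : r = 0 := by
  subst hs hN
  exact ((U n).tens ((U m).tens (U k))).H_inj hr

theorem SR.exists (U : GoodM R) (n m : ℕ) : ∃ ε : R, SR n m ε := by
  have hz := (commH (M R n) (M R m)).app_mem_Z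
    (cr_mem_Z (N := m + n) (add_comm m n) (iotaM_mem_Z R n) (iotaM_mem_Z R m))
  obtain ⟨r, hr⟩ := ((U m).tens (U n)).H_gen hz
  rw [add_comm m n] at hr
  exact ⟨r, SR.of_univ hr⟩

theorem SR.mul_eq_one (U : GoodM R) {n m : ℕ} {ε ε' : R} (h : SR n m ε) (h' : SR m n ε') :
    ε * ε' = 1 := by
  have h1 := h _ _ _ _ (iotaM_mem_Z R n) (iotaM_mem_Z R m) (n + m) rfl
  have h2 := h' _ _ _ _ (iotaM_mem_Z R m) (iotaM_mem_Z R n) (n + m) (add_comm _ _)
  have h3 := (commH (M R m) (M R n)).app_mem_Bd h1
  rw [map_sub, map_smul, commH_commH] at h3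
  have h4 := Submodule.add_mem _ h3 (Submodule.smul_mem _ ε h2)
  rw [smul_sub, sub_add_sub_cancel, smul_smul, ← one_smul R (cr (n + m) (iotaM R n) (iotaM R m)),
    smul_smul, ← sub_smul, mul_one] at h4
  exact (sub_eq_zero.1 (U.inj2 n m (n + m) rfl _ h4)).symm

theorem SR.add_left (U : GoodM R) {n n' m : ℕ} {ε ε' ε'' : R} (h : SR n m ε) (h' : SR n' m ε')
    (h'' : SR (n + n') m ε'') : ε'' = ε' * ε := by
  set x := iotaM R n with hx
  set x' := iotaM R n' with hx'
  set y := iotaM R m with hy
  have zx : x ∈ (M R n).Z n := iotaM_mem_Z R n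
  have zx' : x' ∈ (M R n').Z n' := iotaM_mem_Z R n'
  have zy : y ∈ (M R m).Z m := iotaM_mem_Z R m
  set N := n + n' + m with hN
  -- the interchange of the product
  have h1 := h'' _ _ _ _ (cr_mem_Z (N := n + n') rfl zx zx') zy N rfl
  rw [hexagon, assocH_cr (s := n + n') (t := n' + m) hN rfl rfl] at h1
  rw [cr_nat] at h1
  change (assocH (M R m) (M R n) (M R n')).app N
    (((commH (M R n) (M R m)).tens (Hom.id (M R n'))).app N
      ((assocInv (M R n) (M R m) (M R n')).app N
        (cr N x ((commH (M R n') (M R m)).app (n' + m) (cr (n' + m) x' y))))) -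
      ε'' • cr N y (cr (n + n') x x') ∈ _ at h1
  -- first interchange
  have h2 := cr_mem_Bd_right (K := M R n) (N := N) (n := n) (m := n' + m) (by omega) zx
    (h' _ _ _ _ zx' zy (n' + m) rfl)
  rw [cr_sub_right, cr_smul_right] at h2
  have h3 := (assocH (M R m) (M R n) (M R n')).app_mem_Bd
    (((commH (M R n) (M R m)).tens (Hom.id (M R n'))).app_mem_Bd
      ((assocInv (M R n) (M R m) (M R n')).app_mem_Bd h2))
  rw [map_sub, map_sub, map_sub, map_smul, map_smul, map_smul,
    assocInv_cr (s := n + m) (t := n' + m) (by omega) rfl (by omega), cr_nat] at h3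
  change _ - ε' • (assocH (M R m) (M R n) (M R n')).app N
    (cr N ((commH (M R n) (M R m)).app (n + m) (cr (n + m) x y)) x') ∈ _ at h3
  -- second interchange
  have h4 := cr_mem_Bd_left (B := M R n') (N := N) (n := n + m) (m := n') (by omega)
    (h _ _ _ _ zx zy (n + m) rfl) zx'
  rw [cr_sub_left, cr_smul_left] at h4
  have h5 := (assocH (M R m) (M R n) (M R n')).app_mem_Bd h4
  rw [map_sub, map_smul, assocH_cr (s := n + m) (t := n + n') (by omega) (by omega) rfl] at h5
  -- sum
  have h6 := Submodule.sub_mem _ (Submodule.add_mem _ h3 (Submodule.smul_mem _ ε' h5)) h1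
  have e : ∀ (a b d : (tensor (M R m) (tensor (M R n) (M R n'))).obj N),
      a - ε' • b + ε' • (b - ε • d) - (a - ε'' • d) = (ε'' - ε' * ε) • d := by
    intro a b d
    rw [sub_smul, smul_sub, smul_smul]
    abel
  rw [e] at h6
  exact sub_eq_zero.1 (U.inj3 m n n' (n + n') N rfl (by omega) _ h6)

/-- **The interchange has no sign in even degrees.** -/
theorem SR.even' (U : GoodM R) (l : ℕ) : SR (l + l) (l + l) (1 : R) := by
  obtain ⟨ε, h⟩ := SR.exists U l l
  have h1 : ε * ε = 1 := h.mul_eq_one U h
  obtain ⟨ε1, k1⟩ := SR.exists U (l + l) l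
  have h2 : ε1 = 1 := by rw [h.add_left U h k1, h1]
  obtain ⟨ε2, k2⟩ := SR.exists U l (l + l)
  have h3 : ε2 = 1 := by
    have := k1.mul_eq_one U k2
    rwa [h2, one_mul] at this
  obtain ⟨ε3, k3⟩ := SR.exists U (l + l) (l + l)
  have h4 : ε3 = 1 := by rw [k2.add_left U k2 k3, h3, one_mul]
  rwa [h4] at k3

/-- **The interchange has no sign in even degrees.** -/
theorem SR.even (U : GoodM R) {n : ℕ} (hn : Even n) : SR n n (1 : R) := by
  obtain ⟨l, rfl⟩ := hn
  exact SR.even' U l

/-- the class `ι × ι` is invariant under the interchange in even degrees, over every ring -/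
theorem comm_iota_even (U : GoodM R) {n : ℕ} (hn : Even n) :
    (commH (M R n) (M R n)).app (n + n) (cr (n + n) (iotaM R n) (iotaM R n)) -
      cr (n + n) (iotaM R n) (iotaM R n) ∈ (tensor (M R n) (M R n)).Bd (n + n) := by
  have := SR.even U hn _ _ _ _ (iotaM_mem_Z R n) (iotaM_mem_Z R n) (n + n) rfl
  rwa [one_smul] at this

/-- the class `ι × ι` is invariant under the interchange in even degrees, over every ring
(unconditional form) -/
theorem comm_iota (R : Type) [CommRing R] {n : ℕ} (hn : Even n) :
    (commH (M R n) (M R n)).app (n + n) (cr (n + n) (iotaM R n) (iotaM R n)) -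
      cr (n + n) (iotaM R n) (iotaM R n) ∈ (tensor (M R n) (M R n)).Bd (n + n) :=
  comm_iota_even (goodM R) hn

/-- interchange of two cocycles of the same even degree -/
theorem comm_even {n N : ℕ} (hn : Even n) (hN : N = n + n) {x : A.obj n} {y : B.obj n}
    (hx : x ∈ A.Z n) (hy : y ∈ B.Z n) :
    (commH A B).app N (cr N x y) - cr N y x ∈ (tensor B A).Bd N := by
  have := SR.even (goodM R) hn _ _ _ _ hx hy N hN
  rwa [one_smul] at this

end Vale.Agent.P263.C
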