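import Vale.Agent.P263.C.RMap
import Vale.Agent.P263.C.Sign
import Vale.Agent.P263.S.LCP

/-!
# P263, block C1: change of coefficients and the universal class (helper854)
-/

noncomputable section

namespace Vale.Agent.P263.C

open Vale.Agent.P263.S TensorProduct

variable {R : Type} [CommRing R] {R' : Type} [CommRing R'] {φ : R →+* R'}

namespace RMap

theorem tens_cr {A₁ A₂ : CosMod R} {B₁ B₂ : CosMod R'} (f : RMap φ A₁ B₁) (g : RMap φ A₂ B₂)
    (N : ℕ) {p q : ℕ} (x : A₁.obj p) (y : A₂.obj q) :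
    (f.tens g).app N (cr N x y) = cr N (f.app p x) (g.app q y) := by
  show (f.tens g).app N (A₁.map (fr p N) x ⊗ₜ[R] A₂.map (bk q N) y :
    A₁.obj N ⊗[R] A₂.obj N) = _
  rw [tens_tmul, f.nat, g.nat]
  rfl

theorem app_sub (A : CosMod R) (B : CosMod R') (f : RMap φ A B) (p : ℕ) (x y : A.obj p) :
    f.app p (x - y) = f.app p x - f.app p y := map_sub _ _ _

/-- two maps out of a levelwise tensor product agree if they agree on pure tensors -/
theorem ext_tens {A₁ A₂ : CosMod R} {B : CosMod R'} {f g : RMap φ (tensor A₁ A₂) B}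
    (h : ∀ p (x : A₁.obj p) (y : A₂.obj p), f.app p (x ⊗ₜ[R] y : A₁.obj p ⊗[R] A₂.obj p) =
      g.app p (x ⊗ₜ[R] y : A₁.obj p ⊗[R] A₂.obj p)) : f = g := by
  apply ext
  intro p t
  exact tens_addHom_ext (R := R) (X := A₁.obj p) (Y := A₂.obj p) (f := f.app p) (g := g.app p)
    (h p) t

/-- the interchange of factors commutes with the change of coefficients -/
theorem tens_comm {A₁ A₂ : CosMod R} {B₁ B₂ : CosMod R'} (f : RMap φ A₁ B₁) (g : RMap φ A₂ B₂)
    (p : ℕ) (t : (tensor A₁ A₂).obj p) :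
    (g.tens f).app p ((commH A₁ A₂).app p t) = (commH B₁ B₂).app p ((f.tens g).app p t) := by
  have : (g.tens f).compHom (commH A₁ A₂) = homComp (commH B₁ B₂) (f.tens g) := by
    apply ext_tens
    intro p x y
    rfl
  exact congrArg (fun k : RMap φ (tensor A₁ A₂) (tensor B₂ B₁) => k.app p t) this

end RMap

/-- **Change of coefficients of the universal class**: a cocycle of `hG (M n ⊗ M n)` over `R`
which restricts to `ι × ι` is mapped to one over `R'` which restricts to `ι × ι`, and these are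
unique up to coboundaries. -/
theorem red_univ (φ : R →+* R') {G : Type} [Group G] {n N : ℕ} (hN : N = n + n)
    (a : Act G (tensor (M R n) (M R n))) (a' : Act G (tensor (M R' n) (M R' n)))
    (haa : ∀ p (g : G) (x : (tensor (M R n) (M R n)).obj p),
      ((RMap.mapM φ n).tens (RMap.mapM φ n)).app p (a.act p g x) =
        a'.act p g (((RMap.mapM φ n).tens (RMap.mapM φ n)).app p x))
    {f : (hG a).obj N} (hf : f ∈ (hG a).Z N)
    (hr : (hG.res a).app N f - cr N (iotaM R n) (iotaM R n) ∈ (tensor (M R n) (M R n)).Bd N)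
    {f' : (hG a').obj N} (hf' : f' ∈ (hG a').Z N)
    (hr' : (hG.res a').app N f' - cr N (iotaM R' n) (iotaM R' n) ∈
      (tensor (M R' n) (M R' n)).Bd N) :
    (((RMap.mapM φ n).tens (RMap.mapM φ n)).hGmap a a' haa).app N f - f' ∈ (hG a').Bd N := by
  subst hN
  refine hG_mem_Bd (n + n) _ a' (fun i hi => ((good_M n).tens (good_M n)).H_low hi) _
    (Submodule.sub_mem _ (RMap.app_mem_Z _ hf) hf') ?_
  rw [map_sub]
  have h1 := ((RMap.mapM φ n).tens (RMap.mapM φ n)).app_mem_Bd hr
  rw [RMap.app_sub, RMap.tens_cr, RMap.mapM_iota] at h1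
  have h2 := Submodule.sub_mem _ h1 hr'
  rw [sub_sub_sub_cancel_right] at h2
  exact h2

end Vale.Agent.P263.C
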