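import Vale.Agent.P263.TI.Lift0

/-!
# P263, block C7 (helper197): lifts of the Dickson algebra inside a family of subgroups

The variant of `TI.exists_lift` with values in a family of subgroups of the cohomology of the tower
which contains the unit class and is closed under the operations `up j` (that is `u^j P(-)`).
-/

namespace Vale.Agent.P263.C

open Polynomial Vale.Agent.P263.LZ Vale.Agent.P263.EX Vale.Agent.P263.EX.GE Vale.Agent.P263.TI

/-- a family of subgroups of the cohomology of the tower, closed under `up j` -/
structure SubTower (T : Tower) where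
  /-- the subgroups -/
  S : ∀ n q, AddSubgroup (T.H n q)
  one_mem : T.one ∈ S 0 0
  up_mem : ∀ (n j q q' : ℕ) (h : j + 2 * q = q') (y : T.H n q), y ∈ S n q →
    T.up n j q q' h y ∈ S (n + 1) q'

/-- Every homogeneous element of `D n` is the restriction of a class of the subfamily. -/
theorem SubTower.exists_lift {T : Tower} (X : SubTower T) :
    ∀ (n q : ℕ) (G : D n), Hom n q G → ∃ U ∈ X.S n q, T.r n q U = io n G := by
  intro n
  induction n with
  | zero =>
    intro q G hG
    rcases Nat.eq_zero_or_pos q with h | h
    · subst h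
      rcases Hom.const (by simpa using hG) with h0 | h1
      · exact ⟨0, zero_mem _, by rw [h0, map_zero, map_zero]⟩
      · exact ⟨T.one, X.one_mem, by rw [h1, map_one, T.r_one]⟩
    · exact ⟨0, zero_mem _, by rw [hom_zero_pos (by omega) hG, map_zero, map_zero]⟩
  | succ n ih =>
    intro K G hG
    have hex : ∀ a ∈ Finset.range (K + 1), ∃ W ∈ X.S (n + 1) K,
        T.r (n + 1) K W = MvPolynomial.X 0 ^ a * St n (io n (zc n a G)) := by
      intro a ha
      have ha' : a ≤ K := by have := Finset.mem_range.mp ha; omega
      by_cases hpar : (K - a) % 2 = 0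
      · obtain ⟨j, hj⟩ : ∃ j, a + 2 * j = K := ⟨(K - a) / 2, by omega⟩
        have hz : Hom n (j : ℤ) (zc n a G) := hom_zc hG (by rw [← hj]; push_cast; ring)
        obtain ⟨U, hUS, hU⟩ := ih j _ hz
        exact ⟨T.up n a j K hj U, X.up_mem n a j K hj U hUS, by rw [T.r_up, hU]⟩
      · refine ⟨0, zero_mem _, ?_⟩
        have hz : zc n a G = 0 := zc_odd hG (fun j hj => by omega)
        rw [hz, map_zero, map_zero, map_zero, mul_zero]
    choose! W hWS hW using hex
    refine ⟨∑ a ∈ Finset.range (K + 1), W a, AddSubgroup.sum_mem _ hWS, ?_⟩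
    rw [map_sum, io_sum hG]
    exact Finset.sum_congr rfl hW

end Vale.Agent.P263.C
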