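import Vale.Agent.P263.C.SqBW
import Vale.Agent.P263.C.UEq
import Vale.Agent.P263.S.TrCup
import Vale.Agent.P263.S.D2Det
import Vale.Agent.P263.E.KunFin

/-!
# P263, block C7 (helper197): every square on `BW pt n` is a reduction

* `tr_sq_cross` : `(tr (x × x'))² = tr (x² × x'²)` in the cohomology of `D2 Z`;
* `SqG_tr_cross` : `tr (x × x') ∈ SqG φ (D2 Z)` for `x, x'` with liftable squares;
* `SqG_D2_top` : if every class of `Z` has a liftable square, so has every class of `D2 Z`;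
* `SqG_BW_top` : every class of `BW pt n` has a liftable square.
-/

noncomputable section

namespace Vale.Agent.P263.C

open Vale.Agent.P263.S Vale.Agent.P263.E Vale.Agent.P263.E.SS

variable {R : Type} [CommRing R] {φ : R →+* ZMod 2}

/-! ### cross products -/

/-- the cross product is the product of the pull-backs -/
theorem muF_cupH_pull (R : Type) [CommRing R] (Z Z' : SS) {m n N : ℕ} (h : N = m + n)
    (x : (SS.F R Z).H m) (y : (SS.F R Z').H n) :
    (muF R Z Z').cupH h x y = (mulF R (Z.prod Z')).cupH h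
      (((SS.fst Z Z').pull (R := R)).mapH m x) (((SS.snd Z Z').pull (R := R)).mapH n y) := by
  have e := Bil.cupH_nat (muF R Z Z') (mulF R (Z.prod Z')) ((SS.fst Z Z').pull (R := R))
    ((SS.snd Z Z').pull (R := R)) (Hom.id _) (fun _ _ _ => rfl) h x y
  rw [Hom.mapH_id] at e
  exact e

theorem mulF_assoc (R : Type) [CommRing R] (X : SS) (p : ℕ) (a b c : (SS.F R X).obj p) :
    (mulF R X).app p ((mulF R X).app p a b) c = (mulF R X).app p a ((mulF R X).app p b c) := by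
  funext x
  exact mul_assoc _ _ _

/-- product of cross products -/
theorem cross_mul (Z : SS) {p q r s pq rs pr qs N : ℕ} (h1 : pq = p + q) (h2 : rs = r + s)
    (h3 : pr = p + r) (h4 : qs = q + s) (h : N = pq + rs) (h' : N = pr + qs)
    (x : (SS.F (ZMod 2) Z).H p) (y : (SS.F (ZMod 2) Z).H q) (z : (SS.F (ZMod 2) Z).H r)
    (w : (SS.F (ZMod 2) Z).H s) :
    (mulF (ZMod 2) (Z.prod Z)).cupH h ((muF (ZMod 2) Z Z).cupH h1 x y)
        ((muF (ZMod 2) Z Z).cupH h2 z w) =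
      (muF (ZMod 2) Z Z).cupH h' ((mulF (ZMod 2) Z).cupH h3 x z)
        ((mulF (ZMod 2) Z).cupH h4 y w) := by
  rw [muF_cupH_pull, muF_cupH_pull, muF_cupH_pull,
    cupH_mid4 (mulF (ZMod 2) (Z.prod Z)) (mulF_comm (ZMod 2) (Z.prod Z))
      (mulF_assoc (ZMod 2) (Z.prod Z)) h1 h2 h3 h4 h h']
  congr 1
  · congr 1
    exact (Bil.cupH_nat (mulF (ZMod 2) Z) (mulF (ZMod 2) (Z.prod Z))
      ((SS.fst Z Z).pull (R := ZMod 2)) ((SS.fst Z Z).pull (R := ZMod 2))
      ((SS.fst Z Z).pull (R := ZMod 2)) (fun _ _ _ => rfl) h3 x z).symm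
  · exact (Bil.cupH_nat (mulF (ZMod 2) Z) (mulF (ZMod 2) (Z.prod Z))
      ((SS.snd Z Z).pull (R := ZMod 2)) ((SS.snd Z Z).pull (R := ZMod 2))
      ((SS.snd Z Z).pull (R := ZMod 2)) (fun _ _ _ => rfl) h4 y w).symm

/-- `(tr (x × x'))² = tr (x² × x'²)` -/
theorem tr_sq_cross (Z : SS) {m n N M : ℕ} (h : N = m + n) (hM : M = N + N)
    (h' : M = (m + m) + (n + n)) (x : (SS.F (ZMod 2) Z).H m) (x' : (SS.F (ZMod 2) Z).H n) :
    (nuF (ZMod 2) Z).cupH hM
        ((hG.tr (swapF (ZMod 2) Z)).mapH N ((muF (ZMod 2) Z Z).cupH h x x'))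
        ((hG.tr (swapF (ZMod 2) Z)).mapH N ((muF (ZMod 2) Z Z).cupH h x x')) =
      (hG.tr (swapF (ZMod 2) Z)).mapH M ((muF (ZMod 2) Z Z).cupH h'
        ((mulF (ZMod 2) Z).cupH rfl x x) ((mulF (ZMod 2) Z).cupH rfl x' x')) := by
  have hs : ((swapF (ZMod 2) Z).hom tC).mapH N ((muF (ZMod 2) Z Z).cupH h x x') =
      (muF (ZMod 2) Z Z).cupH (by omega : N = n + m) x' x :=
    (sym_muF (ZMod 2) Z).mapH_cupH h (by omega) x x'
  have h2 : (muF (ZMod 2) Z Z).cupH hM ((mulF (ZMod 2) Z).cupH h x x')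
      ((mulF (ZMod 2) Z).cupH (by omega : N = n + m) x' x) =
      (hG.res (swapF (ZMod 2) Z)).mapH M
        (uP (muF (ZMod 2) Z Z) (swapF (ZMod 2) Z) (sym_muF (ZMod 2) Z) 0 N M (by omega)
          ((mulF (ZMod 2) Z).cupH h x x')) := by
    rw [res_uP_zero _ _ _ N M (by omega) hM,
      cupH_comm_self (mulF (ZMod 2) Z) (mulF_comm (ZMod 2) Z) h (by omega : N = n + m) x x']
  rw [tr_cupH, res_tr_mapH, hs, map_add, map_add, cross_mul Z h h rfl rfl hM h',
    cross_mul Z h (by omega : N = n + m) h (by omega : N = n + m) hM hM, h2, tr_res_mapH,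
    add_zero]

/-- the transfer commutes with the change of coefficients -/
theorem chgHG_tr (φ : R →+* ZMod 2) (Z : SS) (n : ℕ) (y : (SS.F R (Z.prod Z)).H n) :
    (chgHG φ Z).mapH n ((hG.tr (swapF R Z)).mapH n y) =
      (hG.tr (swapF (ZMod 2) Z)).mapH n ((chgF φ (Z.prod Z)).mapH n y) := by
  obtain ⟨y, rfl⟩ := (SS.F R (Z.prod Z)).cls_surjective n y
  rw [Hom.mapH_cls, RMap.mapH_cls, RMap.mapH_cls, Hom.mapH_cls]
  refine congrArg _ (Subtype.ext (hG.ext fun s => ?_))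
  show (chgF φ (Z.prod Z)).app n (∑ g : C2, (swapF R Z).act n g _) =
    ∑ g : C2, (swapF (ZMod 2) Z).act n g _
  rw [map_sum]
  exact Finset.sum_congr rfl fun g _ => chgF_swap φ Z n g _

theorem liftSq_tr_cross {Z : SS} {m n N : ℕ} (h : N = m + n) {x : (SS.F (ZMod 2) Z).H m}
    {x' : (SS.F (ZMod 2) Z).H n} (hx : x ∈ SqG φ Z m) (hx' : x' ∈ SqG φ Z n) :
    (chgHG φ Z).LiftSq (nuF (ZMod 2) Z)
      ((hG.tr (swapF (ZMod 2) Z)).mapH N ((muF (ZMod 2) Z Z).cupH h x x')) := by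
  refine RMap.liftSq_of (N := N + N) rfl ?_
  rw [tr_sq_cross Z h rfl (by omega)]
  obtain ⟨c, hc⟩ := hx (m + m) rfl
  obtain ⟨c', hc'⟩ := hx' (n + n) rfl
  refine ⟨(hG.tr (swapF R Z)).mapH (N + N) ((muF R Z Z).cupH (by omega) c c'), ?_⟩
  rw [chgHG_tr, RMap.cupH (muF R Z Z) (muF (ZMod 2) Z Z) (chgF φ Z) (chgF φ Z)
    (chgF φ (Z.prod Z)) (fun p a b => chgF_muF φ Z Z p a b), hc, hc']

/-- from the homotopy fixed points to `D2 Z` -/
theorem SqG.ofHG {Z : SS} {n : ℕ} {x : (hG (swapF (ZMod 2) Z)).H n}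
    (hx : (chgHG φ Z).LiftSq (nuF (ZMod 2) Z) x) :
    (SS.ofHG Z).mapH n x ∈ SqG φ (D2 Z) n :=
  RMap.LiftSq.map (ρ := chgHG φ Z) (ρ' := chgF φ (D2 Z)) hx (SS.ofHG Z) (SS.ofHG Z)
    (fun p a => chgF_ofHG φ Z p a) (fun p a b => ofHG_mul (ZMod 2) Z p a b)

/-- transfers of cross products -/
theorem SqG_tr_cross {Z : SS} {m n N : ℕ} (h : N = m + n) {x : (SS.F (ZMod 2) Z).H m}
    {x' : (SS.F (ZMod 2) Z).H n} (hx : x ∈ SqG φ Z m) (hx' : x' ∈ SqG φ Z n) :
    (SS.ofHG Z).mapH N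
      ((hG.tr (swapF (ZMod 2) Z)).mapH N ((muF (ZMod 2) Z Z).cupH h x x')) ∈ SqG φ (D2 Z) N :=
  SqG.ofHG (liftSq_tr_cross h hx hx')

/-- the classes `u^j P(x)` -/
theorem liftSq_uP {Z : SS} {j q d : ℕ} (e : j + 2 * q = d) {x : (SS.F (ZMod 2) Z).H q}
    (hx : x ∈ SqG φ Z q) : (chgHG φ Z).LiftSq (nuF (ZMod 2) Z)
      (uP (muF (ZMod 2) Z Z) (swapF (ZMod 2) Z) (sym_muF (ZMod 2) Z) j q d e x) := by
  induction j generalizing d with
  | zero =>
    obtain rfl : d = q + q := by omega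
    have h1 := RMap.LiftSq.map (ρ := chgF φ (D2 Z)) (ρ' := chgHG φ Z)
      (μ := mulF (ZMod 2) (D2 Z)) (μ' := nuF (ZMod 2) Z) (SqG.P hx)
      (toHG Z) (toHG Z) (fun p a => chgF_toHG φ Z p a) (fun p a b => toHG_mul (ZMod 2) Z p a b)
    have h2 : (toHG Z).mapH (q + q) (PF (ZMod 2) Z x) =
        P (muF (ZMod 2) Z Z) (swapF (ZMod 2) Z) (sym_muF (ZMod 2) Z) x :=
      C.mapH_toHG_ofHG Z (q + q) _
    rw [h2] at h1
    exact h1
  | succ j ih =>
    obtain ⟨d, rfl⟩ : ∃ d', d = d' + 1 := ⟨j + 2 * q, by omega⟩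
    rw [uP_succ _ _ _ j q d (by omega) e, uH_eq]
    exact RMap.LiftSq.uH
      (fun p f => RMap.hGmap_uc (chgF φ (Z.prod Z)) (chgF_swap φ Z) p f)
      (fun _ _ _ _ => rfl) (ih (by omega))

/-- **Every class of `D2 Z` has a liftable square** if this is so for `Z`. -/
theorem SqG_D2_top {Z : SS} (K : KunB (muF (ZMod 2) Z Z)) (hZ : ∀ q, SqG φ Z q = ⊤) (d : ℕ) :
    SqG φ (D2 Z) d = ⊤ := by
  rw [eq_top_iff]
  intro w _
  rw [← C.mapH_ofHG_toHG Z d w]
  apply SqG.ofHG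
  -- transfers
  have htr : ∀ y : (SS.F (ZMod 2) (Z.prod Z)).H d,
      (hG.tr (swapF (ZMod 2) Z)).mapH d y ∈
        (chgHG φ Z).sqGroup (nuF (ZMod 2) Z)
          (fun p a b => hG.ext fun s => mulF_comm (ZMod 2) (Z.prod Z) p _ _) d := by
    intro y
    have hy : y ∈ Submodule.span (ZMod 2) (Set.range (K.b d)) := by
      rw [(K.b d).span_eq]
      trivial
    induction hy using Submodule.span_induction with
    | mem y hy =>
      obtain ⟨s, rfl⟩ := hy
      rw [K.hb]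
      exact liftSq_tr_cross s.2 (by rw [hZ]; trivial) (by rw [hZ]; trivial)
    | zero => rw [map_zero]; exact zero_mem _
    | add a b _ _ ha hb => rw [map_add]; exact add_mem ha hb
    | smul r a _ ha =>
      rw [map_smul]
      have hr : ∀ r : ZMod 2, r = 0 ∨ r = 1 := by decide
      rcases hr r with rfl | rfl
      · rw [zero_smul]
        exact zero_mem _
      · rw [one_smul]
        exact ha
  obtain ⟨y, x, hx⟩ := nak_span (sym_muF (ZMod 2) Z) K d ((toHG Z).mapH d w)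
  have e : (toHG Z).mapH d w = (hG.tr (swapF (ZMod 2) Z)).mapH d y +
      ∑ i : Fin (d / 2 + 1), uP (muF (ZMod 2) Z Z) (swapF (ZMod 2) Z) (sym_muF (ZMod 2) Z)
        (d - 2 * i) i d (by have := i.2; omega) (x i) := by
    rw [← hx]; abel
  rw [e]
  refine add_mem (htr y) (sum_mem fun i _ => ?_)
  exact liftSq_uP _ (by rw [hZ]; trivial)

/-! ### the point -/

theorem d_pt (p : ℕ) (c : (SS.F (ZMod 2) SS.pt).obj p) (x : SS.pt.obj (p + 1)) :
    (SS.F (ZMod 2) SS.pt).d p c x = ((p + 2 : ℕ) : ZMod 2) * c () := by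
  refine (SS.F_d (X := SS.pt) (R := ZMod 2) (p := p) c x).trans ?_
  have e : ∀ i ∈ Finset.range (p + 2), sn i (c (SS.pt.map (dl p i) x)) = c () := by
    intro i _
    show sn i (c ()) = c ()
    rw [sn]
    rcases Nat.even_or_odd i with hi | hi
    · rw [hi.neg_one_pow, one_smul]
    · rw [hi.neg_one_pow, neg_smul, one_smul]
      exact ZModModule.neg_eq_self _
  rw [Finset.sum_congr rfl e, Finset.sum_const, Finset.card_range, nsmul_eq_mul]

theorem SqG_pt_top (q : ℕ) : SqG φ SS.pt q = ⊤ := by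
  rw [eq_top_iff]
  intro x _
  obtain ⟨x, rfl⟩ := (SS.F (ZMod 2) SS.pt).cls_surjective q x
  cases q with
  | zero =>
    have hc : ∀ r : ZMod 2, r = 0 ∨ r = 1 := by decide
    rcases hc ((x : (SS.F (ZMod 2) SS.pt).obj 0) ()) with h | h
    · have : x = 0 := Subtype.ext (funext fun u => h)
      rw [this, map_zero]
      exact zero_mem _
    · have : x = oneF (ZMod 2) SS.pt := Subtype.ext (funext fun u => h)
      rw [this]
      exact SqG.one _
  | succ q =>
    have h0 : (SS.F (ZMod 2) SS.pt).cls (q + 1) x = 0 := by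
      rw [CosMod.cls_eq_zero_iff]
      obtain ⟨x, hx⟩ := x
      show x ∈ (SS.F (ZMod 2) SS.pt).Bd (q + 1)
      rcases Nat.even_or_odd q with hq | hq
      · -- `q + 1` odd: `d` is injective
        have h2 : (SS.F (ZMod 2) SS.pt).d (q + 1) x () = 0 :=
          congrFun (CosMod.mem_Z.1 hx) ()
        have h3 := (d_pt (q + 1) x ()).symm.trans h2
        rw [(ZMod.natCast_eq_one_iff_odd).2 (by
          obtain ⟨k, hk⟩ := hq
          exact ⟨k + 1, by omega⟩), one_mul] at h3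
        have h4 : x = 0 := funext fun u => h3
        rw [h4]
        exact zero_mem _
      · refine ⟨(fun _ => x () : SS.pt.obj q → ZMod 2), funext fun u => ?_⟩
        refine (d_pt q (fun _ => x () : SS.pt.obj q → ZMod 2) u).trans ?_
        rw [(ZMod.natCast_eq_one_iff_odd).2 (by
          obtain ⟨k, hk⟩ := hq
          exact ⟨k + 1, by omega⟩), one_mul]
        rfl
    rw [h0]
    exact zero_mem _

/-- the classes `u^j P(x)` of `D2 Z` -/
theorem SqG_upZ {Z : SS} {j q d : ℕ} (e : j + 2 * q = d) {x : (SS.F (ZMod 2) Z).H q}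
    (hx : x ∈ SqG φ Z q) : upZ Z j q d e x ∈ SqG φ (D2 Z) d :=
  SqG.ofHG (liftSq_uP e hx)

/-- **Every class of `BW pt n` has a liftable square**, for every `φ : R → F₂`. -/
theorem SqG_BW_top (n q : ℕ) : SqG φ (SS.BW SS.pt n) q = ⊤ := by
  induction n generalizing q with
  | zero => exact SqG_pt_top q
  | succ n ih => exact SqG_D2_top (kunF (SS.BW SS.pt n)) ih q

/-- the form with cocycles: the square of every cocycle of `BW pt n` is the reduction of a cocycle,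
up to a coboundary -/
theorem exists_lift_sq_BW (φ : R →+* ZMod 2) (n : ℕ) {q N : ℕ} (hN : N = q + q)
    (y : (SS.F (ZMod 2) (SS.BW SS.pt n)).Z q) : ∃ c ∈ (SS.F R (SS.BW SS.pt n)).Z N,
      chg φ c - (mulF (ZMod 2) (SS.BW SS.pt n)).cup N y.1 y.1 ∈
        (SS.F (ZMod 2) (SS.BW SS.pt n)).Bd N :=
  SqG.exists_cocycle hN (by rw [SqG_BW_top]; trivial)

end Vale.Agent.P263.C
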