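import Vale.Agent.P263.S.Comm
import Vale.Agent.P263.S.GoodM
import Vale.Agent.P263.S.Pow
import Vale.Agent.P263.C.BockH
import Vale.Agent.P263.C.RMap

/-!
# P263, block C7 (helper197): classes whose square is a reduction

`ρ : RMap φ A B` a reduction (`A` over any ring `R`, `B` over `F₂`).
`LiftSq ρ μ x` : the square `x ∪ x` (product `μ`) is the reduction of a class of `A`.

The set of these classes is closed under sums (commutativity of the product over `F₂`), under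
multiplicative maps, under multiplication by `u` on homotopy fixed points of `C₂`, and contains
`P(x)` as soon as `P(x) ∪ P(x) = P(x ∪ x)` and `P` of a reduction is a reduction.
-/

noncomputable section

namespace Vale.Agent.P263.C

open Vale.Agent.P263.S

variable {R : Type} [CommRing R] {φ : R →+* ZMod 2}

theorem bil_ext {S : Type} [CommRing S] {A B C : CosMod S} {μ ν : Bil A B C}
    (h : ∀ p a b, μ.app p a b = ν.app p a b) : μ = ν := by
  have e : μ.app = ν.app := funext fun p => LinearMap.ext fun a => LinearMap.ext fun b => h p a b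
  obtain ⟨m, hm⟩ := μ
  obtain ⟨m', hm'⟩ := ν
  obtain rfl : m = m' := e
  rfl

namespace RMap

variable {A A' : CosMod R} {B B' : CosMod (ZMod 2)}

/-- a class is liftable if it is the reduction of a class -/
def Lift (ρ : RMap φ A B) {n : ℕ} (x : B.H n) : Prop := ∃ c : A.H n, ρ.mapH n c = x

variable {ρ : RMap φ A B} {ρ' : RMap φ A' B'}

theorem Lift.add {n : ℕ} {x y : B.H n} (hx : ρ.Lift x) (hy : ρ.Lift y) : ρ.Lift (x + y) := by
  obtain ⟨c, rfl⟩ := hx
  obtain ⟨e, rfl⟩ := hy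
  exact ⟨c + e, map_add _ _ _⟩

theorem Lift.zero {n : ℕ} : ρ.Lift (0 : B.H n) := ⟨0, map_zero _⟩

/-- naturality -/
theorem Lift.map {n : ℕ} {x : B.H n} (hx : ρ.Lift x) (f : Hom A A') (g : Hom B B')
    (comm : ∀ p a, ρ'.app p (f.app p a) = g.app p (ρ.app p a)) : ρ'.Lift (g.mapH n x) := by
  obtain ⟨c, rfl⟩ := hx
  refine ⟨f.mapH n c, ?_⟩
  obtain ⟨c, rfl⟩ := A.cls_surjective n c
  rw [Hom.mapH_cls, mapH_cls, mapH_cls, Hom.mapH_cls]
  exact congrArg _ (Subtype.ext (comm n c.1))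

/-- the form with cocycles -/
theorem Lift.exists_cocycle {n : ℕ} {x : B.Z n} (hx : ρ.Lift (B.cls n x)) :
    ∃ c ∈ A.Z n, ρ.app n c - x ∈ B.Bd n := by
  obtain ⟨c, hc⟩ := hx
  obtain ⟨c, rfl⟩ := A.cls_surjective n c
  refine ⟨c.1, c.2, ?_⟩
  rw [mapH_cls, CosMod.cls_eq_iff] at hc
  exact hc

theorem Lift.of_cocycle {n : ℕ} {x : B.Z n} {c : A.obj n} (hc : c ∈ A.Z n)
    (h : ρ.app n c - x ∈ B.Bd n) : ρ.Lift (B.cls n x) :=
  ⟨A.cls n ⟨c, hc⟩, by rw [mapH_cls, CosMod.cls_eq_iff]; exact h⟩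

/-- the square of `x` (in degree `N = n + n`) is liftable -/
def LiftSq (ρ : RMap φ A B) (μ : Bil B B B) {n : ℕ} (x : B.H n) : Prop :=
  ∀ (N : ℕ) (hN : N = n + n), ρ.Lift (μ.cupH hN x x)

variable {μ : Bil B B B} {μ' : Bil B' B' B'}

theorem liftSq_of {n N : ℕ} {x : B.H n} (hN : N = n + n) (h : ρ.Lift (μ.cupH hN x x)) :
    ρ.LiftSq μ x := by
  intro N' hN'
  obtain rfl : N' = N := by omega
  exact h

theorem LiftSq.zero {n : ℕ} : ρ.LiftSq μ (0 : B.H n) := fun N hN => by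
  rw [map_zero]
  exact Lift.zero

/-- additivity of squares -/
theorem LiftSq.add (hμ : ∀ p a b, μ.app p b a = μ.app p a b) {n : ℕ} {x y : B.H n}
    (hx : ρ.LiftSq μ x) (hy : ρ.LiftSq μ y) : ρ.LiftSq μ (x + y) := fun N hN => by
  have hf : μ.flip = μ := bil_ext fun p a b => hμ p a b
  have e : μ.cupH hN (x + y) (x + y) = μ.cupH hN x x + μ.cupH hN y y := by
    have hc := μ.cupH_comm good_M hN hN x y
    rw [hf] at hc
    rw [map_add, map_add, LinearMap.add_apply, LinearMap.add_apply, ← hc]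
    have h2 : μ.cupH hN x y + μ.cupH hN x y = 0 := ZModModule.add_self _
    calc μ.cupH hN x x + μ.cupH hN x y + (μ.cupH hN x y + μ.cupH hN y y)
        = μ.cupH hN x x + (μ.cupH hN x y + μ.cupH hN x y) + μ.cupH hN y y := by abel
      _ = _ := by rw [h2, add_zero]
  rw [e]
  exact (hx N hN).add (hy N hN)

/-- naturality along multiplicative maps -/
theorem LiftSq.map {n : ℕ} {x : B.H n} (hx : ρ.LiftSq μ x) (f : Hom A A') (g : Hom B B')
    (comm : ∀ p a, ρ'.app p (f.app p a) = g.app p (ρ.app p a))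
    (mul : ∀ p a b, g.app p (μ.app p a b) = μ'.app p (g.app p a) (g.app p b)) :
    ρ'.LiftSq μ' (g.mapH n x) := fun N hN => by
  rw [← Bil.cupH_nat μ μ' g g g mul hN x x]
  exact (hx N hN).map f g comm

/-- the classes with liftable square form a group -/
def sqGroup (ρ : RMap φ A B) (μ : Bil B B B) (hμ : ∀ p a b, μ.app p b a = μ.app p a b) (n : ℕ) :
    AddSubgroup (B.H n) where
  carrier := {x | ρ.LiftSq μ x}
  add_mem' hx hy := LiftSq.add hμ hx hy
  zero_mem' := LiftSq.zero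
  neg_mem' {x} hx := by
    have : -x = x := neg_eq_of_add_eq_zero_left (ZModModule.add_self x)
    rw [this]
    exact hx

theorem mem_sqGroup (hμ : ∀ p a b, μ.app p b a = μ.app p a b) {n : ℕ} {x : B.H n} :
    x ∈ ρ.sqGroup μ hμ n ↔ ρ.LiftSq μ x := Iff.rfl

end RMap

/-! ### Multiplication by `u` and squares -/

section square

variable {A B C : CosMod (ZMod 2)} {a : Act C2 A} {b : Act C2 B} {c : Act C2 C}

/-- multiplication by `u` is linear for cup products -/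
theorem uc_cup {A B C : CosMod R} {a : Act C2 A} {b : Act C2 B}
    {c : Act C2 C} (μ : Bil A B C) (ν : Bil (hG a) (hG b) (hG c))
    (hν : ∀ p x y s, hG.fn (ν.app p x y) s = μ.app p (hG.fn x s) (hG.fn y s)) {m p n : ℕ}
    (h : n = m + p) (x : (hG a).obj m) (y : (hG b).obj p) :
    ν.cup (n + 1) (uc a m x) y = uc c n (ν.cup n x y) := by
  subst h
  refine hG.ext fun s => ?_
  rw [Bil.cup, hν, hG.fn_map, hG.fn_map, uc_fn, uc_fn, Bil.cup, hν, hG.fn_map, hG.fn_map]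
  have h0 : (s ∘ fr (m + 1) (m + p + 1)) 0 = s 0 := by
    refine congrArg s (Fin.ext ?_)
    rw [fr_val]
    simp
  have h1 : (s ∘ fr (m + 1) (m + p + 1)) 1 = s 1 := by
    refine congrArg s (Fin.ext ?_)
    rw [fr_val]
    simp
  rw [h0, h1]
  split_ifs with h
  · rw [map_zero, map_zero, LinearMap.zero_apply]
  · rw [A.map_map, ← μ.nat, A.map_map, B.map_map]
    have e1 : (fr (m + 1) (m + p + 1)).comp (dl m 0) = (dl (m + p) 0).comp (fr m (m + p)) :=
      (dl_fr_le (by omega)).symm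
    have e2 : bk p (m + p + 1) = (dl (m + p) 0).comp (bk p (m + p)) :=
      (dl_bk_le (by omega) (by omega)).symm
    have e3 : (s ∘ fr (m + 1) (m + p + 1)) ∘ dl m 0 = (s ∘ dl (m + p) 0) ∘ fr m (m + p) :=
      congrArg (fun φ : Op m (m + p + 1) => s ∘ φ) e1
    have e4 : s ∘ bk p (m + p + 1) = (s ∘ dl (m + p) 0) ∘ bk p (m + p) :=
      congrArg (fun φ : Op p (m + p + 1) => s ∘ φ) e2
    rw [e1, e3, e4, e2]

theorem uH_cupH (μ : Bil A B C) (ν : Bil (hG a) (hG b) (hG c))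
    (hν : ∀ p x y s, hG.fn (ν.app p x y) s = μ.app p (hG.fn x s) (hG.fn y s)) {m p n : ℕ}
    (h : n = m + p) (h' : n + 1 = m + 1 + p) (x : (hG a).H m) (y : (hG b).H p) :
    ν.cupH h' (uH a m x) y = uH c n (ν.cupH h x y) := by
  obtain ⟨x, rfl⟩ := (hG a).cls_surjective m x
  obtain ⟨y, rfl⟩ := (hG b).cls_surjective p y
  rw [uH_cls, Bil.cupH_cls, Bil.cupH_cls, uH_cls]
  exact congrArg _ (Subtype.ext (uc_cup μ ν hν h x.1 y.1))

/-- multiplication by `u` on the second factor -/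
theorem cupH_uH (μ : Bil A B C) (ν : Bil (hG a) (hG b) (hG c))
    (hν : ∀ p x y s, hG.fn (ν.app p x y) s = μ.app p (hG.fn x s) (hG.fn y s)) {m p n : ℕ}
    (h : n = m + p) (h' : n + 1 = m + (p + 1)) (x : (hG a).H m) (y : (hG b).H p) :
    ν.cupH h' x (uH b p y) = uH c n (ν.cupH h x y) := by
  rw [ν.cupH_comm good_M h' (by omega : n + 1 = (p + 1) + m), ν.cupH_comm good_M h
    (by omega : n = p + m)]
  exact uH_cupH μ.flip ν.flip (fun p x y s => hν p y x s) _ _ y x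

/-- `(u x)(u x) = u² x²` -/
theorem uH_sq (μ : Bil A A A) (ν : Bil (hG a) (hG a) (hG a))
    (hν : ∀ p x y s, hG.fn (ν.app p x y) s = μ.app p (hG.fn x s) (hG.fn y s)) {m n : ℕ}
    (h : n = m + m) (h' : n + 2 = m + 1 + (m + 1)) (x : (hG a).H m) :
    ν.cupH h' (uH a m x) (uH a m x) = uH a (n + 1) (uH a n (ν.cupH h x x)) := by
  rw [uH_cupH μ ν hν (n := n + 1) (by omega) h', cupH_uH μ ν hν h]

end square

/-! ### Closure under `u` and `P` -/

section closure

variable {A : CosMod R} {B : CosMod (ZMod 2)} {a : Act C2 A} {b : Act C2 B}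

/-- **closure under `u`** -/
theorem RMap.LiftSq.uH {ρ : RMap φ (hG a) (hG b)}
    (hu : ∀ p f, ρ.app (p + 1) (uc a p f) = uc b p (ρ.app p f)) {μ : Bil B B B}
    {ν : Bil (hG b) (hG b) (hG b)}
    (hν : ∀ p x y s, hG.fn (ν.app p x y) s = μ.app p (hG.fn x s) (hG.fn y s)) {n : ℕ}
    {x : (hG b).H n} (hx : ρ.LiftSq ν x) : ρ.LiftSq ν (uH b n x) := by
  refine RMap.liftSq_of (N := n + n + 2) (by omega) ?_
  rw [uH_sq μ ν hν (n := n + n) rfl]
  obtain ⟨c, hc⟩ := hx (n + n) rfl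
  obtain ⟨c, rfl⟩ := (hG a).cls_surjective _ c
  refine ⟨(hG a).cls _ ⟨uc a (n + n + 1) (uc a (n + n) c), uc_uc_mem_Z a c.2⟩, ?_⟩
  rw [← hc, RMap.mapH_cls, RMap.mapH_cls, uH_cls, uH_cls]
  refine congrArg _ (Subtype.ext ?_)
  show ρ.app _ (uc a (n + n + 1) (uc a (n + n) c)) = _
  rw [hu, hu]
  rfl

/-- the reduction of homotopy fixed points commutes with `uc` -/
theorem RMap.hGmap_uc (ρ : RMap φ A B)
    (hf : ∀ p (g : C2) (x : A.obj p), ρ.app p (a.act p g x) = b.act p g (ρ.app p x)) (p : ℕ)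
    (f : (hG a).obj p) :
    (ρ.hGmap a b hf).app (p + 1) (uc a p f) = uc b p ((ρ.hGmap a b hf).app p f) := by
  refine hG.ext fun s => ?_
  rw [RMap.hGmap_fn, uc_fn, uc_fn, RMap.hGmap_fn]
  split_ifs
  · rw [map_zero]
  · rw [ρ.nat]

/-- **closure under `P`** -/
theorem RMap.LiftSq.P {A₀ : CosMod R} {B₀ : CosMod (ZMod 2)} {ρ₀ : RMap φ A₀ B₀}
    {μ₀ : Bil B₀ B₀ B₀} {ρ : RMap φ (hG a) (hG b)} {ν : Bil (hG b) (hG b) (hG b)}
    {m : Bil B₀ B₀ B} (hm : Sym m b) {n : ℕ} {x : B₀.H n}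
    (hmul : ν.cupH rfl (S.P m b hm x) (S.P m b hm x) = S.P m b hm (μ₀.cupH rfl x x))
    (hred : ∀ y : B₀.H (n + n), ρ₀.Lift y → ρ.Lift (S.P m b hm y))
    (hx : ρ₀.LiftSq μ₀ x) : ρ.LiftSq ν (S.P m b hm x) := by
  refine RMap.liftSq_of rfl ?_
  rw [hmul]
  exact hred _ (hx _ rfl)

end closure

end Vale.Agent.P263.C
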