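import Vale.Agent.P263.S.Defs
import Vale.Agent.P263.C.Bock

/-!
# P263, block C: multiplication by `u` over a general coefficient ring, and the Bockstein on `hG`
-/

noncomputable section

namespace Vale.Agent.P263.C

open Vale.Agent.P263.S

variable {R : Type} [CommRing R]

section fn

variable {G : Type} [Group G] {B : CosMod R} {a : Act G B}

/-- evaluation as an additive map -/
def fnAt (a : Act G B) (p : ℕ) (s : Fin (p + 1) → G) : (hG a).obj p →+ B.obj p where
  toFun f := hG.fn f s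
  map_zero' := rfl
  map_add' _ _ := rfl

theorem fnAt_apply (p : ℕ) (s : Fin (p + 1) → G) (f : (hG a).obj p) :
    fnAt a p s f = hG.fn f s := rfl

theorem fn_d (p : ℕ) (f : (hG a).obj p) (s : Fin (p + 2) → G) :
    hG.fn ((hG a).d p f) s =
      ∑ i ∈ Finset.range (p + 2), sn i (B.map (dl p i) (hG.fn f (s ∘ dl p i))) := by
  rw [CosMod.d_apply, ← fnAt_apply, map_sum]
  refine Finset.sum_congr rfl fun i _ => ?_
  rw [CosMod.sn_map, fnAt_apply, hG.fn_map]

end fn

variable {B : CosMod R} (a : Act C2 B)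

/-- cup product with the cochain `[s 0 ≠ s 1]` -/
def uc (p : ℕ) : (hG a).obj p →ₗ[R] (hG a).obj (p + 1) where
  toFun f := hG.mk a (fun s => if s 0 = s 1 then 0 else B.map (dl p 0) (hG.fn f (s ∘ dl p 0)))
    (by
      intro g s
      by_cases h : s 0 = s 1
      · simp [h]
      · rw [if_neg (by simpa using h), if_neg h, a.nat]
        exact congrArg _ (hG.fn_mul f g (s ∘ dl p 0)))
  map_add' f f' := hG.ext fun s => by
    simp only [hG.fn_mk, hG.fn_add, map_add]
    split_ifs <;> simp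
  map_smul' r f := hG.ext fun s => by
    simp only [hG.fn_mk, hG.fn_smul, map_smul, RingHom.id_apply]
    split_ifs <;> simp

theorem uc_fn (p : ℕ) (f : (hG a).obj p) (s : Fin (p + 2) → C2) :
    hG.fn (uc a p f) s =
      if s 0 = s 1 then 0 else B.map (dl p 0) (hG.fn f (s ∘ dl p 0)) := rfl

theorem dl_zero_arg (p j : ℕ) : dl (p + 1) (j + 1) 0 = 0 := by
  apply Fin.ext
  rw [dl_val]
  simp

theorem dl_one_arg (p j : ℕ) : dl (p + 1) (j + 2) 1 = 1 := by
  apply Fin.ext
  rw [dl_val, show ((1 : Fin (p + 2)) : ℕ) = 1 by simp, if_pos (by omega)]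
  simp

theorem dl_zero_one (p : ℕ) : dl (p + 1) 0 1 = 2 := by
  apply Fin.ext
  rw [dl_val, show ((1 : Fin (p + 2)) : ℕ) = 1 by simp, if_neg (by omega)]
  rfl

theorem dl_one_one (p : ℕ) : dl (p + 1) 1 1 = 2 := by
  apply Fin.ext
  rw [dl_val, show ((1 : Fin (p + 2)) : ℕ) = 1 by simp, if_neg (by omega)]
  rfl

theorem dl_zero_zero (p : ℕ) : dl (p + 1) 0 0 = 1 := by
  apply Fin.ext
  rw [dl_val]
  simp

/-- the sign count behind `d [s 0 ≠ s 1] = 2 [s 0 ≠ s 1] [s 1 ≠ s 2]` -/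
theorem c2_count {M : Type*} [AddCommGroup M] (x y z : C2) (X : M) :
    (if y = z then 0 else X) - (if x = z then 0 else X) + (if x = y then 0 else X) =
      (if x = y then 0 else if y = z then 0 else X) + (if x = y then 0 else if y = z then 0 else X)
        := by
  have h : ∀ x y z : C2, (x = y ∧ y = z ∧ x = z) ∨ (x = y ∧ y ≠ z ∧ x ≠ z) ∨
      (x ≠ y ∧ y = z ∧ x ≠ z) ∨ (x ≠ y ∧ y ≠ z ∧ x = z) := by decide
  rcases h x y z with ⟨h1, h2, h3⟩ | ⟨h1, h2, h3⟩ | ⟨h1, h2, h3⟩ | ⟨h1, h2, h3⟩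
  · simp [h1, h2]
  · simp only [if_pos h1, if_neg h2, if_neg h3]; abel
  · simp only [if_neg h1, if_pos h2, if_neg h3]; abel
  · simp only [if_neg h1, if_neg h2, if_pos h3]; abel

theorem d_uc (p : ℕ) (f : (hG a).obj p) :
    (hG a).d (p + 1) (uc a p f) + uc a (p + 1) ((hG a).d p f) =
      uc a (p + 1) (uc a p f) + uc a (p + 1) (uc a p f) := by
  refine hG.ext fun s => ?_
  have hdl : ∀ j : ℕ, (dl (p + 1) (j + 1)).comp (dl p 0) = (dl (p + 1) 0).comp (dl p j) :=
    fun j => dl_dl (Nat.zero_le j)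
  have hs : ∀ j : ℕ, (s ∘ dl (p + 1) (j + 1)) ∘ dl p 0 = (s ∘ dl (p + 1) 0) ∘ dl p j := by
    intro j
    have := congrArg (fun φ : Op p (p + 2) => s ∘ φ) (hdl j)
    exact this
  simp only [hG.fn_add, uc_fn, fn_d]
  rw [Finset.sum_range_succ' _ (p + 2), Finset.sum_range_succ' _ (p + 1)]
  set X : B.obj (p + 2) := B.map ((dl (p + 1) 0).comp (dl p 0))
    (hG.fn f ((s ∘ dl (p + 1) 0) ∘ dl p 0)) with hX
  set Y : ℕ → B.obj (p + 2) := fun j => B.map ((dl (p + 1) 0).comp (dl p j))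
    (hG.fn f ((s ∘ dl (p + 1) 0) ∘ dl p j)) with hY
  have e0 : (s ∘ dl (p + 1) 0) 0 = s 1 := congrArg s (dl_zero_zero p)
  have e1 : (s ∘ dl (p + 1) 0) 1 = s 2 := congrArg s (dl_zero_one p)
  have e2 : (s ∘ dl (p + 1) 1) 0 = s 0 := congrArg s (dl_zero_arg p 0)
  have e3 : (s ∘ dl (p + 1) 1) 1 = s 2 := congrArg s (dl_one_one p)
  have e4 : ∀ k, (s ∘ dl (p + 1) (k + 1 + 1)) 0 = s 0 := fun k => congrArg s (dl_zero_arg p _)
  have e5 : ∀ k, (s ∘ dl (p + 1) (k + 1 + 1)) 1 = s 1 := fun k => congrArg s (dl_one_arg p k)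
  have t0 : B.map (dl (p + 1) 0) (if (s ∘ dl (p + 1) 0) 0 = (s ∘ dl (p + 1) 0) 1 then 0 else
      B.map (dl p 0) (hG.fn f ((s ∘ dl (p + 1) 0) ∘ dl p 0))) = if s 1 = s 2 then 0 else X := by
    rw [e0, e1]
    split_ifs
    · rw [map_zero]
    · rw [B.map_map]
  have t1 : B.map (dl (p + 1) (0 + 1)) (if (s ∘ dl (p + 1) (0 + 1)) 0 =
      (s ∘ dl (p + 1) (0 + 1)) 1 then 0 else
      B.map (dl p 0) (hG.fn f ((s ∘ dl (p + 1) (0 + 1)) ∘ dl p 0))) =
      if s 0 = s 2 then 0 else X := by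
    rw [show (s ∘ dl (p + 1) (0 + 1)) 0 = s 0 from e2, show (s ∘ dl (p + 1) (0 + 1)) 1 = s 2
      from e3]
    split_ifs
    · rw [map_zero]
    · rw [B.map_map, hs 0, hdl 0]
  have t2 : ∀ k, B.map (dl (p + 1) (k + 1 + 1)) (if (s ∘ dl (p + 1) (k + 1 + 1)) 0 =
      (s ∘ dl (p + 1) (k + 1 + 1)) 1 then 0 else
      B.map (dl p 0) (hG.fn f ((s ∘ dl (p + 1) (k + 1 + 1)) ∘ dl p 0))) =
      if s 0 = s 1 then 0 else Y (k + 1) := by
    intro k
    rw [e4, e5]
    split_ifs
    · rw [map_zero]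
    · rw [B.map_map, hs (k + 1), hdl (k + 1)]
  rw [t0, t1, Finset.sum_congr rfl fun k _ => by rw [t2 k]]
  have t3 : (if s 0 = s 1 then 0 else B.map (dl (p + 1) 0)
      (∑ i ∈ Finset.range (p + 2), sn i (B.map (dl p i) (hG.fn f ((s ∘ dl (p + 1) 0) ∘ dl p i)))))
      = (if s 0 = s 1 then 0 else ∑ i ∈ Finset.range (p + 1), sn (i + 1) (Y (i + 1))) +
        (if s 0 = s 1 then 0 else X) := by
    split_ifs
    · rw [add_zero]
    · rw [Finset.sum_range_succ', map_add, map_sum]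
      congr 1
      · refine Finset.sum_congr rfl fun i _ => ?_
        rw [CosMod.sn_lin, B.map_map]
      · rw [CosMod.sn_lin, B.map_map]
        simp [sn, hX]
  rw [t3]
  have t4 : ∀ k ∈ Finset.range (p + 1), sn (k + 1 + 1) (if s 0 = s 1 then 0 else Y (k + 1)) =
      - (if s 0 = s 1 then 0 else sn (k + 1) (Y (k + 1))) := by
    intro k _
    split_ifs
    · simp [sn]
    · rw [sn_succ]
  rw [Finset.sum_congr rfl t4, Finset.sum_neg_distrib]
  have t5 : ∑ k ∈ Finset.range (p + 1), (if s 0 = s 1 then 0 else sn (k + 1) (Y (k + 1))) =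
      if s 0 = s 1 then 0 else ∑ k ∈ Finset.range (p + 1), sn (k + 1) (Y (k + 1)) := by
    split_ifs
    · simp
    · rfl
  rw [t5]
  rw [← c2_count (s 0) (s 1) (s 2) X]
  rw [show sn (0 + 1) (if s 0 = s 2 then 0 else X) = - (if s 0 = s 2 then 0 else X) by
    rw [sn_succ]; simp [sn], show sn 0 (if s 1 = s 2 then 0 else X) =
    (if s 1 = s 2 then 0 else X) by simp [sn]]
  abel

/-! ### The Bockstein on `hG` -/

section hGred

variable {G : Type} [Group G] {A : CosMod R} {B : CosMod (ZMod 2)}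

theorem inv_mul_fn {M : Type*} (p : ℕ) (s : Fin (p + 1) → G) (f : (Fin (p + 1) → G) → M) :
    f (fun i => s 0 * ((s 0)⁻¹ * s i)) = f s := by
  congr 1
  funext i
  rw [mul_inv_cancel_left]

/-- the reduction of the homotopy fixed points -/
def _root_.Vale.Agent.P263.C.Bk.hG (β : Bk A B) (a : Act G A) (b : Act G B)
    (comm : ∀ p (g : G) (x : A.obj p), β.red p (a.act p g x) = b.act p g (β.red p x)) :
    Bk (S.hG a) (S.hG b) where
  red p :=
    { toFun := fun f => hG.mk b (fun s => β.red p (hG.fn f s)) (fun g s => by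
        rw [hG.fn_mul, comm])
      map_zero' := hG.ext fun s => map_zero _
      map_add' := fun f f' => hG.ext fun s => map_add _ _ _ }
  nat φ f := hG.ext fun s => β.nat φ _
  surj p f := by
    choose l hl using β.surj p
    refine ⟨hG.mk a (fun s => a.act p (s 0) (l (hG.fn f (fun i => (s 0)⁻¹ * s i))))
      (fun g s => ?_), hG.ext fun s => ?_⟩
    · rw [map_mul, Module.End.mul_apply]
      congr 4
      funext i
      rw [mul_inv_rev, mul_assoc, inv_mul_cancel_left]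
    · show β.red p (a.act p (s 0) (l (hG.fn f (fun i => (s 0)⁻¹ * s i)))) = _
      rw [comm, hl, ← hG.fn_mul, inv_mul_fn p s (hG.fn f)]
  two p f hf := by
    have h0 : ∀ s, ∃ b, hG.fn f s = b + b := fun s =>
      β.two p _ (congrArg (fun k : (S.hG b).obj p => hG.fn k s) hf)
    choose l hl using h0
    refine ⟨hG.mk a (fun s => a.act p (s 0) (l (fun i => (s 0)⁻¹ * s i)))
      (fun g s => ?_), hG.ext fun s => ?_⟩
    · rw [map_mul, Module.End.mul_apply]
      congr 3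
      funext i
      rw [mul_inv_rev, mul_assoc, inv_mul_cancel_left]
    · show hG.fn f s = a.act p (s 0) (l (fun i => (s 0)⁻¹ * s i)) +
        a.act p (s 0) (l (fun i => (s 0)⁻¹ * s i))
      rw [← map_add, ← hl, ← hG.fn_mul, inv_mul_fn p s (hG.fn f)]
  ker p f hf := hG.ext fun s =>
    β.ker p _ (congrArg (fun k : (S.hG a).obj p => hG.fn k s) hf)

theorem hG_red_fn (β : Bk A B) (a : Act G A) (b : Act G B)
    (comm : ∀ p (g : G) (x : A.obj p), β.red p (a.act p g x) = b.act p g (β.red p x))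
    (p : ℕ) (f : (S.hG a).obj p) (s : Fin (p + 1) → G) :
    hG.fn ((β.hG a b comm).red p f) s = β.red p (hG.fn f s) := rfl

end hGred

section uBock

variable {A : CosMod R} {B : CosMod (ZMod 2)} (β : Bk A B) (a : Act C2 A) (b : Act C2 B)
    (comm : ∀ p (g : C2) (x : A.obj p), β.red p (a.act p g x) = b.act p g (β.red p x))

theorem red_uc (p : ℕ) (f : (S.hG a).obj p) :
    (β.hG a b comm).red (p + 1) (uc a p f) = uc b p ((β.hG a b comm).red p f) := by
  refine hG.ext fun s => ?_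
  rw [hG_red_fn, uc_fn, uc_fn, hG_red_fn]
  split_ifs
  · rw [map_zero]
  · rw [β.nat]

/-- `β (u w) = u² w + u β w`, on cochains -/
theorem isB_uc {n : ℕ} {x : (S.hG b).obj n} {y : (S.hG b).obj (n + 1)}
    (h : (β.hG a b comm).IsB n x y) :
    (β.hG a b comm).IsB (n + 1) (uc b n x) (uc b (n + 1) (uc b n x) + uc b (n + 1) y) := by
  obtain ⟨f, e, rfl, he, rfl⟩ := h
  refine ⟨uc a n f, uc a (n + 1) (uc a n f) - uc a (n + 1) e, red_uc β a b comm n f, ?_, ?_⟩
  · have := d_uc a n f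
    rw [he, map_add] at this
    rw [eq_sub_of_add_eq this]
    abel
  · rw [map_sub, red_uc, red_uc, red_uc, sub_eq_add_neg, neg_eq2]

end uBock

end Vale.Agent.P263.C
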